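import Crest.Agent.R66.Basic

/-! Row 66: angles between subgroups. -/

set_option autoImplicit false
set_option linter.unusedSectionVars false

namespace Crest.Agent.R66

open Finset Matrix
open scoped Classical

noncomputable section

variable {I G : Type} [DecidableEq I] [Group G] [Fintype I] [Fintype G] {Γ A A' B B₁ B₂ : Subgroup G}
  {l : ℝ}

lemma Ang.mono {l' : ℝ} (h : Ang Γ B₁ B₂ l) (hl : l ≤ l') : Ang Γ B₁ B₂ l' :=
  fun f g hf hg q h0 => (h f g hf hg q h0).trans (by gcongr)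

lemma ang_card_pos (E : Subgroup G) : (0 : ℝ) < Nat.card E := by exact_mod_cast Nat.card_pos

lemma ang_congr {f g : G → ℝ} {q : G} (h : ∀ e ∈ Γ, f (q * e) = g (q * e)) : av Γ f q = av Γ g q :=
  congrArg (· / (Nat.card Γ : ℝ)) (sum_congr rfl fun e he => h e (mem_filter.1 he).2)

lemma ang_mul_mem (f : G → ℝ) (q : G) {e : G} (he : e ∈ Γ) : av Γ f (q * e) = av Γ f q := by
  rw [av, sm_mul_mem q he, av]

lemma ang_mono {f g : G → ℝ} (h : ∀ x, f x ≤ g x) (q : G) : av Γ f q ≤ av Γ g q :=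
  div_le_div_of_nonneg_right (sum_le_sum fun _ _ => h _) (ang_card_pos Γ).le

lemma ang_const (c : ℝ) (q : G) : av Γ (fun _ => c) q = c := by
  rw [av, sm_const, nsmul_eq_mul, mul_div_cancel_left₀ _ (ang_card_pos Γ).ne']

lemma ang_nonneg {f : G → ℝ} (h : ∀ x, 0 ≤ f x) (q : G) : 0 ≤ av Γ f q :=
  (ang_const 0 q).ge.trans (ang_mono h q)

lemma ang_sq_nonneg (f : G → ℝ) (q : G) : 0 ≤ av Γ (f ^ 2) q := ang_nonneg (fun _ => sq_nonneg _) q

lemma ang_lin (a b c : ℝ) (f g h : G → ℝ) (q : G) :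
    av Γ (fun x => a * f x + b * g x + c * h x) q = a * av Γ f q + b * av Γ g q + c * av Γ h q := by
  simp only [av, sm, sum_add_distrib, ← mul_sum]
  ring

lemma ang_sub_const (f : G → ℝ) (m : ℝ) (q : G) : av Γ (fun x => f x - m) q = av Γ f q - m := by
  have := ang_lin (Γ := Γ) 1 (-m) 0 f (fun _ => 1) f q
  rw [ang_const] at this
  simpa [sub_eq_add_neg] using this

lemma ang_shift (f : G → ℝ) (q : G) {b : G} (hb : b ∈ Γ) :
    av Γ (fun x => f (x * b)) q = av Γ f q := by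
  refine congrArg (· / (Nat.card Γ : ℝ)) (sum_bijective (· * b) (Group.mulRight_bijective b)
    (fun x => ?_) fun x _ => ?_)
  · simp [Γ.mul_mem_cancel_right hb]
  · simp only [mul_assoc]

lemma ang_mul_av (g f : G → ℝ) (q : G) :
    av Γ (g * av B f) q = (∑ b with b ∈ B, av Γ (fun x => g x * f (x * b)) q) / Nat.card B := by
  simp only [av, sm, Pi.mul_apply, ← sum_div, ← mul_div_assoc, mul_sum]
  rw [sum_comm, div_right_comm]

lemma ang_abs (f : G → ℝ) (q : G) : |av Γ f q| ≤ av Γ (fun x => |f x|) q := by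
  rw [av, av, abs_div, abs_of_pos (ang_card_pos Γ)]
  exact div_le_div_of_nonneg_right (abs_sum_le_sum_abs _ _) (ang_card_pos Γ).le

lemma ang_cs (f g : G → ℝ) (q : G) :
    |av Γ (f * g) q| ≤ √(av Γ (f ^ 2) q) * √(av Γ (g ^ 2) q) := by
  rw [← Real.sqrt_mul (ang_sq_nonneg f q)]
  refine Real.abs_le_sqrt ?_
  simp only [av, sm, Pi.mul_apply, Pi.pow_apply]
  rw [div_pow, div_mul_div_comm, ← sq]
  exact div_le_div_of_nonneg_right (sum_mul_sq_le_sq_mul_sq _ _ _) (sq_nonneg _)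

/-- The tower property of averages. -/
theorem av_av (h : B ≤ Γ) (f : G → ℝ) (q : G) : av Γ (av B f) q = av Γ f q := by
  have h2 := ang_mul_av (Γ := Γ) (B := B) 1 f q
  simp only [one_mul, Pi.one_apply] at h2
  rw [h2, sum_congr rfl fun b hb => ang_shift f q (h (mem_filter.1 hb).2)]
  exact ang_const (Γ := B) _ 1

lemma ang_av_mul (h : B ≤ Γ) (f : G → ℝ) {g : G → ℝ} (hg : ∀ q, ∀ x ∈ B, g (q * x) = g q) (q : G) :
    av Γ (f * g) q = av Γ (av B f * g) q := by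
  rw [← av_av h]
  refine congrArg (fun φ => av Γ φ q) (funext fun x => ?_)
  rw [ang_congr (g := fun y => f y * g x) fun e he => by rw [Pi.mul_apply, hg x e he]]
  simp only [av, sm, Pi.mul_apply, ← sum_mul]
  ring

lemma ang_av_sub (f : G → ℝ) (q : G) : av B (f - av B f) q = 0 := by
  rw [ang_congr (g := fun x => f x - av B f q) fun e he => by rw [Pi.sub_apply, ang_mul_mem f q he],
    ang_sub_const, sub_self]

lemma ang_split (h : B ≤ Γ) (f g : G → ℝ) (q : G) :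
    av Γ ((f - av B f) * (g - av B g)) q = av Γ (f * g) q - av Γ (av B f * av B g) q := by
  have h1 := ang_av_mul h f (g := av B g) (fun q x hx => ang_mul_mem g q hx) q
  have h2 := ang_av_mul h g (g := av B f) (fun q x hx => ang_mul_mem f q hx) q
  have h3 := ang_lin (Γ := Γ) 1 (-1) 1 (f * g) (f * av B g) (fun x => (-1) * (g * av B f) x +
    1 * (av B g * av B f) x + 0 * f x) q
  rw [ang_lin (-1) 1 0, h2, h1] at h3
  rw [show (f - av B f) * (g - av B g) = fun x => 1 * (f * g) x + (-1) * (f * av B g) x +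
    1 * ((-1) * (g * av B f) x + 1 * (av B g * av B f) x + 0 * f x) from
      funext fun x => by simp only [Pi.mul_apply, Pi.sub_apply]; ring, h3]
  ring

lemma ang_pyth (h : B ≤ Γ) (f : G → ℝ) (q : G) :
    av Γ ((f - av B f) ^ 2) q = av Γ (f ^ 2) q - av Γ (av B f ^ 2) q := by
  simp only [sq, ang_split h]

/-- Removing the mean of the second function. -/
lemma ang_center (f g : G → ℝ) {q : G} (hf : av Γ f q = 0) :
    av Γ (f * fun x => g x - av Γ g q) q = av Γ (f * g) q ∧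
      av Γ ((fun x => g x - av Γ g q) ^ 2) q ≤ av Γ (g ^ 2) q := by
  constructor
  · have := ang_lin (Γ := Γ) 1 (-av Γ g q) 0 (f * g) f f q
    rw [hf] at this
    rw [show (f * fun x => g x - av Γ g q) = fun x => 1 * (f * g) x + -av Γ g q * f x + 0 * f x from
      funext fun x => by simp only [Pi.mul_apply]; ring, this]
    ring
  · rw [ang_congr (g := (g - av Γ g) ^ 2) fun e he => by
      simp only [Pi.pow_apply, Pi.sub_apply, ang_mul_mem g q he], ang_pyth le_rfl]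
    exact sub_le_self _ (ang_sq_nonneg _ _)

/-- Sketch: replace `g` by `g - av Γ g q`; this does not change `av Γ (f * g) q` and does not
increase `av Γ (g ^ 2) q`. -/
theorem Ang.symm (hl : 0 ≤ l) (h : Ang Γ B₁ B₂ l) : Ang Γ B₂ B₁ l := by
  intro f g hf hg q h0
  have h1 := h (fun x => g x - av Γ g q) f (fun q x hx => by simp only [hg q x hx]) hf q
    (by rw [ang_sub_const, sub_self])
  obtain ⟨h2, h3⟩ := ang_center f g h0
  rw [mul_comm, h2, mul_right_comm] at h1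
  exact h1.trans (by gcongr)

lemma ang_av_of_mul (h₂ : B₂ ≤ Γ) (h : ∀ γ ∈ Γ, ∃ x ∈ B₁, ∃ y ∈ B₂, γ = x * y) {f : G → ℝ}
    (hf : ∀ q, ∀ x ∈ B₁, f (q * x) = f q) (q : G) : av B₂ f q = av Γ f q := by
  have h1 : ∀ γ ∈ Γ, av B₂ (fun x => f (x * γ)) q = av B₂ f q := fun γ hγ => by
    obtain ⟨x, hx, y, hy, e⟩ := h γ⁻¹ (Γ.inv_mem hγ)
    rw [inv_eq_iff_eq_inv.1 e, ← ang_shift f q (B₂.inv_mem hy)]
    simp only [_root_.mul_inv_rev, ← mul_assoc, hf _ _ (B₁.inv_mem hx)]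
  have h2 := ang_mul_av (Γ := B₂) (B := Γ) 1 f q
  simp only [one_mul, Pi.one_apply] at h2
  rw [sum_congr rfl fun γ hγ => h1 γ (mem_filter.1 hγ).2,
    ang_congr (g := fun _ => av Γ f q) fun e he => ang_mul_mem f q (h₂ he), ang_const] at h2
  exact (ang_const _ 1).symm.trans h2.symm

/-- Sketch: by inversion `Γ = B₂ B₁`.  The fibres of `(y, x) ↦ y * x`, `B₂ × B₁ → Γ` all have the
same size `n > 0` (translate by a chosen `(y₀, x₀)`), so for `B₁`-invariant `f` we get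
`card B₁ * sm B₂ f q' = n * sm Γ f q' = 0` for `q' ∈ q Γ`; then
`av Γ (f * g) q = av Γ (av B₂ (f * g)) q = av Γ (av B₂ f * g) q = 0`. -/
theorem Ang.of_mul (h₁ : B₁ ≤ Γ) (h₂ : B₂ ≤ Γ) (h : ∀ γ ∈ Γ, ∃ x ∈ B₁, ∃ y ∈ B₂, γ = x * y) :
    Ang Γ B₁ B₂ 0 := by
  intro f g hf hg q h0
  rw [ang_av_mul h₂ f hg, ang_congr (g := fun _ => 0) fun e he => by
    rw [Pi.mul_apply, ang_av_of_mul h₂ h hf, ang_mul_mem f q he, h0, zero_mul], ang_const]
  simp

/-- Heisenberg groups.  Sketch: `f = f₀ + av A' f`; `av Γ (av A' f * g) q = 0` by `Ang.of_mul` for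
`(A', B)`.  `av Γ (f₀ * g) = av Γ (av B f₀ * g)`, and `av Γ ((av B f₀) ^ 2) q =
av Γ (f₀ * av B f₀) q = (card B)⁻¹ * ∑ b ∈ B, av Γ (f₀ * f₀ (· * b)) q`; for `b ≠ 1` the term
vanishes by `Ang.of_mul` for `(A', A, b A b⁻¹)`, as `av A' f₀ = 0`.  Cauchy-Schwarz and
`av Γ (f₀ ^ 2) ≤ av Γ (f ^ 2)`. -/
theorem Ang.heis (hA : A ≤ A') (hA' : A' ≤ Γ) (hB : B ≤ Γ)
    (hn : ∀ b ∈ B, ∀ x ∈ A', b * x * b⁻¹ ∈ A') (h : ∀ γ ∈ Γ, ∃ x ∈ A', ∃ y ∈ B, γ = x * y)
    (h' : ∀ b ∈ B, b ≠ 1 → ∀ γ ∈ A', ∃ x ∈ A, ∃ y ∈ A, γ = x * (b * y * b⁻¹)) :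
    Ang Γ A B (1 / √(Nat.card B)) := by
  intro f g hf hg q h0
  have h1 := Ang.of_mul hA' hB h (av A' f) g (fun q x hx => ang_mul_mem f q hx) hg q
    (by rw [av_av hA', h0])
  rw [zero_mul, zero_mul, abs_nonpos_iff] at h1
  set f₀ := f - av A' f with hf₀
  have h2 : av Γ (f * g) q = av Γ (f₀ * g) q := by
    have := ang_lin (Γ := Γ) 1 (-1) 0 (f * g) (av A' f * g) f q
    rw [h1] at this
    rw [show f₀ * g = fun x => 1 * (f * g) x + -1 * (av A' f * g) x + 0 * f x from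
      funext fun x => by simp only [hf₀, Pi.mul_apply, Pi.sub_apply]; ring, this]
    ring
  have h3 : ∀ q, ∀ x ∈ A, f₀ (q * x) = f₀ q := fun q x hx => by
    simp only [hf₀, Pi.sub_apply, hf q x hx, ang_mul_mem f q (hA hx)]
  have h4 : av Γ (av B f₀ ^ 2) q = av Γ (f₀ ^ 2) q / Nat.card B := by
    rw [sq, ← ang_av_mul hB f₀ fun q x hx => ang_mul_mem f₀ q hx, ang_mul_av,
      sum_eq_single_of_mem 1 (by simp)]
    · simp only [mul_one, sq]; rfl
    · intro b hb hb1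
      have hb' := (mem_filter.1 hb).2
      rw [← av_av hA', ang_congr (g := fun _ => 0) fun e _ => ?_, ang_const]
      have := Ang.of_mul (Γ := A') (B₂ := A.map (MulAut.conj b).toMonoidHom) hA
        (by rintro _ ⟨x, hx, rfl⟩; exact hn b hb' x (hA hx)) (fun γ hγ => by
          obtain ⟨x, hx, y, hy, e⟩ := h' b hb' hb1 γ hγ
          exact ⟨x, hx, _, ⟨y, hy, rfl⟩, e⟩) f₀ (fun x => f₀ (x * b)) h3 (by
          rintro q _ ⟨x, hx, rfl⟩
          rw [← h3 (q * b) x hx]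
          simp [mul_assoc]) (q * e) (ang_av_sub f _)
      rwa [zero_mul, zero_mul, abs_nonpos_iff] at this
  have h5 : av Γ (f₀ ^ 2) q ≤ av Γ (f ^ 2) q := by
    rw [hf₀, ang_pyth hA']; exact sub_le_self _ (ang_sq_nonneg _ _)
  rw [h2, ang_av_mul hB f₀ hg]
  refine (ang_cs _ _ _).trans ?_
  rw [h4, Real.sqrt_div (ang_sq_nonneg _ _), one_div_mul_eq_div]
  gcongr

end

end Crest.Agent.R66
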