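import Crest.Agent.R66.Defs

/-! Row 66: basic API for cochains of coset complexes. -/

set_option autoImplicit false
set_option linter.unusedSectionVars false

namespace Crest.Agent.R66

open Finset Matrix
open scoped Classical

noncomputable section

variable {I G A : Type} [DecidableEq I] [Group G] [AddCommGroup A] [Module (ZMod 2) A]
  {Γ Γ' : Finset I → Subgroup G} {U U' : Finset I → G → Prop} {a : ℕ} {c c' : Finset I → G → A}

lemma two_self (x : A) : x + x = 0 := by
  rw [← two_smul (ZMod 2) x, show (2 : ZMod 2) = 0 from rfl, zero_smul]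

lemma eq_of_add_eq_zero' {x y : A} (h : x + y = 0) : x = y := by
  rw [← add_zero x, ← two_self y, ← add_assoc, h, zero_add]

lemma odd_nsmul {n : ℕ} (hn : Odd n) (x : A) : n • x = x := by
  obtain ⟨k, rfl⟩ := hn
  rw [add_nsmul, one_nsmul, mul_nsmul, two_nsmul, two_self, nsmul_zero, zero_add]

/-- A symmetric double sum without diagonal vanishes in characteristic two. -/
lemma sum_erase_erase {V : Type} [DecidableEq V] (f : Finset V → A) (M : Finset V) :
    ∑ i ∈ M, ∑ j ∈ M.erase i, f ((M.erase i).erase j) = 0 := by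
  rw [sum_sigma']
  refine sum_involution (fun x _ => ⟨x.2, x.1⟩) (fun x _ => ?_) (fun x hx _ h => ?_)
    (fun x hx => ?_) (fun _ _ => rfl)
  · rw [erase_right_comm (a := x.2)]; exact two_self _
  · simp only [mem_sigma, mem_erase] at hx
    exact hx.2.1 (congrArg Sigma.fst h)
  · simp only [mem_sigma, mem_erase] at hx ⊢
    exact ⟨hx.2.2, Ne.symm hx.2.1, hx.1⟩

@[simp] lemma dl_dl (c : Finset I → G → A) : dl (dl c) = 0 := by
  funext M q
  exact sum_erase_erase (fun K => c K q) M

lemma dl_add (c c' : Finset I → G → A) : dl (c + c') = dl c + dl c' := by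
  funext M q
  simp [dl, sum_add_distrib]

@[simp] lemma dl_zero : dl (0 : Finset I → G → A) = 0 := by
  funext M q
  simp [dl]

@[simp] lemma dl_empty (c : Finset I → G → A) (q : G) : dl c ∅ q = 0 := by simp [dl]

lemma dl_sum {X : Type} (s : Finset X) (c : X → Finset I → G → A) :
    dl (∑ x ∈ s, c x) = ∑ x ∈ s, dl (c x) := by
  funext M q
  simp only [dl, Finset.sum_apply]
  exact sum_comm

lemma dl_Lt (g : G) (c : Finset I → G → A) : dl (Lt g c) = Lt g (dl c) := rfl

lemma Lt_mul (g h : G) (c : Finset I → G → A) : Lt (g * h) c = Lt h (Lt g c) := by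
  funext K q
  simp [Lt, mul_assoc]

@[simp] lemma Lt_one (c : Finset I → G → A) : Lt 1 c = c := by
  funext K q
  simp [Lt]

lemma Lt_add (g : G) (c c' : Finset I → G → A) : Lt g (c + c') = Lt g c + Lt g c' := rfl

lemma Inv.dl (hΓ : Antitone Γ) (hc : Inv Γ c) : Inv Γ (dl c) := fun K q γ hγ =>
  sum_congr rfl fun i _ => hc _ q γ (hΓ (erase_subset i K) hγ)

lemma Inv.add (hc : Inv Γ c) (hc' : Inv Γ c') : Inv Γ (c + c') := fun K q γ hγ => by
  simp [hc K q γ hγ, hc' K q γ hγ]

lemma Inv.zero : Inv Γ (0 : Finset I → G → A) := fun _ _ _ _ => rfl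

lemma Inv.sum {X : Type} (s : Finset X) {c : X → Finset I → G → A} (hc : ∀ x ∈ s, Inv Γ (c x)) :
    Inv Γ (∑ x ∈ s, c x) := fun K q γ hγ => by
  simp only [Finset.sum_apply]
  exact sum_congr rfl fun x hx => hc x hx K q γ hγ

lemma Inv.tr (hc : Inv Γ c) (g : G) : Inv Γ (Lt g c) := fun K q γ hγ => by
  simp only [Lt, ← mul_assoc, hc K _ γ hγ]

lemma Inv.mono (hc : Inv Γ c) (h : ∀ K, Γ' K ≤ Γ K) : Inv Γ' c := fun K q γ hγ =>
  hc K q γ (h K hγ)

/-- Restriction of a cochain to a set of faces. -/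
def res (U : Finset I → G → Prop) (c : Finset I → G → A) : Finset I → G → A :=
  fun K q => if U K q then c K q else 0

lemma res_of {K : Finset I} {q : G} (h : U K q) : res U c K q = c K q := if_pos h

lemma res_of_not {K : Finset I} {q : G} (h : ¬ U K q) : res U c K q = 0 := if_neg h

lemma supp_res : Supp U (res U c) := fun _ _ h => if_neg h

lemma Inv.res (hc : Inv Γ c) (hU : UInv Γ U) : Inv Γ (res U c) := fun K q γ hγ => by
  simp only [R66.res, hU K q γ hγ, hc K q γ hγ]

lemma Supp.add (hc : Supp U c) (hc' : Supp U c') : Supp U (c + c') := fun K q h => by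
  simp [hc K q h, hc' K q h]

lemma Supp.mono (hc : Supp U c) (h : ∀ K q, U K q → U' K q) : Supp U' c := fun K q h' =>
  hc K q (mt (h K q) h')

lemma supp_al : Supp Al c := fun _ _ h => (h trivial).elim

lemma uinv_al : UInv Γ Al := fun _ _ _ _ => Iff.rfl

lemma conv_al : Conv (Al : Finset I → G → Prop) := fun _ _ _ _ _ _ _ _ => trivial

lemma Coc.add (hc : Coc U a c) (hc' : Coc U a c') : Coc U a (c + c') := fun M q hM hU => by
  simp [dl_add, hc M q hM hU, hc' M q hM hU]

lemma Coc.tr (hc : Coc Al a c) (g : G) : Coc Al a (Lt g c) := fun M _ hM _ => hc M _ hM trivial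

lemma coc_dl : Coc U a (dl c) := fun M q _ _ => by simp

lemma Exa.congr (h : Exa Γ U a c) (h' : ∀ K q, #K = a → U K q → c' K q = c K q) :
    Exa Γ U a c' := by
  obtain ⟨b, h1, h2, h3⟩ := h
  exact ⟨b, h1, h2, fun K q hK hU => (h' K q hK hU).trans (h3 K q hK hU)⟩

lemma Exa.of_zero (h : ∀ K q, #K = a → U K q → c K q = 0) : Exa Γ U a c :=
  ⟨0, Inv.zero, fun _ _ _ => rfl, fun K q hK hU => by simp [h K q hK hU]⟩

lemma Exa.add (h : Exa Γ U a c) (h' : Exa Γ U a c') : Exa Γ U a (c + c') := by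
  obtain ⟨b, h1, h2, h3⟩ := h
  obtain ⟨b', h1', h2', h3'⟩ := h'
  exact ⟨b + b', h1.add h1', h2.add h2', fun K q hK hU => by
    simp [dl_add, h3 K q hK hU, h3' K q hK hU]⟩

lemma Exa.sum {X : Type} (s : Finset X) {c : X → Finset I → G → A}
    (hc : ∀ x ∈ s, Exa Γ U a (c x)) : Exa Γ U a (∑ x ∈ s, c x) :=
  sum_induction c (Exa Γ U a) (fun _ _ => Exa.add) (Exa.of_zero fun _ _ _ _ => rfl) hc

lemma Exa.of_add (h : Exa Γ U a (c + c')) (h' : Exa Γ U a c') : Exa Γ U a c :=
  (h.add h').congr fun K q _ _ => by simp [add_assoc, two_self]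

/-- Restriction to smaller groups and to a relatively closed set of faces. -/
lemma Exa.restrict (h : Exa Γ U a c) (hΓ : ∀ K, Γ' K ≤ Γ K) (hU : UInv Γ' U')
    (h1 : ∀ K q, U' K q → U K q) (h2 : ∀ K q, ∀ i ∈ K, U' K q → U (K.erase i) q → U' (K.erase i) q) :
    Exa Γ' U' a c := by
  obtain ⟨b, hb, hs, he⟩ := h
  refine ⟨res U' b, (hb.mono hΓ).res hU, supp_res, fun K q hK hq => ?_⟩
  rw [he K q hK (h1 K q hq)]
  refine sum_congr rfl fun i hi => ?_
  by_cases h : U (K.erase i) q
  · exact (res_of (h2 K q i hi hq h)).symm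
  · rw [hs _ _ h, res_of_not (mt (h1 _ q) h)]

/-- Left translation. -/
lemma Exa.tr (h : Exa Γ U a c) (g : G) : Exa Γ (fun K q => U K (g * q)) a (Lt g c) := by
  obtain ⟨b, hb, hs, he⟩ := h
  exact ⟨Lt g b, hb.tr g, fun K q h => hs K _ h, fun K q hK hq => he K _ hK hq⟩

lemma Ex.of_empty (h : ∀ K q, #K = a → ¬ U K q) : Ex A Γ U a := fun _ _ _ _ =>
  Exa.of_zero fun K q hK hU => (h K q hK hU).elim

lemma Ex.congr (h : Ex A Γ U a) (h' : ∀ K q, U' K q ↔ U K q) : Ex A Γ U' a := by
  obtain rfl : U' = U := by funext K q; exact propext (h' K q)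
  exact h

/-- Change of coefficients along a retraction. -/
lemma Ex.coeff {A' : Type} [AddCommGroup A'] (ι : A →+ A') (ρ : A' →+ A) (h : ∀ x, ρ (ι x) = x)
    (hE : Ex A' Γ U a) : Ex A Γ U a := fun c hc hs hco => by
  obtain ⟨b, hb, hs', he⟩ := hE (fun K q => ι (c K q)) (fun K q γ hγ => by simp [hc K q γ hγ])
    (fun K q h => by simp [hs K q h]) (fun M q hM hU => by
      rw [dl, ← map_sum]; exact (congrArg ι (hco M q hM hU)).trans (map_zero ι))
  refine ⟨fun K q => ρ (b K q), fun K q γ hγ => by simp [hb K q γ hγ],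
    fun K q h => by simp [hs' K q h], fun K q hK hU => ?_⟩
  rw [dl, ← map_sum, ← h (c K q)]
  exact congrArg ρ (he K q hK hU)

section sm
variable [Fintype G] {B : Type} [AddCommGroup B] {E : Subgroup G} {f : G → B}

lemma sm_mul_mem (q : G) {e : G} (he : e ∈ E) : sm E f (q * e) = sm E f q := by
  refine sum_bijective (e * ·) (Group.mulLeft_bijective e) (fun x => ?_) fun x _ => ?_
  · simp [E.mul_mem_cancel_left he]
  · rw [mul_assoc]

/-- If `γ` normalises `E`, then summing over cosets of `E` preserves `γ`-invariance. -/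
lemma sm_mul_of_norm {γ : G} (hγ : ∀ e, γ * e * γ⁻¹ ∈ E ↔ e ∈ E) (hf : ∀ q, f (q * γ) = f q)
    (q : G) : sm E f (q * γ) = sm E f q := by
  refine sum_bijective (fun e => γ * e * γ⁻¹) (MulAut.conj γ).bijective (fun x => ?_) fun x _ => ?_
  · simp [hγ]
  · rw [← hf (q * (γ * x * γ⁻¹))]; congr 1; group

lemma sm_const (x : B) (q : G) : sm E (fun _ => x) q = Nat.card E • x := by
  rw [sm, sum_const, Nat.card_eq_fintype_card, Fintype.card_subtype]

lemma sm_of_inv (hf : ∀ q, ∀ e ∈ E, f (q * e) = f q) (q : G) : sm E f q = Nat.card E • f q := by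
  rw [← sm_const (f q) q]
  exact sum_congr rfl fun e he => hf q e (by simpa using he)

lemma sum_sm (E : Subgroup G) (f : G → B) : ∑ q, sm E f q = Nat.card E • ∑ q, f q := by
  rw [← sm_const (E := E) (∑ q, f q) 1]
  simp only [sm]
  rw [sum_comm]
  exact sum_congr rfl fun e _ => Equiv.sum_comp (Equiv.mulRight e) f

lemma dl_sm (E : Subgroup G) (c : Finset I → G → A) :
    dl (fun K => sm E (c K)) = fun K => sm E (dl c K) := by
  funext M q
  simp only [dl, sm]
  exact sum_comm

end sm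

end

end Crest.Agent.R66
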