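import Crest.Agent.R66.Ext

/-! Row 66: cones, collapses, cosets. -/

set_option autoImplicit false
set_option linter.unusedSectionVars false

namespace Crest.Agent.R66

open Finset Matrix
open scoped Classical

noncomputable section

variable {I G A : Type} [DecidableEq I] [Group G] [AddCommGroup A] [Module (ZMod 2) A]
  {Γ : Finset I → Subgroup G} {U U₁ U₂ : Finset I → G → Prop} {a : ℕ} {c : Finset I → G → A}

/-- Cones.  Sketch: `b K q = if j ∉ K ∧ U K q then c (insert j K) q else 0`.  For `j ∈ K` only the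
term `i = j` of `dl b K q` survives; for `j ∉ K` use the cocycle condition at `insert j K`. -/
theorem Exa.cone (j : I) (hU : UInv Γ U) (hj : ∀ K q, U (insert j K) q ↔ U K q) (hs : Supp U c)
    (hco : Coc U a c)
    (hc : ∀ K q, j ∉ K → U K q → ∀ γ ∈ Γ K, c (insert j K) (q * γ) = c (insert j K) q) :
    Exa Γ U a c := by
  refine ⟨fun K q => if j ∉ K ∧ U K q then c (insert j K) q else 0, fun K q γ hγ => ?_,
    fun K q h => if_neg fun h' => h h'.2, fun K q hK hq => ?_⟩
  · simp only [hU K q γ hγ]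
    split_ifs with h
    · exact hc K q h.1 h.2 γ hγ
    · rfl
  by_cases hjK : j ∈ K
  · rw [dl, sum_eq_single_of_mem j hjK fun i _ hij => if_neg fun h =>
      h.1 (mem_erase.2 ⟨hij.symm, hjK⟩)]
    have : U (K.erase j) q := (hj _ _).1 (by rwa [insert_erase hjK])
    rw [if_pos ⟨notMem_erase j K, this⟩, insert_erase hjK]
  · have := hco (insert j K) q (by rw [card_insert_of_notMem hjK, hK]) ((hj _ _).2 hq)
    rw [dl, sum_insert hjK, erase_insert hjK] at this
    rw [eq_of_add_eq_zero' this]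
    refine sum_congr rfl fun i hi => ?_
    have hij : j ≠ i := by rintro rfl; exact hjK hi
    rw [erase_insert_of_ne hij]
    by_cases h : U (K.erase i) q
    · exact (if_pos ⟨fun h' => hjK (mem_of_mem_erase h'), h⟩).symm
    · rw [hs _ _ (mt (hj _ _).1 h)]
      exact (if_neg fun h' => h h'.2).symm

/-- Types outside `J` can be collapsed.  Sketch: induction on a finset `T` (`Finset.induction_on`):
`Ex` for `U K q ∧ K ⊆ J ∪ T`; to add `c ∉ J ∪ T` use `Ex.ext` with `U₂ = (… ∧ c ∈ K)`, which is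
exact by `Exa.cone c'`. -/
theorem Ex.collapse [Fintype I] (J : Finset I) (hΓ : Antitone Γ) (hU : UInv Γ U) (hc : Conv U)
    (h : ∀ c ∉ J, ∃ c' ∈ J, ∀ K, c ∈ K →
      Γ K ≤ Γ (insert c' K) ∧ ∀ q, U (insert c' K) q ↔ U K q)
    (e : Ex A Γ (fun K q => U K q ∧ K ⊆ J) a) : Ex A Γ U a := by
  have key : ∀ T : Finset I, Ex A Γ (fun K q => U K q ∧ K ⊆ J ∪ T) a := by
    intro T
    induction T using Finset.induction_on with
    | empty => exact e.congr fun K q => by rw [union_empty]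
    | insert x T hx ih =>
      by_cases hxJ : x ∈ J
      · refine ih.congr fun K q => ?_
        rw [union_insert, insert_eq_of_mem (mem_union_left _ hxJ)]
      obtain ⟨c', hc', h'⟩ := h x hxJ
      have hxc : x ≠ c' := by rintro rfl; exact hxJ hc'
      have hU₂ : UInv Γ (fun K q => (U K q ∧ K ⊆ J ∪ insert x T) ∧ x ∈ K) := fun K q γ hγ => by
        simp only [hU K q γ hγ]
      refine Ex.ext (U₂ := fun K q => (U K q ∧ K ⊆ J ∪ insert x T) ∧ x ∈ K) hΓ
        (fun K q γ hγ => by simp only [hU K q γ hγ]) hU₂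
        (fun K L M q h1 h2 h3 h4 => ⟨hc K L M q h1 h2 h3.1 h4.1, h2.trans h4.2⟩)
        (fun K q h => h.1) (fun K L q h1 h2 h3 => ⟨h3, h1 h2.2⟩) (fun K q => ?_) ih ?_
      · constructor
        · rintro ⟨h1, h2⟩
          refine ⟨⟨h1, h2.trans (union_subset_union_right (subset_insert _ _))⟩, fun h3 => ?_⟩
          rcases mem_union.1 (h2 h3.2) with h4 | h4
          · exact hxJ h4
          · exact hx h4
        · rintro ⟨⟨h1, h2⟩, h3⟩
          refine ⟨h1, fun y hy => ?_⟩
          have := h2 hy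
          rw [union_insert, mem_insert] at this
          rcases this with rfl | h4
          · exact (h3 ⟨⟨h1, h2⟩, hy⟩).elim
          · exact h4
      · intro c hi hs hco
        refine Exa.cone c' hU₂ (fun K q => ?_) hs hco fun K q _ hq γ hγ =>
          hi _ q γ ((h' K hq.2).1 hγ)
        simp only [mem_insert, hxc, false_or]
        refine and_congr_left fun hxK => ?_
        rw [(h' K hxK).2 q, insert_subset_iff]
        simp [hc']
  exact (key univ).congr fun K q =>
    ⟨fun h => ⟨h, (subset_univ K).trans subset_union_right⟩, fun h => h.1⟩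

/-- Gluing over the cosets of `Γ₀`.  Sketch: `ρ q = (q : G ⧸ Γ₀).out`,
`b K q = if U K q then b_{ρ q} K ((ρ q)⁻¹ * q) else 0`. -/
theorem Exa.of_cosets (Γ₀ : Subgroup G) (hU : UInv Γ U) (h0 : ∀ K q, U K q → Γ K ≤ Γ₀)
    (h : ∀ q₀, Exa Γ (fun K x => x ∈ Γ₀ ∧ U K (q₀ * x)) a (Lt q₀ c)) : Exa Γ U a c := by
  choose b hb hs he using h
  let ρ : G → G := fun q => (QuotientGroup.mk q : G ⧸ Γ₀).out
  have hρ : ∀ q, (ρ q)⁻¹ * q ∈ Γ₀ := fun q =>
    QuotientGroup.eq.1 (QuotientGroup.out_eq' (QuotientGroup.mk q : G ⧸ Γ₀))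
  have hρ' : ∀ q, ∀ γ ∈ Γ₀, ρ (q * γ) = ρ q := fun q γ hγ => by
    simp only [ρ, QuotientGroup.mk_mul_of_mem q hγ]
  refine ⟨fun K q => if U K q then b (ρ q) K ((ρ q)⁻¹ * q) else 0, fun K q γ hγ => ?_,
    fun K q h => if_neg h, fun K q hK hq => ?_⟩
  · simp only [hU K q γ hγ]
    split_ifs with h
    · rw [hρ' q γ (h0 K q h hγ), ← mul_assoc, hb _ K _ γ hγ]
    · rfl
  · have := he (ρ q) K ((ρ q)⁻¹ * q) hK ⟨hρ q, by rwa [mul_inv_cancel_left]⟩
    rw [Lt, mul_inv_cancel_left] at this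
    rw [this]
    refine sum_congr rfl fun i _ => ?_
    by_cases h : U (K.erase i) q
    · exact (if_pos h).symm
    · rw [hs (ρ q) _ _ fun h' => h (by simpa using h'.2)]
      exact (if_neg h).symm

/-- Sketch: apply `h q₀` to `res (fun _ x => x ∈ Γ₀) (Lt q₀ c)` and use `Exa.congr`,
`Exa.of_cosets`. -/
theorem Ex.of_cosets (Γ₀ : Subgroup G) (hU : UInv Γ U) (h0 : ∀ K q, U K q → Γ K ≤ Γ₀)
    (h : ∀ q₀, Ex A Γ (fun K x => x ∈ Γ₀ ∧ U K (q₀ * x)) a) : Ex A Γ U a := by
  intro c hi hs hco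
  refine Exa.of_cosets Γ₀ hU h0 fun q₀ => ?_
  refine (h q₀ (res (fun _ x => x ∈ Γ₀) (Lt q₀ c)) (fun K x γ hγ => ?_) (fun K x hx => ?_)
    fun M x hM hx => ?_).congr fun K x _ hx => (res_of (U := fun _ x => x ∈ Γ₀) hx.1).symm
  · simp only [res, Lt, ← mul_assoc, hi K _ γ hγ]
    by_cases hq : U K (q₀ * x)
    · simp only [Γ₀.mul_mem_cancel_right (h0 K _ hq hγ)]
    · simp [hs _ _ hq]
  · simp only [res, Lt]
    split_ifs with h'
    · exact hs _ _ fun h'' => hx ⟨h', h''⟩
    · rfl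
  · rw [← hco M (q₀ * x) hM hx.2]
    exact sum_congr rfl fun i _ => res_of (U := fun _ x => x ∈ Γ₀) hx.1

end

end Crest.Agent.R66
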