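import Crest.Agent.R66.Basic

/-! Row 66: the double complex. -/

set_option autoImplicit false
set_option linter.unusedSectionVars false

namespace Crest.Agent.R66

open Finset Matrix
open scoped Classical

noncomputable section

variable {I J G A : Type} [DecidableEq I] [DecidableEq J] [Group G] [AddCommGroup A]
  [Module (ZMod 2) A]

/-- The first differential. -/
def dbl_dK (x : Finset I → Finset J → G → A) (K : Finset I) (S : Finset J) (q : G) : A :=
  dl (fun K => x K S) K q

/-- The second differential. -/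
def dbl_dS (x : Finset I → Finset J → G → A) (K : Finset I) : Finset J → G → A := dl (x K)

lemma dbl_comm (x : Finset I → Finset J → G → A) (K : Finset I) (S : Finset J) (q : G) :
    dbl_dK (dbl_dS x) K S q = dbl_dS (dbl_dK x) K S q := by
  simp only [dbl_dK, dbl_dS, dl]
  exact sum_comm

lemma dbl_key (Γ : Finset I → Finset J → Subgroup G)
    (hΓ : ∀ K K' S S', K ⊆ K' → S ⊆ S' → Γ K' S' ≤ Γ K S) (S₀ : Finset J) {a : ℕ}
    (hS : ∀ K b, b ≤ a → Ex A (Γ K) (fun S _ => S ⊆ S₀) b)
    (hK : ∀ S ⊆ S₀, 2 ≤ #S → ∀ a', a' + #S = a + 1 → Ex A (fun K => Γ K S) Al a') (k : ℕ) :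
    ∀ s, k + s = a + 1 → 1 ≤ s → ∀ x : Finset I → Finset J → G → A, (∀ K, Inv (Γ K) (x K)) →
      (∀ S ⊆ S₀, #S = s → Exa (fun K => Γ K S) Al k fun K => x K S) →
      (∀ K S q, #K = k → S ⊆ S₀ → #S = s + 1 → dbl_dS x K S q = 0) →
      ∃ e : Finset I → Finset J → G → A, (∀ K, Inv (Γ K) (e K)) ∧
        ∀ K S q, #K = k → S ⊆ S₀ → #S = s → x K S q = dbl_dK (dbl_dS e) K S q := by
  have hanti : ∀ K, Antitone (Γ K) := fun K S S' h => hΓ K K S S' Subset.rfl h
  induction k with
  | zero =>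
    intro s _ _ x _ h1 _
    refine ⟨0, fun _ => Inv.zero, fun K S q hK' hS' hs => ?_⟩
    obtain ⟨b, -, -, hb⟩ := h1 S hS' hs
    refine (hb K q hK' trivial).trans ?_
    rw [card_eq_zero.1 hK', dbl_dK, dl_empty, dl_empty]
  | succ k ih =>
    intro s hks hs x hx h1 h2
    have hy : ∀ S : Finset J, ∃ y : Finset I → G → A, Inv (fun K => Γ K S) y ∧
        (S ⊆ S₀ → #S = s → ∀ K q, #K = k + 1 → x K S q = dl y K q) := fun S => by
      by_cases h : S ⊆ S₀ ∧ #S = s
      · obtain ⟨b, hb, -, he⟩ := h1 S h.1 h.2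
        exact ⟨b, hb, fun _ _ K q hK' => he K q hK' trivial⟩
      · exact ⟨0, Inv.zero, fun h' h'' => (h ⟨h', h''⟩).elim⟩
    choose y hy hxy using hy
    let Y : Finset I → Finset J → G → A := fun K S => y S K
    have hY : ∀ K, Inv (Γ K) (Y K) := fun K S q γ hγ => hy S K q γ hγ
    have hZ : ∀ K, Inv (Γ K) (dbl_dS Y K) := fun K => (hY K).dl (hanti K)
    obtain ⟨e', he', hZe⟩ := ih (s + 1) (by omega) (by omega) (dbl_dS Y) hZ
      (fun S hS' hs' => hK S hS' (by omega) k (by omega) _ (fun K q γ hγ => hZ K S q γ hγ) supp_al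
        fun M q hM _ => by
          change dbl_dK (dbl_dS Y) M S q = 0
          rw [dbl_comm, ← h2 M S q hM hS' hs']
          refine sum_congr rfl fun j hj => ?_
          exact (hxy _ ((erase_subset _ _).trans hS') (by rw [card_erase_of_mem hj, hs']; rfl)
            M q hM).symm)
      fun K S q _ _ _ => by simp [dbl_dS]
    have hW : ∀ K, Inv (Γ K) (Y K + dbl_dK e' K) := fun K => (hY K).add fun S q γ hγ =>
      sum_congr rfl fun i _ => he' _ S q γ (hΓ _ _ _ _ (erase_subset i K) Subset.rfl hγ)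
    have he : ∀ K : Finset I, ∃ e : Finset J → G → A, Inv (Γ K) e ∧
        (#K = k → ∀ S q, S ⊆ S₀ → #S = s → (Y K + dbl_dK e' K) S q = dl e S q) := fun K => by
      by_cases hK' : #K = k
      · obtain ⟨e, h3, -, h4⟩ := hS K s (by omega) (res (fun S _ => S ⊆ S₀) (Y K + dbl_dK e' K))
          ((hW K).res fun _ _ _ _ => Iff.rfl) supp_res fun M q hM hM' => by
            have : dl (Y K + dbl_dK e' K) M q = 0 := by
              rw [dl_add, Pi.add_apply, Pi.add_apply]
              change dbl_dS Y K M q + dbl_dS (dbl_dK e') K M q = 0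
              rw [hZe K M q hK' hM' hM, dbl_comm, two_self]
            rw [← this]
            exact sum_congr rfl fun j _ =>
              res_of (U := fun S _ => S ⊆ S₀) ((erase_subset _ _).trans hM')
        exact ⟨e, h3, fun _ S q hS' hs' => by
          rw [← h4 S q hs' hS', res_of (U := fun S _ => S ⊆ S₀) hS']⟩
      · exact ⟨0, Inv.zero, fun h => (hK' h).elim⟩
    choose e he hWe using he
    refine ⟨e, he, fun K S q hK' hS' hs' => ?_⟩
    have h3 : dl (dl fun K => e' K S) K q = 0 := by simp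
    rw [hxy S hS' hs' K q hK', ← add_zero (dl (y S) K q), ← h3, dl, dl, ← sum_add_distrib]
    refine sum_congr rfl fun i hi => ?_
    exact hWe _ (by rw [card_erase_of_mem hi, hK']; rfl) S q hS' hs'

/-- Zig-zag in the double complex `C (k, s)` of families `x K S : G → A`, `#K = k`, `#S = s`,
`S ⊆ S₀`, with the commuting differentials `dK`, `dS` (both are `dl`).  Sketch: prove by downward
induction on `s ≤ a + 1` the claim `P s`: every invariant `x ∈ C (a + 1 - s, s)` with `dK x = 0` and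
`dS x = 0` which is `dK`-exact columnwise (automatic for `s ≥ 2` by `hK`; `h1` for `x = dS c`,
`s = 1`) is `dK (dS e)` on level `(a + 1 - s, s)` for an invariant `e`.  Step: `x = dK y` with
`y ∈ C (a - s, s)`; `dS y` satisfies the hypotheses of `P (s + 1)`, so `dS y = dK (dS e')`; then
`y + dK e'` is `dS`-closed, so `= dS e` by `hS`, and `x = dK (dS e)`.  For `s = a + 1` we have
`K = ∅` and `x = 0`.  Finally `dS c = dK (dS e)` gives `c = dK e` by `hS` at level `0`. -/
theorem dbl (Γ : Finset I → Finset J → Subgroup G)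
    (hΓ : ∀ K K' S S', K ⊆ K' → S ⊆ S' → Γ K' S' ≤ Γ K S) (S₀ : Finset J) {a : ℕ}
    (hS₀ : #S₀ = a + 1) (hS : ∀ K b, b ≤ a → Ex A (Γ K) (fun S _ => S ⊆ S₀) b)
    (hK : ∀ S ⊆ S₀, 2 ≤ #S → ∀ a', a' + #S = a + 1 → Ex A (fun K => Γ K S) Al a')
    {c : Finset I → G → A} (hc : Inv (fun K => Γ K ∅) c) (hco : Coc Al a c)
    (h1 : ∀ m ∈ S₀, Exa (fun K => Γ K {m}) Al a c) : Exa (fun K => Γ K ∅) Al a c := by
  have _ := hco
  obtain ⟨e, he, hce⟩ := dbl_key Γ hΓ S₀ hS hK a 1 rfl le_rfl (fun K _ => c K)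
    (fun K S q γ hγ => hc K q γ (hΓ _ _ _ _ Subset.rfl (empty_subset S) hγ))
    (fun S hS' hs => by
      obtain ⟨m, rfl⟩ := card_eq_one.1 hs
      exact h1 m (singleton_subset_iff.1 hS'))
    fun K S q _ _ hs => by
      rw [dbl_dS, dl, sum_const, hs, two_nsmul, two_self]
  obtain ⟨m, hm⟩ := card_pos.1 (show 0 < #S₀ by omega)
  refine ⟨fun K => e K ∅, fun K q γ hγ => he K ∅ q γ hγ, supp_al, fun K q hK' _ => ?_⟩
  rw [hce K {m} q hK' (singleton_subset_iff.2 hm) (card_singleton m)]
  simp [dbl_dK, dbl_dS, dl]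

end

end Crest.Agent.R66
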