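import Mathlib

/-! Row 66 (bounded degree coboundary expanders): definitions.

Plan.  `Iw P N` is the group of matrices in `SL_N(R)` (`R = F[t]/t^s`) that are lower unitriangular
mod `t`; `H K` (`K ⊆ Fin N`) are subgroups of bounded order and the complex is the coset complex:
faces of type `K` are the cosets of `H K`.  A cochain is a family of functions `c K : G → A`,
invariant under right multiplication by `H K`.  Ingredients: bounded contractions of the links
(`Flag`, `Simp`, `Link`), small angles (`Angle`, `Heis`), the local-to-global theorem (`EK`), and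
vanishing of the cohomology (`Morse`, `Four`, `Vanish`).  The level of a face is its number of
vertices. -/

set_option autoImplicit false
set_option linter.unusedSectionVars false

namespace Crest.Agent.R66

open Finset Matrix
open scoped Classical

noncomputable section

section Abstract
variable {I G A V X : Type} [DecidableEq I] [Group G] [AddCommGroup A] [DecidableEq V]

/-- The coboundary (characteristic two, no signs). -/
def dl (c : Finset I → G → A) (M : Finset I) (q : G) : A := ∑ i ∈ M, c (M.erase i) q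

/-- Cochains of the coset complex of the family `Γ`. -/
def Inv (Γ : Finset I → Subgroup G) (c : Finset I → G → A) : Prop :=
  ∀ K q, ∀ γ ∈ Γ K, c K (q * γ) = c K q

/-- `U` is a set of faces. -/
def UInv (Γ : Finset I → Subgroup G) (U : Finset I → G → Prop) : Prop :=
  ∀ K q, ∀ γ ∈ Γ K, U K (q * γ) ↔ U K q

def Supp (U : Finset I → G → Prop) (c : Finset I → G → A) : Prop := ∀ K q, ¬ U K q → c K q = 0

def Coc (U : Finset I → G → Prop) (a : ℕ) (c : Finset I → G → A) : Prop :=
  ∀ M q, #M = a + 1 → U M q → dl c M q = 0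

/-- `c` is a coboundary at level `a` on the set of faces `U`. -/
def Exa (Γ : Finset I → Subgroup G) (U : Finset I → G → Prop) (a : ℕ) (c : Finset I → G → A) :
    Prop := ∃ b, Inv Γ b ∧ Supp U b ∧ ∀ K q, #K = a → U K q → c K q = dl b K q

/-- Exactness at level `a` of the complex of cochains supported on `U`. -/
def Ex (A : Type) [AddCommGroup A] (Γ : Finset I → Subgroup G) (U : Finset I → G → Prop) (a : ℕ) :
    Prop := ∀ c : Finset I → G → A, Inv Γ c → Supp U c → Coc U a c → Exa Γ U a c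

/-- Convex sets of faces. -/
def Conv (U : Finset I → G → Prop) : Prop := ∀ K L M q, K ⊆ L → L ⊆ M → U K q → U M q → U L q

/-- All faces. -/
def Al : Finset I → G → Prop := fun _ _ => True

/-- Left translation. -/
def Lt (g : G) (c : Finset I → G → A) : Finset I → G → A := fun K q => c K (g * q)

/-- Left translation by `E` acts trivially on the classes of `Γ`-cocycles restricted to the coset
complex of `Γ' ∅`. -/
def Triv (A : Type) [AddCommGroup A] (Γ Γ' : Finset I → Subgroup G) (E : Subgroup G) (a : ℕ) :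
    Prop := ∀ φ : Finset I → G → A, Inv Γ φ → Coc Al a φ → ∀ e ∈ E,
      Exa Γ' (fun _ q => q ∈ Γ' ∅) a (φ + Lt e φ)

/-- Sum over a coset. -/
def sm [Fintype G] (E : Subgroup G) (f : G → A) (q : G) : A := ∑ e with e ∈ E, f (q * e)

/-- Simplicial coboundary. -/
def sd (f : Finset V → A) (τ : Finset V) : A := ∑ v ∈ τ, f (τ.erase v)

/-- Pairing of a cochain with a chain. -/
def pr (f : X → A) (z : Multiset X) : A := (z.map f).sum

/-- Cycles of level `a` and size at most `M` have fillings of size at most `Φ`. -/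
def Fill (A : Type) [AddCommGroup A] (𝒦 : Finset V → Prop) (a M Φ : ℕ) : Prop :=
  ∀ z : Multiset (Finset V), z.card ≤ M → (∀ σ ∈ z, 𝒦 σ ∧ #σ = a) →
    (∀ f : Finset V → A, pr (sd f) z = 0) →
    ∃ w : Multiset (Finset V), w.card ≤ Φ ∧ (∀ τ ∈ w, 𝒦 τ ∧ #τ = a + 1) ∧
      ∀ f : Finset V → A, pr f z = pr (sd f) w

/-- A contraction of size `r` up to level `a`. -/
def SCone (A : Type) [AddCommGroup A] (𝒦 : Finset V → Prop) (a r : ℕ) : Prop :=
  ∃ κ : Finset V → Multiset (Finset V), ∀ σ, 𝒦 σ → #σ ≤ a → (κ σ).card ≤ r ∧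
    (∀ τ ∈ κ σ, 𝒦 τ ∧ #τ = #σ + 1) ∧
    ∀ f : Finset V → A, f σ = pr (sd f) (κ σ) + ∑ v ∈ σ, pr f (κ (σ.erase v))

/-- The same for a set of faces of a coset complex. -/
def CCone (A : Type) [AddCommGroup A] (Γ : Finset I → Subgroup G) (U : Finset I → G → Prop)
    (a r : ℕ) : Prop :=
  ∃ κ : Finset I → G → Multiset (Finset I × G),
    (∀ K q, U K q → ∀ γ ∈ Γ K, κ K (q * γ) = κ K q) ∧
    ∀ K q, U K q → #K ≤ a → (κ K q).card ≤ r ∧ (∀ x ∈ κ K q, U x.1 x.2 ∧ #x.1 = #K + 1) ∧
      ∀ c : Finset I → G → A, Inv Γ c → Supp U c →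
        c K q = pr (fun x => dl c x.1 x.2) (κ K q) +
          ∑ i ∈ K with U (K.erase i) q, pr (fun x => c x.1 x.2) (κ (K.erase i) q)

variable [Fintype I] [Fintype G]

/-- Size of the support at level `a`. -/
def nrm (a : ℕ) (c : Finset I → G → ZMod 2) : ℕ := #{x : Finset I × G | #x.1 = a ∧ c x.1 x.2 ≠ 0}

/-- Size of the support at level `a` in the coset `q₀ Γ₀`. -/
def nrmL (Γ₀ : Subgroup G) (q₀ : G) (a : ℕ) (c : Finset I → G → ZMod 2) : ℕ :=
  #{x : Finset I × G | #x.1 = a ∧ x.2 ∈ Γ₀ ∧ c x.1 (q₀ * x.2) ≠ 0}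

/-- The faces containing the face `(K₀, q₀)`. -/
def Star (Γ : Finset I → Subgroup G) (K₀ : Finset I) (q₀ : G) : Finset I → G → Prop :=
  fun K q => K₀ ⊆ K ∧ q₀⁻¹ * q ∈ Γ K₀

/-- Coboundary expansion of the links. -/
def LkE (Γ : Finset I → Subgroup G) (a C : ℕ) : Prop :=
  ∀ K₀ : Finset I, K₀.Nonempty → #K₀ ≤ a → ∀ ψ : Finset I → G → ZMod 2, Inv Γ ψ →
    Supp (fun K _ => K₀ ⊆ K) ψ → ∀ q₀, ∃ b, Inv Γ b ∧ Supp (Star Γ K₀ q₀) b ∧
      nrmL (Γ K₀) q₀ a (ψ + dl b) ≤ C * nrmL (Γ K₀) q₀ (a + 1) (dl ψ)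

def LocMin (Γ : Finset I → Subgroup G) (a : ℕ) (φ : Finset I → G → ZMod 2) : Prop :=
  ∀ K₀ : Finset I, K₀.Nonempty → ∀ q₀ b, Inv Γ b → Supp (Star Γ K₀ q₀) b →
    nrm a φ ≤ nrm a (φ + dl b)

/-- Coboundary expansion at level `a`. -/
def Expa (Γ : Finset I → Subgroup G) (a C : ℕ) : Prop :=
  ∀ c : Finset I → G → ZMod 2, Inv Γ c → ∃ b, Inv Γ b ∧ nrm a (c + dl b) ≤ C * nrm (a + 1) (dl c)

/-- Average over a coset. -/
def av (Γ : Subgroup G) (f : G → ℝ) (q : G) : ℝ := sm Γ f q / Nat.card Γ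

/-- The cosine of the angle between `B₁`- and `B₂`-invariant functions on cosets of `Γ`. -/
def Ang (Γ B₁ B₂ : Subgroup G) (l : ℝ) : Prop :=
  ∀ f g : G → ℝ, (∀ q, ∀ x ∈ B₁, f (q * x) = f q) → (∀ q, ∀ x ∈ B₂, g (q * x) = g q) →
    ∀ q, av Γ f q = 0 → |av Γ (f * g) q| ≤ l * √(av Γ (f ^ 2) q) * √(av Γ (g ^ 2) q)

def AngAll (Γ : Finset I → Subgroup G) (l : ℝ) : Prop :=
  ∀ K i j, i ≠ j → i ∉ K → j ∉ K → Ang (Γ K) (Γ (insert i K)) (Γ (insert j K)) l

variable (Γ : Finset I → Subgroup G) (φ : Finset I → G → ZMod 2) (η : ℕ → ℝ)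

/-- Fat faces, `j` levels below the level of `φ`. -/
def Fat : ℕ → Finset I → G → Prop
  | 0 => fun K q => φ K q ≠ 0
  | j + 1 => fun K q => ∃ i ∉ K, η j ≤ av (Γ K) (fun x => if Fat j (insert i K) x then 1 else 0) q

/-- Ladders of fat faces from `K₀` up to `K`. -/
def Lad : ℕ → Finset I → Finset I → G → Prop
  | 0 => fun K₀ K q => K₀ = K ∧ Fat Γ φ η 0 K q
  | j + 1 => fun K₀ K q => Fat Γ φ η (j + 1) K₀ q ∧ ∃ i ∉ K₀, Lad j (insert i K₀) K q

/-- The face `(M, q)` contains a dead end. -/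
def Dead (a : ℕ) (M : Finset I) (q : G) : Prop :=
  ∃ j K i i', #K + j + 1 = a ∧ i ≠ i' ∧ i ∉ K ∧ i' ∉ K ∧ i ∈ M ∧ i' ∈ M ∧ K ⊆ M ∧
    Fat Γ φ η j (insert i K) q ∧ Fat Γ φ η j (insert i' K) q ∧ ¬ Fat Γ φ η (j + 1) K q

def cnt (a j : ℕ) : ℕ := #{x : Finset I × G | #x.1 + j = a ∧ Fat Γ φ η j x.1 x.2}

def ded (a : ℕ) : ℕ := #{x : Finset I × G | #x.1 = a + 1 ∧ Dead Γ φ η a x.1 x.2}

def lad (a j : ℕ) : ℕ :=
  #{x : Finset I × Finset I × G | #x.1 + j = a ∧ Lad Γ φ η j x.1 x.2.1 x.2.2}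

end Abstract

section Flags
variable {F Λ : Type} [Field F] [AddCommGroup Λ] [Module F Λ]

/-- Transversality. -/
def Good (𝓔 : Finset (Submodule F Λ)) (Y : Submodule F Λ) : Prop := ∀ E ∈ 𝓔, Y ⊓ E = ⊥ ∨ Y ⊔ E = ⊤

/-- Flags of transversal subspaces of `B`. -/
def Fl (𝓔 : Finset (Submodule F Λ)) (B : Submodule F Λ) (σ : Finset (Submodule F Λ)) : Prop :=
  (∀ Y ∈ σ, ∀ Z ∈ σ, Y ≤ Z ∨ Z ≤ Y) ∧ ∀ Y ∈ σ, ⊥ < Y ∧ Y < B ∧ Good 𝓔 Y

/-- The field `F` is so large that the flag complexes in `F ^ N` have contractions of size `r`. -/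
def Big (F A : Type) [Field F] [AddCommGroup A] (N r : ℕ) : Prop :=
  ∀ (𝓔 : Finset (Submodule F (Fin N → F))) (B : Submodule F (Fin N → F)) (a : ℕ),
    #𝓔 ≤ 3 * N + 3 → Good 𝓔 B → a + 2 ≤ Module.finrank F B → SCone A (Fl 𝓔 B) a r

end Flags

/-- A subgroup of a finite group from a multiplicatively closed set. -/
def mkSub {G : Type} [Group G] [Finite G] (S : Set G) (h1 : (1 : G) ∈ S)
    (hm : ∀ a ∈ S, ∀ b ∈ S, a * b ∈ S) : Subgroup G where
  carrier := S
  one_mem' := h1
  mul_mem' := fun {a b} ha hb => hm a ha b hb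
  inv_mem' := fun {x} hx => by
    have h : ∀ n : ℕ, x ^ n ∈ S := fun n => by
      induction n with
      | zero => simpa using h1
      | succ n ih => rw [pow_succ]; exact hm _ ih _ hx
    have : x⁻¹ = x ^ (orderOf x - 1) := by
      rw [inv_eq_iff_mul_eq_one, ← pow_succ', Nat.sub_add_cancel (orderOf_pos x), pow_orderOf_eq_one]
    exact this ▸ h _

/-- The data of a truncated polynomial ring. -/
structure Par (F R : Type) [Field F] [CommRing R] [Algebra F R] where
  t : R
  ne : t ≠ 0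
  nil : IsNilpotent t
  span : ∀ r : R, ∃ (x : F) (y : R), r = algebraMap F R x + t * y
  two : (2 : F) ≠ 0

section Group
variable {F R : Type} [Field F] [CommRing R] [Algebra F R] [Finite R] (P : Par F R) {N : ℕ}

/-- Position of `i` in the cyclic order `c + 1, c + 2, …, c`. -/
def rk (c i : Fin N) : ℕ := if (c : ℕ) < i then i - c - 1 else i + N - c - 1

def eps (i j : Fin N) : R := if i < j then P.t else 1

lemma one_apply_mul {S : Type} [CommRing S] (i j : Fin N) :
    (1 : Matrix (Fin N) (Fin N) S) i j = ∑ l, (1 : Matrix (Fin N) (Fin N) S) i l *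
      (1 : Matrix (Fin N) (Fin N) S) l j := by
  rw [← mul_apply, mul_one]

/-- Matrices of determinant one that are lower unitriangular modulo `t`. -/
def Qs (N : ℕ) : Subgroup (SpecialLinearGroup (Fin N) R) :=
  mkSub {g | ∀ i j, i ≤ j → P.t ∣ g.1 i j - (1 : Matrix (Fin N) (Fin N) R) i j} (by simp) (by
    intro a ha b hb i j hij
    show P.t ∣ (a.1 * b.1) i j - _
    rw [mul_apply, one_apply_mul, ← sum_sub_distrib]
    refine dvd_sum fun l _ => ?_
    rcases lt_or_ge i l with h | h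
    · have := ha i l h.le
      rw [one_apply_ne h.ne, sub_zero] at this
      rw [one_apply_ne h.ne, zero_mul, sub_zero]
      exact this.mul_right _
    rcases lt_or_ge l j with h' | h'
    · have := hb l j h'.le
      rw [one_apply_ne h'.ne, sub_zero] at this
      rw [one_apply_ne h'.ne, mul_zero, sub_zero]
      exact this.mul_left _
    obtain rfl : i = l := le_antisymm (hij.trans h') h
    obtain rfl : i = j := le_antisymm hij h'
    have h1 := ha i i le_rfl
    have h2 := hb i i le_rfl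
    rw [one_apply_eq] at *
    convert (h1.mul_right (b.1 i i)).add h2 using 1
    ring)

/-- The group. -/
abbrev Iw (N : ℕ) : Type := Qs P N

instance : Fintype (Iw P N) := Fintype.ofFinite _

variable {P}

def mat (g : Iw P N) : Matrix (Fin N) (Fin N) R := g.1.1

@[simp] lemma mat_mul (g h : Iw P N) : mat (g * h) = mat g * mat h := rfl
@[simp] lemma mat_one : mat (1 : Iw P N) = 1 := rfl
lemma mat_injective : Function.Injective (mat : Iw P N → _) := fun _ _ h =>
  Subtype.ext (Subtype.ext h)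
lemma mat_det (g : Iw P N) : (mat g).det = 1 := g.1.2
lemma mat_dvd (g : Iw P N) {i j : Fin N} (h : i ≤ j) :
    P.t ∣ mat g i j - (1 : Matrix (Fin N) (Fin N) R) i j := g.2 i j h

/-- Constructor. -/
def mk (M : Matrix (Fin N) (Fin N) R) (h1 : M.det = 1)
    (h2 : ∀ i j, i ≤ j → P.t ∣ M i j - (1 : Matrix (Fin N) (Fin N) R) i j) : Iw P N := ⟨⟨M, h1⟩, h2⟩

@[simp] lemma mat_mk (M : Matrix (Fin N) (Fin N) R) (h1 : M.det = 1)
    (h2 : ∀ i j, i ≤ j → P.t ∣ M i j - (1 : Matrix (Fin N) (Fin N) R) i j) :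
    mat (mk M h1 h2) = M := rfl

variable (P)

/-- Elements that differ from `1` only in the rows `A` and the columns `B`. -/
def GG (A B : Finset (Fin N)) : Subgroup (Iw P N) :=
  mkSub {g | ∀ i j, i ∉ A ∨ j ∉ B → mat g i j = (1 : Matrix (Fin N) (Fin N) R) i j} (by simp) (by
    intro a ha b hb i j hij
    rcases hij with h | h
    · rw [mat_mul, mul_apply, ← hb i j (.inl h)]
      simp [ha i _ (.inl h), one_apply]
    · rw [mat_mul, mul_apply, ← ha i j (.inr h)]
      simp [hb _ j (.inr h), one_apply])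

lemma eps_mul {c i l j : Fin N} (h : rk c l ≤ rk c i) (h' : rk c j ≤ rk c l) :
    eps P i l * eps P l j = eps P i j := by
  have := i.2; have := l.2; have := j.2; have := c.2
  simp only [rk, eps, Fin.lt_def] at *
  split_ifs at * <;> first | omega | simp

lemma rk_inj {c i j : Fin N} (h : rk c i = rk c j) : i = j := by
  have := i.2; have := j.2; have := c.2
  simp only [rk, Fin.ext_iff] at *
  split_ifs at * <;> omega

/-- The stabiliser of the standard vertex of type `c`: a copy of the unitriangular group over `F`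
for the order `rk c`. -/
def Hc (c : Fin N) : Subgroup (Iw P N) :=
  mkSub {g | ∀ i j, (rk c j < rk c i → ∃ x : F, mat g i j = x • eps P i j) ∧
      (¬ rk c j < rk c i → mat g i j = (1 : Matrix (Fin N) (Fin N) R) i j)}
    (fun i j => ⟨fun h => ⟨0, by
      rw [mat_one, one_apply_ne (by rintro rfl; simp at h), zero_smul]⟩, fun _ => rfl⟩) (by
    have key : ∀ g : Iw P N, (∀ i j, (rk c j < rk c i → ∃ x : F, mat g i j = x • eps P i j) ∧
        (¬ rk c j < rk c i → mat g i j = (1 : Matrix (Fin N) (Fin N) R) i j)) → ∀ i j,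
        (rk c j ≤ rk c i ∧ ∃ x : F, mat g i j = x • eps P i j) ∨ mat g i j = 0 := by
      intro g hg i j
      rcases lt_trichotomy (rk c j) (rk c i) with h | h | h
      · exact .inl ⟨h.le, (hg i j).1 h⟩
      · obtain rfl := rk_inj h
        exact .inl ⟨le_rfl, 1, by simp [(hg j j).2 (lt_irrefl _), eps]⟩
      · exact .inr (by rw [(hg i j).2 h.not_gt, one_apply_ne (by rintro rfl; simp at h)])
    intro a ha b hb i j
    rw [mat_mul, mul_apply]
    refine ⟨fun _ => ?_, fun h => ?_⟩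
    · have : ∀ l, ∃ x : F, mat a i l * mat b l j = x • eps P i j := fun l => by
        rcases key a ha i l with ⟨h1, x, hx⟩ | h1
        · rcases key b hb l j with ⟨h2, y, hy⟩ | h2
          · exact ⟨x * y, by rw [hx, hy, smul_mul_smul_comm, eps_mul P h1 h2]⟩
          · exact ⟨0, by simp [h2]⟩
        · exact ⟨0, by simp [h1]⟩
      choose x hx using this
      exact ⟨∑ l, x l, by simp [hx, sum_smul]⟩
    · rw [one_apply_mul]
      refine sum_congr rfl fun l _ => ?_
      by_cases h1 : rk c l < rk c i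
      · rw [(hb l j).2 (by omega), one_apply_ne (i := l) (by rintro rfl; omega), mul_zero, mul_zero]
      by_cases h2 : rk c j < rk c l
      · rw [(ha i l).2 h1, one_apply_ne (i := i) (by rintro rfl; omega), zero_mul, zero_mul]
      · rw [(ha i l).2 h1, (hb l j).2 h2])

/-- The stabiliser of the standard face of type `K`. -/
def H (K : Finset (Fin N)) : Subgroup (Iw P N) := ⨅ c ∈ K, Hc P c

/-- The family of subgroups of `GG A B`. -/
def Fam (A B : Finset (Fin N)) (K : Finset (Fin N)) : Subgroup (Iw P N) := GG P A B ⊓ H P K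

/-- Root elements. -/
def xr {i j : Fin N} (h : i ≠ j) (y : R) : Iw P N :=
  mk (transvection i j (y * eps P i j)) (det_transvection_of_ne _ _ h _) fun k l hkl => by
    rw [transvection, Matrix.add_apply, add_sub_cancel_left, single_apply]
    split_ifs with h'
    · obtain ⟨rfl, rfl⟩ := h'
      rw [eps, if_pos (lt_of_le_of_ne hkl h)]
      exact dvd_mul_left _ _
    · exact dvd_zero _

variable {P}

lemma mem_GG {A B : Finset (Fin N)} {g : Iw P N} : g ∈ GG P A B ↔
    ∀ i j, i ∉ A ∨ j ∉ B → mat g i j = (1 : Matrix (Fin N) (Fin N) R) i j := Iff.rfl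

lemma mem_Hc {c : Fin N} {g : Iw P N} : g ∈ Hc P c ↔
    ∀ i j, (rk c j < rk c i → ∃ x : F, mat g i j = x • eps P i j) ∧
      (¬ rk c j < rk c i → mat g i j = (1 : Matrix (Fin N) (Fin N) R) i j) := Iff.rfl

lemma mem_H {K : Finset (Fin N)} {g : Iw P N} : g ∈ H P K ↔ ∀ c ∈ K, g ∈ Hc P c := by
  simp [H, Subgroup.mem_iInf]

lemma mem_Fam {A B K : Finset (Fin N)} {g : Iw P N} :
    g ∈ Fam P A B K ↔ g ∈ GG P A B ∧ ∀ c ∈ K, g ∈ Hc P c := by
  simp [Fam, mem_H]

lemma mat_xr {i j : Fin N} (h : i ≠ j) (y : R) :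
    mat (xr P h y) = 1 + single i j (y * eps P i j) := rfl

lemma H_anti : Antitone (H P : Finset (Fin N) → _) := fun _ _ h _ hg =>
  mem_H.2 fun c hc => mem_H.1 hg c (h hc)

lemma Fam_anti (A B : Finset (Fin N)) : Antitone (Fam P A B) := fun _ _ h =>
  inf_le_inf_left _ (H_anti h)

lemma GG_mono {A A' B B' : Finset (Fin N)} (hA : A ⊆ A') (hB : B ⊆ B') : GG P A B ≤ GG P A' B' :=
  fun _ hg i j h => hg i j (h.imp (mt (@hA i)) (mt (@hB j)))

lemma Fam_univ : Fam P univ univ = (H P : Finset (Fin N) → _) := by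
  funext K
  refine inf_eq_right.2 fun g _ => mem_GG.2 (by simp)

/-- The matrix over `F` underlying an element of `Hc c`. -/
def und (g : Iw P N) : Matrix (Fin N) (Fin N) F :=
  of fun i j => if h : ∃ x : F, mat g i j = x • eps P i j then h.choose else 0

/-- Standard subspaces of `F ^ N`. -/
def Ys (F : Type) [Field F] (D : Finset (Fin N)) (c₀ c : Fin N) : Submodule F (Fin N → F) where
  carrier := {y | ∀ i, ¬ (i ∈ D ∧ rk c₀ i ≤ rk c₀ c) → y i = 0}
  zero_mem' := fun _ _ => rfl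
  add_mem' := fun ha hb i hi => by simp [ha i hi, hb i hi]
  smul_mem' := fun x _ ha i hi => by simp [ha i hi]

/-- The opposite flag. -/
def Fs (F : Type) [Field F] (D : Finset (Fin N)) (c₀ : Fin N) (k : ℕ) :
    Submodule F (Fin N → F) where
  carrier := {y | ∀ i ∈ D, rk c₀ i < k → y i = 0}
  zero_mem' := fun _ _ _ => rfl
  add_mem' := fun ha hb i hi h => by simp [ha i hi h, hb i hi h]
  smul_mem' := fun x _ ha i hi h => by simp [ha i hi h]

def Fss (F : Type) [Field F] (D : Finset (Fin N)) (c₀ : Fin N) : Finset (Submodule F (Fin N → F)) :=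
  (range (N + 1)).image (Fs F D c₀)

/-- The vertex of type `c` of the chamber `g` in the link of the standard vertex of type `c₀`. -/
def vt (D : Finset (Fin N)) (c₀ c : Fin N) (g : Iw P N) : Submodule F (Fin N → F) :=
  (Ys F D c₀ c).map (toLin' (und g))

variable (P) in
/-- The spanning family `t ^ r e_i`, `i ∈ D`, indexed by `i + r N`. -/
def bv (D : Finset (Fin N)) (j : ℕ) : Fin N → R :=
  fun i => if i ∈ D ∧ j % N = i then P.t ^ (j / N) else 0

/-- The functional `θ` vanishes on the window of column `m` at the vertex `(c, q)`. -/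
def Bad (D : Finset (Fin N)) (θ : Module.Dual F (Fin N → R)) (m c : Fin N) (q : Iw P N) : Prop :=
  ∀ i ∈ D, rk c m < rk c i → θ (mat q *ᵥ Pi.single i (eps P i m)) = 0

/-- The functional `θ` does not vanish on `q • span {bv j | m < j ≤ ℓ}`. -/
def See (D : Finset (Fin N)) (θ : Module.Dual F (Fin N → R)) (m : Fin N) (ℓ : ℕ) (q : Iw P N) :
    Prop := ∃ j, (m : ℕ) < j ∧ j ≤ ℓ ∧ θ (mat q *ᵥ bv P D j) ≠ 0

/-- The vertex `(c, q)` has height at most `L`. -/
def XL (D : Finset (Fin N)) (θ : Module.Dual F (Fin N → R)) (m : Fin N) (L : ℕ) (c : Fin N)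
    (q : Iw P N) : Prop := ∃ ℓ ≤ L, ℓ % N = c ∧ See D θ m ℓ q

end Group

end

end Crest.Agent.R66
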