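import Crest.Agent.R66.Lad

/-! Row 66: the local-to-global theorem (Evra-Kaufman). -/

set_option autoImplicit false
set_option linter.unusedSectionVars false

namespace Crest.Agent.R66

open Finset Matrix
open scoped Classical

noncomputable section

section Aux
variable {I G : Type} [DecidableEq I] [Group G] [Fintype I] [Fintype G]

theorem ek_nrm_zero (a : ℕ) : nrm a (0 : Finset I → G → ZMod 2) = 0 := by simp [nrm]

theorem ek_nrm_add (a : ℕ) (c c' : Finset I → G → ZMod 2) : nrm a (c + c') ≤ nrm a c + nrm a c' := by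
  refine (card_le_card fun x hx => ?_).trans (card_union_le _ _)
  obtain ⟨h1, h2⟩ := (mem_filter.1 hx).2
  by_cases h : c x.1 x.2 = 0
  · exact mem_union_right _ (mem_filter.2 ⟨mem_univ _, h1, by simpa [h] using h2⟩)
  · exact mem_union_left _ (mem_filter.2 ⟨mem_univ _, h1, h⟩)

theorem ek_nrm_star {Γ : Finset I → Subgroup G} {K₀ : Finset I} {q₀ : G} {a : ℕ}
    {b : Finset I → G → ZMod 2} (hb : Supp (Star Γ K₀ q₀) b) :
    nrm a b ≤ 2 ^ Fintype.card I * Nat.card (Γ K₀) := by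
  rw [← Fintype.card_finset, Nat.card_eq_fintype_card, Fintype.card_subtype, ← card_univ,
    ← card_product]
  refine card_le_card_of_injOn (fun x => (x.1, q₀⁻¹ * x.2)) (fun x hx => ?_) fun x _ y _ h => ?_
  · have h1 : Star Γ K₀ q₀ x.1 x.2 := by_contra fun h => (mem_filter.1 hx).2.2 (hb _ _ h)
    simpa using h1.2
  · simp only [Prod.mk.injEq, mul_right_inj] at h
    exact Prod.ext h.1 h.2

end Aux

/-- Small locally minimal cocycles vanish.  Sketch: `lad_le` and `lad_top` give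
`nrm a φ ≤ C₁ * ded` with `C₁ = C * 2 ^ n * ∑ k < a, (C * n) ^ k`.  Let `C₂ = 2 ^ n * (2 * n ^ 2)`,
`ζ = 1 / (2 * a * C₁ * C₂ + 1)`, `B 0 = 1`, `B (j + 1) = (n + 1) * B j ^ 2 / ζ`, `η j = ζ / B j`;
then `cnt j ≤ B j * nrm a φ` (`cnt_succ`); `l = ζ / ∑ j ≤ a, B j`, `μ = 1 / B a`;
`ded ≤ C₂ * a * 2 * ζ * nrm a φ` (`ded_le`). -/
theorem ek (n a C : ℕ) : ∃ l : ℝ, 0 < l ∧ ∃ μ : ℝ, 0 < μ ∧ ∀ (I G : Type) [DecidableEq I] [Group G]
    [Fintype I] [Fintype G] (Γ : Finset I → Subgroup G), Fintype.card I = n → Antitone Γ →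
    Γ ∅ = ⊤ → AngAll Γ l → LkE Γ a C → ∀ φ : Finset I → G → ZMod 2, Inv Γ φ → Coc Al a φ →
      LocMin Γ a φ → (nrm a φ : ℝ) < μ * Fintype.card G → nrm a φ = 0 := by
  obtain ⟨c, hc0, hc1⟩ : ∃ c : ℕ → ℕ, c 0 = 0 ∧ ∀ k, c (k + 1) = C * (2 ^ n + n * c k) :=
    ⟨fun k => Nat.rec 0 (fun _ x => C * (2 ^ n + n * x)) k, rfl, fun _ => rfl⟩
  obtain ⟨E, hE⟩ : ∃ E : ℝ, E = (a + 1) * ((c a : ℝ) * (2 ^ n * (2 * n ^ 2))) :=
    ⟨(a + 1) * ((c a : ℝ) * (2 ^ n * (2 * n ^ 2))), rfl⟩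
  have hE0 : 0 ≤ E := by rw [hE]; positivity
  obtain ⟨ζ, hζ⟩ : ∃ ζ : ℝ, ζ = 1 / (E + 1) := ⟨_, rfl⟩
  have hζ0 : 0 < ζ := by rw [hζ]; positivity
  have hζE : E * ζ < 1 := by rw [hζ, mul_one_div, div_lt_one (by positivity)]; linarith
  let B : ℕ → ℝ := fun k => Nat.rec 1 (fun _ x => (n + 1) * x ^ 2 / ζ) k
  have hB : ∀ k, 0 < B k := fun k => by
    induction k with
    | zero => exact one_pos
    | succ k ih => show 0 < (n + 1) * B k ^ 2 / ζ; positivity
  have hS : 0 ≤ ∑ j ∈ range a, B j := sum_nonneg fun j _ => (hB j).le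
  refine ⟨ζ / (1 + ∑ j ∈ range a, B j), by positivity, 1 / B a, by have := hB a; positivity, ?_⟩
  intro I G _ _ _ _ Γ hn hΓ h0 hA hL φ hφ hco hm hμ
  set l := ζ / (1 + ∑ j ∈ range a, B j) with hl
  have hl0 : 0 ≤ l := by positivity
  set η : ℕ → ℝ := fun j => ζ / B j with hη
  have hη0 : ∀ j, 0 ≤ η j := fun j => (div_pos hζ0 (hB j)).le
  have hN : (0 : ℝ) ≤ nrm a φ := by positivity
  have h1 : ∀ j, (cnt Γ φ η a j : ℝ) ≤ B j * nrm a φ := fun j => by
    induction j with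
    | zero => rw [cnt_zero]; exact (one_mul _).ge
    | succ j ih =>
      have h2 := cnt_succ (Γ := Γ) (φ := φ) (η := η) a j
      have h3 := hB j
      rw [hn, hη, div_mul_eq_mul_div, div_le_iff₀ h3] at h2
      show _ ≤ (n + 1) * B j ^ 2 / ζ * nrm a φ
      rw [div_mul_eq_mul_div, le_div_iff₀ hζ0]
      have h4 := mul_le_mul_of_nonneg_left ih (show (0 : ℝ) ≤ n * B j by positivity)
      have h5 : 0 ≤ B j ^ 2 * nrm a φ := by positivity
      simp only [← hη] at h2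
      nlinarith
  have h2 : lad Γ φ η a a = 0 := lad_top h0 hφ a (by
    have h3 := hB a
    rw [div_mul_eq_mul_div, lt_div_iff₀ h3] at hμ
    exact_mod_cast (h1 a).trans_lt (by linarith : B a * nrm a φ < Fintype.card G))
  have h3 : ∀ k ≤ a, lad Γ φ η a (a - k) ≤ c k * ded Γ φ η a := fun k hk => by
    induction k with
    | zero => simp [h2]
    | succ k ih =>
      have h4 := lad_le (η := η) hΓ hφ hco hm hL (j := a - (k + 1)) (by omega)
      rw [hn, show a - (k + 1) + 1 = a - k by omega] at h4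
      refine h4.trans ?_
      rw [hc1, mul_assoc, add_mul, mul_assoc]
      exact Nat.mul_le_mul_left _ (Nat.add_le_add_left (Nat.mul_le_mul_left _ (ih (by omega))) _)
  have h4 := h3 a le_rfl
  rw [Nat.sub_self, lad_zero] at h4
  have h5 := ded_le (η := η) hφ hl0 hη0 hA a
  have h6 : ∑ j ∈ range a, (η j + l) * cnt Γ φ η a j ≤ (a + 1) * (ζ * nrm a φ) := by
    have h7 : ∀ j, (η j + l) * cnt Γ φ η a j ≤ ζ * nrm a φ + l * nrm a φ * B j := fun j => by
      refine (mul_le_mul_of_nonneg_left (h1 j) (add_nonneg (hη0 j) hl0)).trans (le_of_eq ?_)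
      have := (hB j).ne'
      simp only [hη]; field_simp
    refine (sum_le_sum fun j _ => h7 j).trans ?_
    rw [sum_add_distrib, sum_const, card_range, nsmul_eq_mul, ← mul_sum]
    have h8 : l * ∑ j ∈ range a, B j ≤ ζ := by
      rw [hl, div_mul_eq_mul_div, div_le_iff₀ (by positivity)]; nlinarith
    nlinarith [mul_le_mul_of_nonneg_right h8 hN]
  have h7 : (nrm a φ : ℝ) ≤ E * ζ * nrm a φ := by
    rw [hn] at h5
    calc (nrm a φ : ℝ) ≤ c a * ded Γ φ η a := by exact_mod_cast h4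
      _ ≤ c a * (2 ^ n * (2 * n ^ 2) * ((a + 1) * (ζ * nrm a φ))) :=
        mul_le_mul_of_nonneg_left (h5.trans (mul_le_mul_of_nonneg_left h6 (by positivity)))
          (by positivity)
      _ = _ := by rw [hE]; ring
  have h8 : (nrm a φ : ℝ) = 0 := by nlinarith
  exact_mod_cast h8

/-- Sketch: take `l, μ` from `ek n (a + 1) C`; `D₁ = 2 ^ n * D`.  Choose an invariant `e`
minimising `Φ e = nrm a e + (D₁ + 1) * nrm (a + 1) (dl (c + e))`.  Then `φ = dl (c + e)` is locally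
minimal (a `b` supported on a star has `nrm a b ≤ D₁`, as `card (Γ K₀) ≤ D`), and
`Φ e ≤ Φ 0`.  If `nrm (a + 1) (dl c) < μ * card G` then `φ = 0` at level `a + 1`, `c + e = dl b` at
level `a`, and `nrm a (c + dl b) = nrm a e ≤ (D₁ + 1) * nrm (a + 1) (dl c)`.  Otherwise take `b = 0`
and `nrm a c ≤ 2 ^ n * card G ≤ ⌈2 ^ n / μ⌉₊ * nrm (a + 1) (dl c)`. -/
theorem expand (n a C : ℕ) : ∃ l : ℝ, 0 < l ∧ ∀ D : ℕ, ∃ C' : ℕ, ∀ (I G : Type) [DecidableEq I]
    [Group G] [Fintype I] [Fintype G] (Γ : Finset I → Subgroup G), Fintype.card I = n →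
    Antitone Γ → Γ ∅ = ⊤ → AngAll Γ l → LkE Γ (a + 1) C → (∀ i, Nat.card (Γ {i}) ≤ D) →
    Ex (ZMod 2) Γ Al a → Expa Γ a C' := by
  obtain ⟨l, hl, μ, hμ, hek⟩ := ek n (a + 1) C
  refine ⟨l, hl, fun D => ⟨2 ^ n * D + 1 + ⌈2 ^ n / μ⌉₊, ?_⟩⟩
  intro I G _ _ _ _ Γ hn hΓ h0 hA hL hD hEx c hc
  by_cases hsm : (nrm (a + 1) (dl c) : ℝ) < μ * Fintype.card G
  · obtain ⟨e, he, hmin⟩ := (measure fun e : Finset I → G → ZMod 2 =>
      nrm a e + (2 ^ n * D + 1) * nrm (a + 1) (dl (c + e))).wf.has_min {e | Inv Γ e} ⟨0, Inv.zero⟩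
    have hmin' : ∀ e', Inv Γ e' → nrm a e + (2 ^ n * D + 1) * nrm (a + 1) (dl (c + e)) ≤
        nrm a e' + (2 ^ n * D + 1) * nrm (a + 1) (dl (c + e')) := fun e' he' =>
      not_lt.1 (hmin e' he')
    have h1 := hmin' 0 Inv.zero
    rw [add_zero, ek_nrm_zero, zero_add] at h1
    have h2 : nrm (a + 1) (dl (c + e)) ≤ nrm (a + 1) (dl c) :=
      Nat.le_of_mul_le_mul_left ((Nat.le_add_left _ _).trans h1) (Nat.succ_pos _)
    have h3 := hek I G Γ hn hΓ h0 hA hL _ ((hc.add he).dl hΓ) coc_dl (fun K₀ hK₀ q₀ b hb hbs => by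
      have h4 := hmin' _ (Inv.add he hb)
      obtain ⟨i, hi⟩ := hK₀
      have h5 := ek_nrm_add a e b
      have h6 : nrm a b ≤ 2 ^ n * D := (ek_nrm_star hbs).trans (by
        rw [hn]
        exact Nat.mul_le_mul_left _ ((Subgroup.card_le_of_le (hΓ (by simpa using hi))).trans (hD i)))
      rw [← add_assoc, dl_add (c + e)] at h4
      by_contra h7
      have h8 := Nat.mul_le_mul_left (2 ^ n * D + 1) (Nat.succ_le_of_lt (not_le.1 h7))
      rw [Nat.mul_succ] at h8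
      omega) (lt_of_le_of_lt (by exact_mod_cast h2) hsm)
    obtain ⟨b, hb, -, h4⟩ := hEx (c + e) (hc.add he) supp_al fun M q hM _ => by
      by_contra h
      exact (card_eq_zero.1 h3 ▸ notMem_empty (M, q)) (mem_filter.2 ⟨mem_univ _, hM, h⟩)
    refine ⟨b, hb, ?_⟩
    have h5 : nrm a (c + dl b) = nrm a e := congrArg card (filter_congr fun x _ =>
      and_congr_right fun hx => by
        rw [Pi.add_apply, Pi.add_apply, ← h4 _ _ hx trivial, Pi.add_apply, Pi.add_apply, ← add_assoc,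
          two_self, zero_add])
    rw [h5, add_mul]
    omega
  · refine ⟨0, Inv.zero, ?_⟩
    have h1 : nrm a (c + dl 0) ≤ 2 ^ n * Fintype.card G :=
      (card_le_univ _).trans (by rw [Fintype.card_prod, Fintype.card_finset, hn])
    have h2 : (2 ^ n * Fintype.card G : ℝ) ≤ ⌈2 ^ n / μ⌉₊ * nrm (a + 1) (dl c) := by
      calc (2 ^ n * Fintype.card G : ℝ) = 2 ^ n / μ * (μ * Fintype.card G) := by field_simp
        _ ≤ _ := mul_le_mul (Nat.le_ceil _) (not_lt.1 hsm) (by positivity) (by positivity)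
    have h3 : 2 ^ n * Fintype.card G ≤ ⌈2 ^ n / μ⌉₊ * nrm (a + 1) (dl c) := by exact_mod_cast h2
    rw [add_mul]
    omega

end

end Crest.Agent.R66
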