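import Crest.Agent.R66.Split

/-! Row 66: generation. -/

set_option autoImplicit false
set_option linter.unusedSectionVars false

namespace Crest.Agent.R66

open Finset Matrix
open scoped Classical

noncomputable section

variable {F R : Type} [Field F] [CommRing R] [Algebra F R] [Finite R] {P : Par F R} {N : ℕ}

section aux
variable {Γ : Subgroup (Iw P N)}

lemma gen_xr_mul {i j : Fin N} (h : i ≠ j) (y : R) (g : Iw P N) (k l : Fin N) :
    mat (xr P h y * g) k l = mat g k l + if k = i then y * eps P i j * mat g j l else 0 := by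
  rw [mat_mul, mat_xr, add_mul, one_mul, Matrix.add_apply]
  split_ifs with hk
  · rw [hk, single_mul_apply_same]
  · rw [single_mul_apply_of_ne _ _ _ _ _ hk]

lemma gen_mul_xr {i j : Fin N} (h : i ≠ j) (y : R) (g : Iw P N) (k l : Fin N) :
    mat (g * xr P h y) k l = mat g k l + if l = j then mat g k i * (y * eps P i j) else 0 := by
  rw [mat_mul, mat_xr, mul_add, mul_one, Matrix.add_apply]
  split_ifs with hl
  · rw [hl, mul_single_apply_same]
  · rw [mul_single_apply_of_ne _ _ _ _ _ hl]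

lemma gen_col {K : Finset (Fin N)} {m : Fin N} (D : Finset (Fin N)) (hm : m ∉ D)
    (h : ∀ i ∈ D, ∀ (hi : i ≠ m) (y : R), xr P hi y ∈ H P K → xr P hi y ∈ Γ) :
    Fam P D {m} K ≤ Γ := by
  induction D using Finset.induction_on with
  | empty =>
    intro e he
    obtain rfl : e = 1 := mat_injective (Matrix.ext fun i j => (mem_Fam.1 he).1 i j (by simp))
    exact one_mem _
  | insert a D ha ih =>
    intro e he
    obtain ⟨he1, he2⟩ := mem_Fam.1 he
    have ham : a ≠ m := fun e => hm (e ▸ mem_insert_self _ _)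
    obtain ⟨y, hy⟩ := exists_entry e ham
    have hx : xr P ham (-y) ∈ H P K := mem_H.2 fun c hc => (xr_mem_Hc ham _).2 (by
      by_cases hr : rk c m < rk c a
      · obtain ⟨x, hx⟩ := (he2 c hc a m).1 hr
        exact .inr ⟨hr, -x, by rw [neg_mul, ← hy, hx, neg_smul]⟩
      · left
        rw [neg_mul, ← hy, (he2 c hc a m).2 hr, one_apply_ne ham, neg_zero])
    refine (Γ.mul_mem_cancel_left (h a (mem_insert_self _ _) ham _ hx)).1
      (ih (fun h' => hm (mem_insert_of_mem h')) (fun i hi => h i (mem_insert_of_mem hi))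
        (mem_Fam.2 ⟨fun i j hij => ?_, fun c hc => mul_mem (mem_H.1 hx c hc) (he2 c hc)⟩))
    rw [gen_xr_mul, he1 m j (.inl hm)]
    by_cases hj : j = m
    · subst hj
      split_ifs with hi
      · rw [hi, hy, one_apply_eq, one_apply_ne ham]; ring
      · rw [add_zero, he1 i j (.inl ?_)]
        rw [mem_insert, not_or]
        exact ⟨hi, hij.resolve_right (by simp)⟩
    · rw [he1 i j (.inr (by simpa using hj)), one_apply_ne (Ne.symm hj), mul_zero, ite_self,
        add_zero]

lemma gen_row {D K : Finset (Fin N)} {m : Fin N} (hm : m ∈ D)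
    (h : ∀ i ∈ D, ∀ j ∈ D, ∀ (hij : i ≠ j) (y : R), xr P hij y ∈ H P K → xr P hij y ∈ Γ)
    (ih : Fam P (D.erase m) (D.erase m) K ≤ Γ) {g : Iw P N} (hg : g ∈ Fam P D D K)
    (hr : ∀ j, mat g m j = (1 : Matrix (Fin N) (Fin N) R) m j) : g ∈ Γ := by
  have h1 : g ∈ Fam P (D.erase m) (D.erase m ∪ {m}) K := by
    refine mem_Fam.2 ⟨fun i j hij => ?_, (mem_Fam.1 hg).2⟩
    by_cases hi : i = m
    · rw [hi, hr]
    · refine (mem_Fam.1 hg).1 i j (hij.imp (fun h' h'' => h' (mem_erase.2 ⟨hi, h''⟩)) fun h' h'' => h' ?_)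
      rw [union_comm, ← insert_eq, insert_erase hm]
      exact h''
  obtain ⟨e, he, g', hg', rfl⟩ := split (by simp) h1
  exact mul_mem (gen_col _ (notMem_erase _ _)
    (fun i hi hi' => h i (mem_of_mem_erase hi) m hm hi') he) (ih hg')

lemma gen_clear {D : Finset (Fin N)} {m : Fin N} (hm : m ∈ D)
    (h : ∀ i ∈ D, ∀ j ∈ D, ∀ (hij : i ≠ j) (y : R), xr P hij y ∈ Γ)
    (h0 : ∀ g ∈ GG P D D, (∀ j, mat g m j = (1 : Matrix (Fin N) (Fin N) R) m j) → g ∈ Γ)
    (S : Finset (Fin N)) (hS : S ⊆ D.erase m) : ∀ g ∈ GG P D D,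
      (∀ j ∉ S, mat g m j = (1 : Matrix (Fin N) (Fin N) R) m j) → g ∈ Γ := by
  induction S using Finset.induction_on with
  | empty => exact fun g hg hr => h0 g hg fun j => hr j (notMem_empty _)
  | insert a S ha ih =>
    intro g hg hr
    obtain ⟨ham, haD⟩ := mem_erase.1 (hS (mem_insert_self _ _))
    obtain ⟨y, hy⟩ := exists_entry g ham.symm
    refine (Γ.mul_mem_cancel_right (h m hm a haD ham.symm (-y))).1
      (ih ((subset_insert _ _).trans hS) _ (mul_mem hg (xr_mem_GG _ _ hm haD)) fun j hj => ?_)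
    rw [gen_mul_xr, hr m fun h' => notMem_erase _ _ (hS h')]
    split_ifs with hja
    · rw [hja, hy, one_apply_eq, one_apply_ne ham.symm]; ring
    · rw [add_zero, hr j (by rw [mem_insert, not_or]; exact ⟨hja, hj⟩)]

lemma gen_single {m : Fin N} {g : Iw P N} (hg : g ∈ GG P {m} {m}) : mat g m m = 1 := by
  have h1 : mat g = diagonal fun i => mat g i i := by
    ext i j
    by_cases hij : i = j
    · rw [hij, diagonal_apply_eq]
    · rw [diagonal_apply_ne _ hij, hg i j, one_apply_ne hij]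
      by_contra hc
      simp only [mem_singleton, not_or, not_not] at hc
      exact hij (hc.1.trans hc.2.symm)
  have h2 := mat_det g
  rw [h1, det_diagonal, prod_eq_single m (fun i _ hi => ?_) (by simp)] at h2
  · exact h2
  · rw [hg i i (.inl (by simpa using hi)), one_apply_eq]

lemma gen_comm {i m j : Fin N} (h1 : i ≠ m) (h2 : m ≠ j) (h3 : i ≠ j) {y z : R}
    (hy : xr P h1 y ∈ Γ) (hz : xr P h2 z ∈ Γ) :
    xr P h3 (y * z * if rk j m < rk j i then 1 else P.t) ∈ Γ := by
  rw [← xr_comm h1 h2 h3]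
  exact mul_mem (mul_mem (mul_mem hy hz) (inv_mem hy)) (inv_mem hz)

lemma gen_mem_H {K : Finset (Fin N)} {a b : Fin N} (hab : a ≠ b) (x : F)
    (h : ∀ c ∈ K, rk c b < rk c a) : xr P hab (algebraMap F R x) ∈ H P K :=
  mem_H.2 fun c hc => (xr_mem_Hc hab _).2 (.inr ⟨h c hc, x, (Algebra.smul_def _ _).symm⟩)

lemma gen_rk₁ {i j a b : Fin N} (hij : i ≠ j) (hab : a ≠ b) (hi : ¬ rk i b < rk i a)
    (hj : ¬ rk j b < rk j a) :
    (rk b j < rk b a ∧ rk i j < rk i a) ∨ (rk b i < rk b a ∧ rk j i < rk j a) := by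
  have := i.2; have := j.2; have := a.2; have := b.2
  simp only [rk, ne_eq, Fin.ext_iff] at *
  split_ifs at * <;> omega

lemma gen_rk₂ {c j a b : Fin N} (h : rk b j < rk b a) (hc : rk c b < rk c a) :
    rk c j < rk c a ∧ rk c b < rk c j := by
  have := c.2; have := j.2; have := a.2; have := b.2
  simp only [rk] at *
  split_ifs at * <;> omega

lemma gen_rk₃ {j a b : Fin N} (hab : a ≠ b) (h : rk b j < rk b a) :
    a ≠ j ∧ j ≠ b ∧ rk j b < rk j j ∧ ¬ rk j b < rk j a := by
  have := j.2; have := a.2; have := b.2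
  simp only [rk, ne_eq, Fin.ext_iff] at *
  split_ifs at * <;> omega

lemma gen_field_aux {K : Finset (Fin N)} {i j a b : Fin N} (hi : H P (insert i K) ≤ Γ)
    (hj : H P (insert j K) ≤ Γ) (hab : a ≠ b) (x : F) (hK : ∀ c ∈ K, rk c b < rk c a)
    (h1 : rk b j < rk b a) (h2 : rk i j < rk i a) : xr P hab (algebraMap F R x) ∈ Γ := by
  obtain ⟨h3, h4, h5, -⟩ := gen_rk₃ hab h1
  have := gen_comm h3 h4 hab
    (hi (gen_mem_H h3 x (forall_mem_insert _ _ _ |>.2 ⟨h2, fun c hc => (gen_rk₂ h1 (hK c hc)).1⟩)))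
    (hj (gen_mem_H h4 1 (forall_mem_insert _ _ _ |>.2 ⟨h5, fun c hc => (gen_rk₂ h1 (hK c hc)).2⟩)))
  rwa [if_pos h1, map_one, mul_one, mul_one] at this

lemma gen_field {K : Finset (Fin N)} {i j a b : Fin N} (hij : i ≠ j) (hi : H P (insert i K) ≤ Γ)
    (hj : H P (insert j K) ≤ Γ) (hab : a ≠ b) (x : F) (hK : ∀ c ∈ K, rk c b < rk c a) :
    xr P hab (algebraMap F R x) ∈ Γ := by
  by_cases h1 : rk i b < rk i a
  · exact hi (gen_mem_H hab x (forall_mem_insert _ _ _ |>.2 ⟨h1, hK⟩))
  by_cases h2 : rk j b < rk j a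
  · exact hj (gen_mem_H hab x (forall_mem_insert _ _ _ |>.2 ⟨h2, hK⟩))
  rcases gen_rk₁ hij hab h1 h2 with h | h
  · exact gen_field_aux hi hj hab x hK h.1 h.2
  · exact gen_field_aux hj hi hab x hK h.1 h.2

lemma gen_all (hN : 3 ≤ N)
    (hF : ∀ (x : F) (a b : Fin N) (hab : a ≠ b), xr P hab (algebraMap F R x) ∈ Γ) (y : R)
    {a b : Fin N} (hab : a ≠ b) : xr P hab y ∈ Γ := by
  have h1 : ∀ (a b : Fin N) (hab : a ≠ b), xr P hab 1 ∈ Γ := by simpa using hF 1
  have ht : ∀ z : R, (∀ (a b : Fin N) (hab : a ≠ b), xr P hab z ∈ Γ) →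
      ∀ (a b : Fin N) (hab : a ≠ b), xr P hab (P.t * z) ∈ Γ := by
    intro z hz a b hab
    obtain ⟨m, hma, hmb⟩ := Fin.exists_ne_and_ne_of_two_lt a b hN
    by_cases hr : rk b m < rk b a
    · have h2 := gen_comm hab hmb.symm hma.symm (hz _ _ _) (h1 _ _ _)
      rw [if_neg (gen_rk₃ hab hr).2.2.2] at h2
      have h3 := gen_comm hma.symm hmb hab h2 (h1 _ _ _)
      rwa [if_pos hr, mul_one, mul_one, mul_one, mul_comm] at h3
    · have h2 := gen_comm hma.symm hmb hab (hz _ _ _) (h1 _ _ _)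
      rwa [if_neg hr, mul_one, mul_comm] at h2
  have key : ∀ (n : ℕ) (y : R), ∃ z w : R, (∀ (a b : Fin N) (hab : a ≠ b), xr P hab z ∈ Γ) ∧
      y = z + P.t ^ n * w := by
    intro n
    induction n with
    | zero => exact fun y => ⟨0, y, fun a b hab => by rw [xr_zero]; exact one_mem _, by simp⟩
    | succ n ih =>
      intro y
      obtain ⟨x, y', rfl⟩ := P.span y
      obtain ⟨z, w, hz, rfl⟩ := ih y'
      refine ⟨algebraMap F R x + P.t * z, w, fun a b hab => ?_, by ring⟩
      rw [xr_add]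
      exact mul_mem (hF x a b hab) (ht z hz a b hab)
  obtain ⟨n, hn⟩ := P.nil
  obtain ⟨z, w, hz, rfl⟩ := key n y
  rw [hn, zero_mul, add_zero]
  exact hz a b hab

end aux

/-- Generation by root elements.  Sketch: induction on `D`.  If `c ∈ K`, let `m ∈ D` minimise
`rk c`; then row `m` of `g` is trivial, `g ∈ Fam (D.erase m) (D.erase m ∪ {m}) K`; use `split`; the
column part is a product of root elements `xr i m` with the same entries, all in `H K`.  If `K = ∅`
let `m = max D`.  If `D = {m}` then `g = 1` (determinant).  Otherwise pick `m' < m` in `D`; multiply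
on the right by `xr m m' y'` to make the entry `(m, m')` equal to `1` (`isUnit_diag`), by
`xr m' m y` to make the entry `(m, m)` equal to `1`, and by `xr m j` to clear row `m`. -/
theorem gen {D K : Finset (Fin N)} {Γ : Subgroup (Iw P N)}
    (h : ∀ i ∈ D, ∀ j ∈ D, ∀ (hij : i ≠ j) (y : R), xr P hij y ∈ H P K → xr P hij y ∈ Γ) :
    Fam P D D K ≤ Γ := by
  induction D using Finset.strongInduction with
  | H D ih =>
  intro g hg
  rcases D.eq_empty_or_nonempty with rfl | hD
  · obtain rfl : g = 1 := mat_injective (Matrix.ext fun i j => (mem_Fam.1 hg).1 i j (by simp))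
    exact one_mem _
  have ih' : ∀ m ∈ D, Fam P (D.erase m) (D.erase m) K ≤ Γ := fun m hm =>
    ih _ (erase_ssubset hm) fun i hi j hj => h i (mem_of_mem_erase hi) j (mem_of_mem_erase hj)
  rcases K.eq_empty_or_nonempty with rfl | ⟨c, hc⟩
  · have hall : ∀ i ∈ D, ∀ j ∈ D, ∀ (hij : i ≠ j) (y : R), xr P hij y ∈ Γ :=
      fun i hi j hj hij y => h i hi j hj hij y (mem_H.2 (by simp))
    obtain ⟨m, hm, hmax⟩ := exists_max_image D id hD
    have h1 : ∀ g ∈ GG P D D, mat g m m = 1 → g ∈ Γ := fun g hg h1 =>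
      gen_clear hm hall (fun g hg hr => gen_row hm h (ih' m hm) (mem_Fam.2 ⟨hg, by simp⟩) hr)
        _ Subset.rfl g hg fun j hj => by
          by_cases hjm : j = m
          · rw [hjm, h1, one_apply_eq]
          · exact hg m j (.inr fun h' => hj (mem_erase.2 ⟨hjm, h'⟩))
    replace hg := (mem_Fam.1 hg).1
    rcases (D.erase m).eq_empty_or_nonempty with he | ⟨m', hm'⟩
    · obtain rfl : D = {m} := by rw [← insert_erase hm, he]; rfl
      exact h1 g hg (gen_single hg)
    obtain ⟨hne, hm'⟩ := mem_erase.1 hm'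
    have hlt : m' < m := lt_of_le_of_ne (hmax m' hm') hne
    obtain ⟨u, hu⟩ := (isUnit_diag g m).exists_right_inv
    obtain ⟨z, hz⟩ := mat_dvd g (le_refl m)
    rw [one_apply_eq] at hz
    refine (Γ.mul_mem_cancel_right (hall m hm m' hm' hne.symm (u * (1 - mat g m m')))).1
      ((Γ.mul_mem_cancel_right (hall m' hm' m hm hne (-z))).1 (h1 _
        (mul_mem (mul_mem hg (xr_mem_GG _ _ hm hm')) (xr_mem_GG _ _ hm' hm)) ?_))
    rw [gen_mul_xr, gen_mul_xr, gen_mul_xr, if_neg hne.symm, if_pos rfl, if_pos rfl, eps, eps,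
      if_pos hlt, if_neg hlt.not_gt]
    linear_combination hz - (z * P.t * (1 - mat g m m')) * hu
  · obtain ⟨m, hm, hmin⟩ := exists_min_image D (rk c) hD
    refine gen_row hm h (ih' m hm) hg fun j => ?_
    by_cases hj : j ∈ D
    · exact ((mem_Fam.1 hg).2 c hc m j).2 (hmin j hj).not_gt
    · exact (mem_Fam.1 hg).1 m j (.inr hj)

/-- Sketch: use `gen` with `D = univ` (`Fam_univ`).  A root element `xr a b x` with `x ∈ F` lies in
`Hc c` iff `rk c b < rk c a`.  If this fails for both `c = i` and `c = j`, say `rk b' i < rk b' j`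
in the order starting at `b`, then `xr a b x = ⁅xr a j x, xr j b 1⁆` (`xr_comm`) with
`xr a j x ∈ H (insert i K)`, `xr j b 1 ∈ H (insert j K)`.  If `K ≠ ∅` all root elements of `H K` have
this form.  If `K = ∅`, the set of `y` with `xr a b y ∈ Γ'` for all `a ≠ b` is an additive subgroup
that contains `F`, is closed under multiplication by `F` multiples of `t` (`xr_comm` with a third
index `m`; if `b = a + 1` cyclically use the case already done), so it is `R` (`P.span`, `P.nil`:
prove `∀ n y, t ^ n * y ∈ _` by downward induction). -/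
theorem H_sup (hN : 3 ≤ N) {K : Finset (Fin N)} {i j : Fin N} (hij : i ≠ j) :
    H P K ≤ H P (insert i K) ⊔ H P (insert j K) := by
  have h := @gen F R _ _ _ _ P N univ K (H P (insert i K) ⊔ H P (insert j K)) ?_
  · rwa [Fam_univ] at h
  intro a _ b _ hab y hy
  rcases K.eq_empty_or_nonempty with rfl | ⟨c, hc⟩
  · exact gen_all hN (fun x a b hab => gen_field hij le_sup_left le_sup_right hab x (by simp)) y hab
  by_cases h0 : y * eps P a b = 0
  · rw [xr_congr hab (z := 0) (by rw [h0, zero_mul]), xr_zero]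
    exact one_mem _
  have h1 := fun c hc => ((xr_mem_Hc hab y).1 (mem_H.1 hy c hc)).resolve_left h0
  obtain ⟨x, hx⟩ := (h1 c hc).2
  rw [xr_congr hab (z := algebraMap F R x) (by rw [hx, Algebra.smul_def])]
  exact gen_field hij le_sup_left le_sup_right hab x fun c hc => (h1 c hc).1

end

end Crest.Agent.R66
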