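import Crest.Agent.R66.Grp

/-! Row 66: orders. -/

set_option autoImplicit false
set_option linter.unusedSectionVars false

namespace Crest.Agent.R66

open Finset Matrix
open scoped Classical

noncomputable section

variable {F R : Type} [Field F] [CommRing R] [Algebra F R] [Finite R] {P : Par F R} {N : ℕ}

/-- Sketch: if `g * g = 1` then `(mat g - 1) * (mat g + 1) = 0` and `det (mat g + 1)` is a unit,
since modulo the nilpotent `t` the matrix is lower triangular with diagonal `2`
(`Matrix.det_of_lowerTriangular` in `R ⧸ span {t}`; a unit modulo a nilpotent is a unit).  Hence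
`g = 1`; conclude with Cauchy's theorem (`exists_prime_orderOf_dvd_card'`). -/
theorem odd_card (E : Subgroup (Iw P N)) : Odd (Nat.card E) := by
  rw [← Nat.not_even_iff_odd, even_iff_two_dvd]
  intro h
  have := Fact.mk Nat.prime_two
  obtain ⟨⟨g, hg⟩, hx⟩ := exists_prime_orderOf_dvd_card' 2 h
  rw [← Subgroup.orderOf_coe] at hx
  have h1 : mat g * mat g = 1 := by
    rw [← mat_mul, ← pow_two, ← hx, Subtype.coe_mk, pow_orderOf_eq_one, mat_one]
  have hI : IsNilpotent (Ideal.span {P.t}) := by
    obtain ⟨n, hn⟩ := P.nil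
    exact ⟨n, by rw [Ideal.span_singleton_pow, hn]; simp⟩
  have h2 : IsUnit (mat g + 1).det := by
    have he : ∀ i j, i ≤ j → Ideal.Quotient.mk (Ideal.span {P.t}) (mat g i j) =
        Ideal.Quotient.mk _ ((1 : Matrix _ _ R) i j) := fun i j hij =>
      Ideal.Quotient.eq.2 (Ideal.mem_span_singleton.2 (mat_dvd g hij))
    rw [← IsNilpotent.isUnit_quotient_mk_iff hI, RingHom.map_det, det_of_isLowerTriangular]
    · refine IsUnit.prod_iff.2 fun i _ => ?_
      rw [RingHom.mapMatrix_apply, map_apply, Matrix.add_apply, map_add, he i i le_rfl, ← map_add,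
        one_apply_eq, one_add_one_eq_two, ← map_ofNat (algebraMap F R) 2]
      exact (P.two.isUnit.map _).map _
    · intro i j hij
      have hij : i < j := hij
      rw [RingHom.mapMatrix_apply, map_apply, Matrix.add_apply, map_add, he i j hij.le,
        one_apply_ne hij.ne, map_zero, add_zero]
  have h3 : (mat g - 1) * (mat g + 1) = 0 := by
    rw [sub_mul, mul_add, h1, one_mul, mul_one, add_comm, sub_self]
  have h4 : g = 1 := mat_injective
    (sub_eq_zero.1 (((isUnit_iff_isUnit_det _).2 h2).mul_left_eq_zero.1 h3))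
  simp [h4] at hx

/-- Sketch: `und` is injective on `Hc P c` (or choose coefficients directly). -/
theorem card_Hc_le [Finite F] (c : Fin N) : Nat.card (Hc P c) ≤ Nat.card F ^ (N * N) := by
  have key : ∀ g : Hc P c, ∀ i j, ∃ x : F, rk c j < rk c i → mat g.1 i j = x • eps P i j :=
    fun g i j => by
      by_cases h : rk c j < rk c i
      · exact ((g.2 i j).1 h).imp fun _ hx _ => hx
      · exact ⟨0, fun h' => (h h').elim⟩
  choose f hf using key
  refine (Nat.card_le_card_of_injective f fun g g' h => Subtype.ext (mat_injective ?_)).trans ?_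
  · ext i j
    by_cases h' : rk c j < rk c i
    · rw [hf g i j h', hf g' i j h', h]
    · rw [(g.2 i j).2 h', (g'.2 i j).2 h']
  · simp [Nat.card_fun, pow_mul]

/-- Sketch: `y ↦ xr P (1 ≠ 0) y` is injective. -/
theorem card_le_card_Iw (hN : 2 ≤ N) : Nat.card R ≤ Nat.card (Iw P N) := by
  have h : (⟨1, by omega⟩ : Fin N) ≠ ⟨0, by omega⟩ := by simp
  refine Nat.card_le_card_of_injective (xr P h) fun y z hyz => ?_
  simpa [mat_xr, eps] using congrFun₂ (congrArg mat hyz) ⟨1, by omega⟩ ⟨0, by omega⟩

/-- The data of a truncated polynomial ring.  Sketch: `R = AdjoinRoot (X ^ s)` with `s = n + 2`,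
`t = AdjoinRoot.root _`; `card R = card F ^ s` by the power basis `AdjoinRoot.powerBasis'`. -/
theorem exists_par (F : Type) [Field F] [Finite F] (h2 : (2 : F) ≠ 0) (n : ℕ) :
    ∃ (R : Type) (_ : CommRing R) (_ : Algebra F R) (_ : Finite R) (_ : Par F R),
      n ≤ Nat.card R := by
  have hm : (Polynomial.X ^ (n + 2) : Polynomial F).Monic := Polynomial.monic_X_pow _
  have := (AdjoinRoot.powerBasis' hm).finite
  refine ⟨AdjoinRoot (Polynomial.X ^ (n + 2) : Polynomial F), inferInstance, inferInstance,
    Module.finite_of_finite F, ⟨AdjoinRoot.root _, ?_, ⟨n + 2, ?_⟩, fun r => ?_, h2⟩, ?_⟩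
  · rw [← AdjoinRoot.mk_X, ne_eq, AdjoinRoot.mk_eq_zero]
    intro h
    simpa using Polynomial.natDegree_le_of_dvd h Polynomial.X_ne_zero
  · rw [← AdjoinRoot.mk_X, ← map_pow, AdjoinRoot.mk_self]
  · induction r using AdjoinRoot.induction_on with
    | ih p =>
      refine ⟨p.coeff 0, AdjoinRoot.mk _ p.divX, ?_⟩
      conv_lhs => rw [← p.X_mul_divX_add]
      rw [map_add, map_mul, AdjoinRoot.mk_X, AdjoinRoot.mk_C]
      exact add_comm _ _
  · rw [Module.natCard_eq_pow_finrank (K := F), (AdjoinRoot.powerBasis' hm).finrank,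
      AdjoinRoot.powerBasis'_dim, Polynomial.natDegree_X_pow]
    exact (by omega : n ≤ n + 2).trans (Nat.lt_pow_self Finite.one_lt_card).le

end

end Crest.Agent.R66
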