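import Crest.Agent.R66.Cone
import Crest.Agent.R66.Gen
import Crest.Agent.R66.Ord

/-! Row 66: restriction kills cohomology. -/

set_option autoImplicit false
set_option linter.unusedSectionVars false

namespace Crest.Agent.R66

open Finset Matrix
open scoped Classical

noncomputable section

variable {F R : Type} [Field F] [CommRing R] [Algebra F R] [Finite R] {P : Par F R} {N : ℕ}

/-- Restriction to the smaller group kills cohomology.  Let `D' = D.erase m`, `G' = GG D' D'`.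
Sketch: `𝒩 = {g ∈ GG D D | ∀ φ, Inv (Fam D D) φ → Coc Al a φ → Exa (Fam D' D') (· ∈ G') a
(φ + Lt g φ)}` is a subgroup (`mkSub`, `Lt_mul`) that contains `GG D' {m}` and `GG {m} D'` and is
normalised by `G'` (`Exa.tr`); by `gen` it is normalised by `GG D D`.  By `gen` and `xr_comm`,
`Fam D D K ≤ {n * h | n ∈ 𝒩, h ∈ Fam D D (insert m K)}`: a root element `xr i j y` with `i = m` or
`j = m` is in `𝒩`; otherwise `xr i j (y * cor)` is a commutator of elements of `𝒩`, with `cor = 1`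
if `rk m i < rk m j`; if `rk m j < rk m i` and `K ≠ ∅` then `xr i j y ∈ Hc m`; if `K = ∅` write
`y = x + t * y'`.  `φ' = ∑ g ∈ 𝒩, Lt g φ`; `φ + φ'` is exact on `G'` (`odd_card`, `Exa.sum`), and
`res (· ∈ G') φ'` is exact by `Exa.cone m`.  Apply this to all `Lt q₀ φ` and glue with
`Exa.of_cosets G'`. -/
theorem exa_erase {A : Type} [AddCommGroup A] [Module (ZMod 2) A] {D : Finset (Fin N)} {m : Fin N}
    (hm : m ∈ D) {a : ℕ}
    (hcol : Triv A (Fam P (D.erase m) D) (Fam P (D.erase m) (D.erase m)) (GG P (D.erase m) {m}) a)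
    (hrow : Triv A (Fam P D (D.erase m)) (Fam P (D.erase m) (D.erase m)) (GG P {m} (D.erase m)) a)
    {φ : Finset (Fin N) → Iw P N → A} (hφ : Inv (Fam P D D) φ) (hco : Coc Al a φ) :
    Exa (Fam P (D.erase m) (D.erase m)) Al a φ := by
  have hsub : D.erase m ⊆ D := erase_subset m D
  have hG : ∀ g, g ∈ Fam P (D.erase m) (D.erase m) ∅ ↔ g ∈ GG P (D.erase m) (D.erase m) :=
    fun g => by simp [mem_Fam]
  let 𝒩 : Subgroup (Iw P N) := mkSub {g | g ∈ GG P D D ∧ ∀ φ : Finset (Fin N) → Iw P N → A,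
      Inv (Fam P D D) φ → Coc Al a φ → Exa (Fam P (D.erase m) (D.erase m))
        (fun _ q => q ∈ GG P (D.erase m) (D.erase m)) a (φ + Lt g φ)}
    ⟨one_mem _, fun φ _ _ => Exa.of_zero fun K q _ _ => by simp [two_self]⟩
    fun g hg h hh => ⟨mul_mem hg.1 hh.1, fun φ h1 h2 =>
      ((hg.2 φ h1 h2).add (hh.2 _ (h1.tr g) (h2.tr g))).congr fun K q _ _ => by
        simp only [Lt_mul, Pi.add_apply]
        rw [add_assoc, ← add_assoc (Lt g φ K q), two_self, zero_add]⟩
  have hm' : {m} ⊆ D := singleton_subset_iff.2 hm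
  have hc : GG P (D.erase m) {m} ≤ 𝒩 := fun e he => ⟨GG_mono hsub hm' he, fun φ h1 h2 => by
    simpa only [hG] using hcol φ
      (h1.mono fun K => inf_le_inf_right _ (GG_mono hsub Subset.rfl)) h2 e he⟩
  have hr : GG P {m} (D.erase m) ≤ 𝒩 := fun e he => ⟨GG_mono hm' hsub he, fun φ h1 h2 => by
    simpa only [hG] using hrow φ
      (h1.mono fun K => inf_le_inf_right _ (GG_mono Subset.rfl hsub)) h2 e he⟩
  have hxm : ∀ i ∈ D, ∀ j ∈ D, ∀ (hij : i ≠ j) (y : R), i = m ∨ j = m → xr P hij y ∈ 𝒩 := by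
    rintro i hi j hj hij y (rfl | rfl)
    · exact hr (xr_mem_GG _ _ (mem_singleton_self _) (mem_erase.2 ⟨hij.symm, hj⟩))
    · exact hc (xr_mem_GG _ _ (mem_erase.2 ⟨hij, hi⟩) (mem_singleton_self _))
  have hnorm : ∀ x ∈ GG P D D, ∀ g ∈ 𝒩, x * g * x⁻¹ ∈ 𝒩 := by
    have := gen (P := P) (D := D) (K := ∅) (Γ := mkSub {x | ∀ g ∈ 𝒩, x * g * x⁻¹ ∈ 𝒩}
      (by simp) fun x hx y hy g hg => by
        convert hx _ (hy g hg) using 1
        group) fun i hi j hj hij y _ g hg => ?_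
    · exact fun x hx => this (mem_Fam.2 ⟨hx, by simp⟩)
    by_cases h : i = m ∨ j = m
    · exact mul_mem (mul_mem (hxm i hi j hj hij y h) hg) (inv_mem (hxm i hi j hj hij y h))
    push Not at h
    have hx : xr P hij y ∈ GG P (D.erase m) (D.erase m) :=
      xr_mem_GG _ _ (mem_erase.2 ⟨h.1, hi⟩) (mem_erase.2 ⟨h.2, hj⟩)
    generalize xr P hij y = x at hx
    have hx' := GG_mono hsub hsub hx
    refine ⟨mul_mem (mul_mem hx' hg.1) (inv_mem hx'), fun φ h1 h2 => ?_⟩
    have := (hg.2 _ (h1.tr x) (h2.tr x)).tr x⁻¹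
    simp only [(GG P (D.erase m) (D.erase m)).mul_mem_cancel_left (inv_mem hx)] at this
    exact this.congr fun K q _ _ => by simp [Lt, mul_assoc]
  have hcomm : ∀ i ∈ D, ∀ j ∈ D, ∀ (hij : i ≠ j) (y : R), i ≠ m → j ≠ m →
      xr P hij (y * if rk j m < rk j i then 1 else P.t) ∈ 𝒩 := fun i hi j hj hij y h1 h2 => by
    have h3 := hxm i hi m hm h1 y (.inr rfl)
    have h4 := hxm m hm j hj h2.symm 1 (.inl rfl)
    have := xr_comm (P := P) h1 h2.symm hij y 1
    rw [mul_one] at this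
    exact this ▸ mul_mem (mul_mem (mul_mem h3 h4) (inv_mem h3)) (inv_mem h4)
  have hU : UInv (Fam P (D.erase m) (D.erase m)) fun _ q => q ∈ GG P (D.erase m) (D.erase m) :=
    fun K q γ hγ => Subgroup.mul_mem_cancel_right _ hγ.1
  refine Exa.of_cosets (GG P (D.erase m) (D.erase m)) uinv_al (fun K _ _ => inf_le_left)
    fun q₀ => ?_
  simp only [Al, and_true]
  replace hφ := hφ.tr q₀
  replace hco := hco.tr q₀
  generalize Lt q₀ φ = φ at hφ hco
  set φ' := ∑ g with g ∈ 𝒩, Lt g φ with hφ'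
  have hi' : Inv (Fam P D D) φ' := Inv.sum _ fun g _ => hφ.tr g
  have hl : ∀ K q, ∀ n ∈ 𝒩, φ' K (n * q) = φ' K q := fun K q n hn => by
    simp only [hφ', Finset.sum_apply, Lt]
    refine sum_bijective (· * n) (Group.mulRight_bijective n) (fun x => ?_) fun x _ => ?_
    · simp [𝒩.mul_mem_cancel_right hn]
    · rw [mul_assoc]
  refine Exa.of_add (c' := φ') ((Exa.sum {g | g ∈ 𝒩} fun g hg =>
    (mem_filter.1 hg).2.2 φ hφ hco).congr fun K q _ _ => ?_) ?_
  · rw [sum_add_distrib, sum_const, odd_nsmul]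
    rw [← Fintype.card_subtype, ← Nat.card_eq_fintype_card]
    exact odd_card 𝒩
  refine (Exa.cone (c := res (fun _ q => q ∈ GG P (D.erase m) (D.erase m)) φ') m hU
    (fun _ _ => Iff.rfl) supp_res (fun M q hM hq => ?_) fun K q _ hq γ hγ => ?_).congr
    fun K q _ hq => (res_of (U := fun _ q => q ∈ GG P (D.erase m) (D.erase m)) hq).symm
  · have : dl φ' M q = 0 := by
      simp only [hφ', dl_sum, Finset.sum_apply]
      exact sum_eq_zero fun g _ => hco.tr g M q hM trivial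
    rw [← this]
    exact sum_congr rfl fun i _ => res_of (U := fun _ q => q ∈ GG P (D.erase m) (D.erase m)) hq
  rw [res_of (U := fun _ q => q ∈ GG P (D.erase m) (D.erase m)) hq,
    res_of (U := fun _ q => q ∈ GG P (D.erase m) (D.erase m)) (mul_mem hq hγ.1)]
  let Γ : Subgroup (Iw P N) := mkSub {γ | γ ∈ GG P D D ∧ ∀ q ∈ GG P D D,
      φ' (insert m K) (q * γ) = φ' (insert m K) q} ⟨one_mem _, by simp⟩
    fun x hx y hy => ⟨mul_mem hx.1 hy.1, fun q hq => by
      rw [← mul_assoc, hy.2 _ (mul_mem hq hx.1), hx.2 q hq]⟩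
  have h1 : 𝒩 ≤ Γ := fun n hn => ⟨hn.1, fun q hq => by
    rw [← hl _ q _ (hnorm q hq n hn), inv_mul_cancel_right]⟩
  have h2 : Fam P D D (insert m K) ≤ Γ := fun n hn => ⟨hn.1, fun q _ => hi' _ q n hn⟩
  refine (gen (Γ := Γ) (fun i hi j hj hij y hy => ?_)
    (inf_le_inf_right _ (GG_mono hsub hsub) hγ)).2 q (GG_mono hsub hsub hq)
  by_cases h : i = m ∨ j = m
  · exact h1 (hxm i hi j hj hij y h)
  push Not at h
  have h3 := fun y => hcomm i hi j hj hij y h.1 h.2
  by_cases h4 : rk j m < rk j i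
  · simpa [h4] using h1 (h3 y)
  have h5 : rk m j < rk m i := by
    have := i.2; have := j.2; have := m.2
    simp only [rk, ne_eq, Fin.ext_iff] at h h4 hij ⊢
    split_ifs at * <;> omega
  simp only [if_neg h4] at h3
  rcases K.eq_empty_or_nonempty with rfl | ⟨c, hcK⟩
  · obtain ⟨x, y', rfl⟩ := P.span y
    rw [xr_add, mul_comm P.t]
    refine mul_mem (h2 (mem_Fam.2 ⟨xr_mem_GG _ _ hi hj, fun c hc => ?_⟩)) (h1 (h3 y'))
    obtain rfl : c = m := by simpa using hc
    exact (xr_mem_Hc _ _).2 (.inr ⟨h5, x, by rw [Algebra.smul_def]⟩)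
  · refine h2 (mem_Fam.2 ⟨xr_mem_GG _ _ hi hj, fun c' hc' => ?_⟩)
    rcases mem_insert.1 hc' with h | hc'
    · exact h ▸ (xr_mem_Hc _ _).2 (((xr_mem_Hc _ _).1 (mem_H.1 hy c hcK)).imp id fun h => ⟨h5, h.2⟩)
    · exact mem_H.1 hy c' hc'

end

end Crest.Agent.R66
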