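import Crest.Agent.R66.Vt

/-! Row 66: transversal flags. -/

set_option autoImplicit false
set_option linter.unusedSectionVars false

namespace Crest.Agent.R66

open Finset Matrix
open scoped Classical

noncomputable section

variable {F R : Type} [Field F] [CommRing R] [Algebra F R] [Finite R] {P : Par F R} {N : ℕ}
  {D : Finset (Fin N)} {c₀ c c' : Fin N} {u u' : Iw P N}

/-- Position of `i` among the elements of `D`. -/
def exvtPos (D : Finset (Fin N)) (c₀ i : Fin N) : ℕ := #{i' ∈ D | rk c₀ i' ≤ rk c₀ i}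

lemma exvt_pos_mono {i j : Fin N} (h : rk c₀ i ≤ rk c₀ j) : exvtPos D c₀ i ≤ exvtPos D c₀ j :=
  card_le_card fun x hx => by
    rw [mem_filter] at hx ⊢
    exact ⟨hx.1, hx.2.trans h⟩

lemma exvt_pos_lt {i j : Fin N} (hj : j ∈ D) (h : rk c₀ i < rk c₀ j) :
    exvtPos D c₀ i < exvtPos D c₀ j := by
  refine card_lt_card ⟨fun x hx => ?_, fun hs => ?_⟩
  · rw [mem_filter] at hx ⊢
    exact ⟨hx.1, hx.2.trans h.le⟩
  · have := hs (mem_filter.2 ⟨hj, le_rfl⟩)
    exact absurd (mem_filter.1 this).2 h.not_ge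

lemma exvt_pos_surj {d : ℕ} (h1 : 1 ≤ d) (h2 : d ≤ exvtPos D c₀ c₀) :
    ∃ c ∈ D, exvtPos D c₀ c = d := by
  have hinj : Set.InjOn (exvtPos D c₀) D := by
    intro i hi j hj hij
    rcases lt_trichotomy (rk c₀ i) (rk c₀ j) with h | h | h
    · exact absurd hij (exvt_pos_lt hj h).ne
    · exact rk_inj h
    · exact absurd hij (exvt_pos_lt hi h).ne'
  have hsub : D.image (exvtPos D c₀) ⊆ Icc 1 #D := by
    intro x hx
    obtain ⟨i, hi, rfl⟩ := mem_image.1 hx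
    exact mem_Icc.2 ⟨card_pos.2 ⟨i, mem_filter.2 ⟨hi, le_rfl⟩⟩, card_filter_le _ _⟩
  have heq : D.image (exvtPos D c₀) = Icc 1 #D :=
    eq_of_subset_of_card_le hsub (by rw [card_image_of_injOn hinj]; simp)
  have : d ∈ D.image (exvtPos D c₀) := by
    rw [heq]
    exact mem_Icc.2 ⟨h1, h2.trans (card_filter_le _ _)⟩
  exact mem_image.1 this

lemma exvt_sup_std (i : Fin N) : Ys F D c₀ i ⊔ Fs F D c₀ (rk c₀ i + 1) = ⊤ := by
  rw [eq_top_iff]
  intro v _
  refine Submodule.mem_sup.2 ⟨fun j => if j ∈ D ∧ rk c₀ j ≤ rk c₀ i then v j else 0, ?_,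
    fun j => if j ∈ D ∧ rk c₀ j ≤ rk c₀ i then 0 else v j, ?_, ?_⟩
  · exact mem_Ys.2 fun j hj => if_neg hj
  · exact mem_Fs.2 fun j hj h => if_pos ⟨hj, Nat.lt_succ_iff.1 h⟩
  · funext j
    simp only [Pi.add_apply]
    split_ifs <;> simp

lemma exvt_sup {Y : Submodule F (Fin N → F)} (hY : Good (Fss F D c₀) Y) {i : Fin N}
    (h : exvtPos D c₀ i ≤ Module.finrank F Y) : Y ⊔ Fs F D c₀ (rk c₀ i + 1) = ⊤ := by
  have hmem : Fs F D c₀ (rk c₀ i + 1) ∈ Fss F D c₀ :=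
    mem_image.2 ⟨_, mem_range.2 (Nat.succ_lt_succ (rk_lt c₀ i)), rfl⟩
  rcases hY _ hmem with h0 | h0
  · have h1 := Submodule.finrank_sup_add_finrank_inf_eq Y (Fs F D c₀ (rk c₀ i + 1))
    have h2 := Submodule.finrank_sup_add_finrank_inf_eq (Ys F D c₀ i) (Fs F D c₀ (rk c₀ i + 1))
    rw [h0, finrank_bot] at h1
    rw [exvt_sup_std, finrank_top, finrank_Ys] at h2
    apply Submodule.eq_top_of_finrank_eq
    refine le_antisymm (Submodule.finrank_le _) ?_
    unfold exvtPos at h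
    omega
  · exact h0

lemma exvt_col (σ : Finset (Submodule F (Fin N → F)))
    (hσ : ∀ Y ∈ σ, ∀ Z ∈ σ, Y ≤ Z ∨ Z ≤ Y)
    (hσ' : ∀ Y ∈ σ, ⊥ < Y ∧ Y ≤ Ys F D c₀ c₀ ∧ Good (Fss F D c₀) Y) (i : Fin N) (hi : i ∈ D) :
    ∃ y : Fin N → F, y ∈ Ys F D c₀ c₀ ∧
      (∀ j ∈ D, rk c₀ j ≤ rk c₀ i → y j = (1 : Matrix (Fin N) (Fin N) F) j i) ∧
      ∀ Y ∈ σ, exvtPos D c₀ i ≤ Module.finrank F Y → y ∈ Y := by
  by_cases hne : (σ.filter fun Y : Submodule F (Fin N → F) =>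
      exvtPos D c₀ i ≤ Module.finrank F Y).Nonempty
  · obtain ⟨Y₀, hY₀, hmin⟩ := exists_min_image _ (fun Y : Submodule F (Fin N → F) =>
      Module.finrank F Y) hne
    rw [mem_filter] at hY₀
    have htop := exvt_sup (hσ' Y₀ hY₀.1).2.2 hY₀.2
    have hmem : (fun j => (1 : Matrix (Fin N) (Fin N) F) j i) ∈
        Y₀ ⊔ Fs F D c₀ (rk c₀ i + 1) := by rw [htop]; trivial
    obtain ⟨y, hy, f, hf, hyf⟩ := Submodule.mem_sup.1 hmem
    refine ⟨y, (hσ' Y₀ hY₀.1).2.1 hy, fun j hj hji => ?_, fun Y hY hle => ?_⟩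
    · have h1 := congrFun hyf j
      have h2 := mem_Fs.1 hf j hj (Nat.lt_succ_iff.2 hji)
      simpa [h2] using h1
    · rcases hσ Y₀ hY₀.1 Y hY with h | h
      · exact h hy
      · have := Submodule.eq_of_le_of_finrank_le h (hmin Y (mem_filter.2 ⟨hY, hle⟩))
        rw [this]; exact hy
  · refine ⟨fun j => (1 : Matrix (Fin N) (Fin N) F) j i, mem_Ys.2 fun j hj => ?_,
      fun _ _ _ => rfl, fun Y hY hle => absurd ⟨Y, mem_filter.2 ⟨hY, hle⟩⟩ hne⟩
    refine one_apply_ne ?_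
    rintro rfl
    exact hj ⟨hi, rk_le_self _ _⟩

/-- Every transversal flag is a translate of a standard flag.  Sketch: let
`pos i = #{i' ∈ D | rk c₀ i' ≤ rk c₀ i}`.  For `i ∈ D` let `Y i` be the smallest element of
`insert (Ys c₀) σ` of dimension `≥ pos i`.  The codimension of `Fs (rk c₀ i + 1)` is `pos i`, so
`Y i ⊔ Fs (rk c₀ i + 1) = ⊤` (by dimension if the intersection is `⊥`); write `e i = y + f`; `y` is
column `i` of `M` (for `i ∉ D` take `e i`); use `exists_und`.  For `Y ∈ σ` pick `c ∈ D` with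
`pos c = finrank Y` (`pos` is a bijection `D → [1, #D]`); `vt c u ≤ Y` and the dimensions agree. -/
theorem exists_vt (σ : Finset (Submodule F (Fin N → F)))
    (hσ : ∀ Y ∈ σ, ∀ Z ∈ σ, Y ≤ Z ∨ Z ≤ Y)
    (hσ' : ∀ Y ∈ σ, ⊥ < Y ∧ Y ≤ Ys F D c₀ c₀ ∧ Good (Fss F D c₀) Y) :
    ∃ u ∈ Fam P D D {c₀}, ∀ Y ∈ σ, ∃ c ∈ D, vt D c₀ c u = Y := by
  choose! y hy1 hy2 hy3 using exvt_col σ hσ hσ'
  let M : Matrix (Fin N) (Fin N) F :=
    of fun i j => if j ∈ D then y j i else (1 : Matrix (Fin N) (Fin N) F) i j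
  have hout : ∀ i j, i ≠ j → i ∉ D ∨ j ∉ D → M i j = 0 := by
    intro i j hij h
    simp only [M, of_apply]
    split_ifs with hj
    · exact mem_Ys.1 (hy1 j hj) i fun h' => (h.resolve_right fun h => h hj) h'.1
    · exact one_apply_ne hij
  obtain ⟨u, hu, hM⟩ := exists_und (P := P) (D := D) (c₀ := c₀) M (fun i => by
      simp only [M, of_apply]
      split_ifs with hi
      · rw [hy2 i hi i hi le_rfl, one_apply_eq]
      · exact one_apply_eq i)
    (fun i j hij => by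
      have hne : i ≠ j := by rintro rfl; exact lt_irrefl _ hij
      by_cases hD : i ∈ D ∧ j ∈ D
      · simp only [M, of_apply, if_pos hD.2]
        rw [hy2 j hD.2 i hD.1 hij.le, one_apply_ne hne]
      · exact hout i j hne (not_and_or.1 hD)) hout
  have huH : u ∈ Hc P c₀ := (mem_Fam.1 hu).2 c₀ (mem_singleton_self _)
  refine ⟨u, hu, fun Y hY => ?_⟩
  obtain ⟨hbot, hle, -⟩ := hσ' Y hY
  have h1 : 1 ≤ Module.finrank F Y := by
    have := Submodule.finrank_lt_finrank_of_lt hbot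
    omega
  have h2 : Module.finrank F Y ≤ exvtPos D c₀ c₀ := by
    have := Submodule.finrank_mono hle
    rwa [finrank_Ys] at this
  obtain ⟨c, hc, hcd⟩ := exvt_pos_surj h1 h2
  refine ⟨c, hc, Submodule.eq_of_le_of_finrank_le ?_ ?_⟩
  · rintro _ ⟨v, hv, rfl⟩
    have e : toLin' (und u) v = ∑ j, v j • fun i => M i j := by
      funext i
      simp [hM, mulVec, dotProduct, mul_comm, Finset.sum_apply]
    rw [e]
    refine Submodule.sum_mem _ fun j _ => ?_
    by_cases hj : j ∈ D ∧ rk c₀ j ≤ rk c₀ c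
    · refine Submodule.smul_mem _ _ ?_
      have : (fun i => M i j) = y j := by
        funext i
        simp only [M, of_apply, if_pos hj.1]
      rw [this]
      exact hy3 j hj.1 Y hY (hcd ▸ exvt_pos_mono hj.2)
    · rw [mem_Ys.1 hv j hj, zero_smul]
      exact Submodule.zero_mem _
  · rw [finrank_vt huH, ← hcd]
    exact le_rfl

end

end Crest.Agent.R66
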