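import Crest.Agent.R66.Trans

/-! Row 66: contractions give expansion. -/

set_option autoImplicit false
set_option linter.unusedSectionVars false

namespace Crest.Agent.R66

open Finset Matrix
open scoped Classical

noncomputable section

variable {I G A V : Type} [DecidableEq I] [Group G] [AddCommGroup A] [Module (ZMod 2) A]
  [DecidableEq V] {Γ : Finset I → Subgroup G} {U : Finset I → G → Prop} {a r : ℕ}

/-- Averaging the contraction.  Sketch: for `u ∈ Γ K₀` let `g = q₀ * u` and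
`b u K q = if Star Γ K₀ q₀ K q then pr (fun x => ψ x.1 (g * x.2)) (κ K (g⁻¹ * q)) else 0`.  The
identity of `CCone` for `c = res (Star Γ K₀ 1) (Lt g ψ)` gives, for `x ∈ Γ K₀`, `K₀ ⊆ K`, `#K = a`,
`(ψ + dl (b u)) K (g * x) = pr (fun y => dl ψ y.1 (g * y.2)) (κ K x)` (for `¬ K₀ ⊆ K` it is `0`).
Sum the support sizes over `u ∈ Γ K₀`: for fixed `(M, y) ∈ κ K x` the number of `u` with
`dl ψ M (q₀ * u * y) ≠ 0` is at most `nrmL (Γ K₀) q₀ (a + 1) (dl ψ)`; there are at most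
`2 ^ card I * card (Γ K₀)` pairs `(K, x)`; take a `u` that is at most average. -/
theorem CCone.expand [Fintype I] [Fintype G] (hΓ : Antitone Γ) {K₀ : Finset I}
    (h : CCone (ZMod 2) Γ (Star Γ K₀ 1) a r) {ψ : Finset I → G → ZMod 2} (hψ : Inv Γ ψ)
    (hs : Supp (fun K _ => K₀ ⊆ K) ψ) (q₀ : G) : ∃ b, Inv Γ b ∧ Supp (Star Γ K₀ q₀) b ∧
      nrmL (Γ K₀) q₀ a (ψ + dl b) ≤ 2 ^ Fintype.card I * r * nrmL (Γ K₀) q₀ (a + 1) (dl ψ) := by
  obtain ⟨κ, hκ, hκ'⟩ := h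
  have hst : ∀ q₁, UInv Γ (Star Γ K₀ q₁) := fun q₁ K q γ hγ => and_congr_right fun hK => by
    rw [← mul_assoc, (Γ K₀).mul_mem_cancel_right (hΓ hK hγ)]
  have hst1 : ∀ {K x}, Star Γ K₀ 1 K x ↔ K₀ ⊆ K ∧ x ∈ Γ K₀ := by simp [Star]
  let b : G → Finset I → G → ZMod 2 := fun u K q => if Star Γ K₀ q₀ K q then
    pr (fun y : Finset I × G => ψ y.1 (q₀ * u * y.2)) (κ K ((q₀ * u)⁻¹ * q)) else 0
  have hb : ∀ u ∈ Γ K₀, Inv Γ (b u) := fun u hu K q γ hγ => by
    simp only [b, hst q₀ K q γ hγ]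
    split_ifs with h
    · rw [← mul_assoc, hκ K _ (hst1.2 ⟨h.1, ?_⟩) γ hγ]
      rw [_root_.mul_inv_rev, mul_assoc]
      exact (Γ K₀).mul_mem ((Γ K₀).inv_mem hu) h.2
    · rfl
  have hbs : ∀ u, Supp (Star Γ K₀ q₀) (b u) := fun u K q h => if_neg h
  have key : ∀ u ∈ Γ K₀, ∀ K x, #K = a → K₀ ⊆ K → x ∈ Γ K₀ → (ψ + dl (b u)) K (q₀ * (u * x)) =
      pr (fun y : Finset I × G => dl ψ y.1 (q₀ * u * y.2)) (κ K x) := by
    intro u hu K x hK h1 h2
    have h3 : ∀ L y, y ∈ Γ K₀ → res (Star Γ K₀ 1) (Lt (q₀ * u) ψ) L y = ψ L (q₀ * u * y) :=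
      fun L y hy => by
        by_cases h : K₀ ⊆ L
        · exact res_of (hst1.2 ⟨h, hy⟩)
        · rw [res_of_not fun h' => h h'.1, hs _ _ h]
    obtain ⟨-, h4, h5⟩ := hκ' K x (hst1.2 ⟨h1, h2⟩) hK.le
    have h6 := h5 _ ((hψ.tr (q₀ * u)).res (hst 1)) supp_res
    rw [h3 K x h2] at h6
    have h7 : dl (b u) K (q₀ * (u * x)) = ∑ i ∈ K with Star Γ K₀ 1 (K.erase i) x,
        pr (fun y => res (Star Γ K₀ 1) (Lt (q₀ * u) ψ) y.1 y.2) (κ (K.erase i) x) := by
      rw [sum_filter]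
      refine sum_congr rfl fun i hi => ?_
      have h8 : Star Γ K₀ q₀ (K.erase i) (q₀ * (u * x)) ↔ Star Γ K₀ 1 (K.erase i) x := by
        simp [Star, h2, (Γ K₀).mul_mem hu h2]
      simp only [b, h8]
      split_ifs with h
      · rw [show (q₀ * u)⁻¹ * (q₀ * (u * x)) = x by group]
        refine congrArg Multiset.sum (Multiset.map_congr rfl fun y hy => (h3 _ _ ?_).symm)
        exact (hst1.1 ((hκ' _ x h (card_erase_le.trans hK.le)).2.1 y hy).1).2
      · rfl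
    rw [Pi.add_apply, Pi.add_apply, h7, ← mul_assoc, h6, add_assoc, two_self, add_zero]
    exact congrArg Multiset.sum (Multiset.map_congr rfl fun y hy =>
      sum_congr rfl fun i _ => h3 _ _ (hst1.1 (h4 y hy).1).2)
  set T : Finset (Finset I × G) := {z | #z.1 = a ∧ K₀ ⊆ z.1 ∧ z.2 ∈ Γ K₀} with hT
  have h1 : ∀ u ∈ Γ K₀, nrmL (Γ K₀) q₀ a (ψ + dl (b u)) ≤ ∑ z ∈ T,
      ((κ z.1 z.2).map fun y => if dl ψ y.1 (q₀ * u * y.2) ≠ 0 then 1 else 0).sum := by
    intro u hu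
    refine (card_le_card_of_injOn (t := T.filter fun z => pr (fun y : Finset I × G =>
      dl ψ y.1 (q₀ * u * y.2)) (κ z.1 z.2) ≠ 0) (fun z => (z.1, u⁻¹ * z.2)) (fun z hz => ?_)
      fun z _ z' _ h => ?_).trans ?_
    · obtain ⟨h2, h3, h4⟩ := (mem_filter.1 hz).2
      have h5 : K₀ ⊆ z.1 := by
        by_contra h
        refine h4 ?_
        rw [Pi.add_apply, Pi.add_apply, hs _ _ h, zero_add]
        exact sum_eq_zero fun i _ => hbs u _ _ fun h' => h (h'.1.trans (erase_subset _ _))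
      have h6 := (Γ K₀).mul_mem ((Γ K₀).inv_mem hu) h3
      refine mem_filter.2 ⟨mem_filter.2 ⟨mem_univ _, h2, h5, h6⟩, ?_⟩
      rwa [← key u hu _ _ h2 h5 h6, mul_inv_cancel_left]
    · simp only [Prod.mk.injEq, mul_right_inj] at h
      exact Prod.ext h.1 h.2
    · rw [card_filter]
      refine sum_le_sum fun z _ => ?_
      split_ifs with h
      · obtain ⟨y, hy, h'⟩ : ∃ y ∈ κ z.1 z.2, dl ψ y.1 (q₀ * u * y.2) ≠ 0 := by
          by_contra h'
          push Not at h'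
          exact h (Multiset.sum_eq_zero fun w hw => by
            obtain ⟨y, hy, rfl⟩ := Multiset.mem_map.1 hw
            exact h' y hy)
        exact Multiset.single_le_sum (fun _ _ => Nat.zero_le _) _
          (Multiset.mem_map.2 ⟨y, hy, if_pos h'⟩)
      · exact Nat.zero_le _
  have h2 : ∀ z ∈ T, ∑ u with u ∈ Γ K₀,
      ((κ z.1 z.2).map fun y => if dl ψ y.1 (q₀ * u * y.2) ≠ 0 then 1 else 0).sum ≤
      r * nrmL (Γ K₀) q₀ (a + 1) (dl ψ) := by
    intro z hz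
    obtain ⟨h3, h4⟩ := (mem_filter.1 hz).2
    obtain ⟨h5, h6, -⟩ := hκ' z.1 z.2 (hst1.2 h4) h3.le
    rw [← Multiset.sum_map_sum]
    refine (Multiset.sum_le_card_nsmul _ (nrmL (Γ K₀) q₀ (a + 1) (dl ψ)) fun w hw => ?_).trans
      (by rw [Multiset.card_map]; exact Nat.mul_le_mul_right _ h5)
    obtain ⟨y, hy, rfl⟩ := Multiset.mem_map.1 hw
    rw [← card_filter]
    refine card_le_card_of_injOn (fun u => (y.1, u * y.2)) (fun u hu => ?_) fun u _ u' _ h => ?_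
    · obtain ⟨h7, h8⟩ := mem_filter.1 hu
      exact mem_filter.2 ⟨mem_univ _, by rw [(h6 y hy).2, h3],
        (Γ K₀).mul_mem (mem_filter.1 h7).2 (hst1.1 (h6 y hy).1).2, by rwa [← mul_assoc]⟩
    · simpa using h
  obtain ⟨u, hu, h3⟩ := exists_le_of_sum_le (s := univ.filter (· ∈ Γ K₀))
    (f := fun u => nrmL (Γ K₀) q₀ a (ψ + dl (b u)))
    (g := fun _ => 2 ^ Fintype.card I * r * nrmL (Γ K₀) q₀ (a + 1) (dl ψ)) ⟨1, by simp⟩ (by
      refine (sum_le_sum fun u hu => h1 u (mem_filter.1 hu).2).trans ?_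
      rw [sum_comm]
      refine (sum_le_sum h2).trans ?_
      have h4 : #T ≤ 2 ^ Fintype.card I * #{x | x ∈ Γ K₀} := by
        rw [← Fintype.card_finset, ← card_univ, ← card_product]
        exact card_le_card fun z hz => by simpa using (mem_filter.1 hz).2.2.2
      rw [sum_const, sum_const, smul_eq_mul, smul_eq_mul]
      exact (Nat.mul_le_mul_right _ h4).trans_eq (by ring))
  exact ⟨b u, hb u (mem_filter.1 hu).2, hbs u, h3⟩

end

end Crest.Agent.R66
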