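import Crest.Agent.R66.Basic

/-! Row 66: long exact sequences. -/

set_option autoImplicit false
set_option linter.unusedSectionVars false

namespace Crest.Agent.R66

open Finset Matrix
open scoped Classical

noncomputable section

variable {I G A : Type} [DecidableEq I] [Group G] [AddCommGroup A] [Module (ZMod 2) A]
  {Γ : Finset I → Subgroup G} {U U₁ U₂ : Finset I → G → Prop} {a : ℕ} {c : Finset I → G → A}

lemma ext_uinv (hU : UInv Γ U) (hU₂ : UInv Γ U₂) (h₁ : ∀ K q, U₁ K q ↔ U K q ∧ ¬ U₂ K q) :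
    UInv Γ U₁ := fun K q γ hγ => by rw [h₁, h₁, hU K q γ hγ, hU₂ K q γ hγ]

lemma ext_res₁ (hup : ∀ K L q, K ⊆ L → U₂ K q → U L q → U₂ L q)
    (h₁ : ∀ K q, U₁ K q ↔ U K q ∧ ¬ U₂ K q) {x : Finset I → G → A} (hx : Supp U x)
    {M : Finset I} {q : G} (hM : U₁ M q) : dl (res U₁ x) M q = dl x M q := by
  refine sum_congr rfl fun i _ => ?_
  by_cases h : U₁ (M.erase i) q
  · exact res_of h
  · rw [res_of_not h, hx]
    intro h'
    rw [h₁] at h hM
    exact hM.2 (hup _ _ _ (erase_subset i M) (by tauto) hM.1)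

lemma ext_dl₂ (hup : ∀ K L q, K ⊆ L → U₂ K q → U L q → U₂ L q) {x : Finset I → G → A}
    (hx : Supp U₂ x) {M : Finset I} {q : G} (hM : U M q) (hM₂ : ¬ U₂ M q) : dl x M q = 0 :=
  sum_eq_zero fun i _ => hx _ _ fun h => hM₂ (hup _ _ _ (erase_subset i M) h hM)

lemma ext_key (hc : Conv U) (h₁ : ∀ K q, U₁ K q ↔ U K q ∧ ¬ U₂ K q) {x y : Finset I → G → A}
    (hx : Supp U x) (hy : Supp U₁ y) {n : ℕ}
    (hxy : ∀ K q, #K = n → U₁ K q → x K q = dl y K q) {M : Finset I} {q : G} (hM : #M = n + 1)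
    (hU : U M q) : dl (res U₂ (x + dl y)) M q = dl x M q := by
  have : dl (x + dl y) M q = dl x M q := by simp [dl_add]
  rw [← this]
  refine sum_congr rfl fun i hi => ?_
  by_cases h : U₂ (M.erase i) q
  · exact res_of h
  rw [res_of_not h]
  by_cases h' : U (M.erase i) q
  · have := hxy _ q (by rw [card_erase_of_mem hi, hM]; rfl) ((h₁ _ _).2 ⟨h', h⟩)
    simp [this, two_self]
  · have : dl y (M.erase i) q = 0 := sum_eq_zero fun j _ => hy _ _ fun h'' =>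
      h' (hc _ _ _ q (erase_subset j _) (erase_subset i M) ((h₁ _ _).1 h'').1 hU)
    simp [this, hx _ _ h']

/-- `U = U₁ ⊔ U₂` with `U₂` upward closed in `U`.  Sketch: `res U₁ c` is a cocycle on `U₁`, so
`c = dl b₁` on `U₁`; `res U₂ (c + dl b₁)` is a cocycle on `U₂` (for `U₂ M q` sum over the `i` with
`U (M.erase i) q`; by `Conv U` the other `i` have `dl b₁ (M.erase i) q = 0`; use `dl_dl`), so it is
`dl b₂` on `U₂`; take `b₁ + b₂` (`dl b₂ = 0` on `U₁`). -/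
theorem Ex.ext (hΓ : Antitone Γ) (hU : UInv Γ U) (hU₂ : UInv Γ U₂) (hc : Conv U)
    (hsub : ∀ K q, U₂ K q → U K q) (hup : ∀ K L q, K ⊆ L → U₂ K q → U L q → U₂ L q)
    (h₁ : ∀ K q, U₁ K q ↔ U K q ∧ ¬ U₂ K q) (e₁ : Ex A Γ U₁ a) (e₂ : Ex A Γ U₂ a) :
    Ex A Γ U a := by
  intro c hi hs hco
  have hU₁ := ext_uinv hU hU₂ h₁
  obtain ⟨b₁, hb₁, hs₁, he₁⟩ := e₁ (res U₁ c) (hi.res hU₁) supp_res fun M q hM hq => by
    rw [ext_res₁ hup h₁ hs hq]
    exact hco M q hM ((h₁ _ _).1 hq).1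
  have he₁' : ∀ K q, #K = a → U₁ K q → c K q = dl b₁ K q := fun K q hK hq => by
    rw [← he₁ K q hK hq, res_of hq]
  obtain ⟨b₂, hb₂, hs₂, he₂⟩ := e₂ (res U₂ (c + dl b₁)) ((hi.add (hb₁.dl hΓ)).res hU₂) supp_res
    fun M q hM hq => by
      rw [ext_key hc h₁ hs hs₁ he₁' hM (hsub _ _ hq)]
      exact hco M q hM (hsub _ _ hq)
  refine ⟨b₁ + b₂, hb₁.add hb₂,
    (hs₁.mono fun K q h => ((h₁ _ _).1 h).1).add (hs₂.mono hsub), fun K q hK hq => ?_⟩
  rw [dl_add]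
  by_cases h : U₂ K q
  · have := he₂ K q hK h
    rw [res_of h] at this
    simp only [Pi.add_apply] at this ⊢
    rw [← this, add_comm (c K q), ← add_assoc, two_self, zero_add]
  · simp only [Pi.add_apply]
    rw [ext_dl₂ hup hs₂ hq h, add_zero]
    exact he₁' K q hK ((h₁ _ _).2 ⟨hq, h⟩)

/-- Sketch: a cocycle `c` on `U₂` is a cocycle on `U`, so `c = dl b` on `U`.  If `a = 0` use
`Exa.of_zero`.  Otherwise `res U₁ b` is a cocycle on `U₁`, so `b = dl e` on `U₁` at level `a - 1`;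
take `res U₂ (b + dl e)` (convexity as in `Ex.ext`). -/
theorem Ex.rel (hΓ : Antitone Γ) (hU : UInv Γ U) (hU₂ : UInv Γ U₂) (hc : Conv U)
    (hsub : ∀ K q, U₂ K q → U K q) (hup : ∀ K L q, K ⊆ L → U₂ K q → U L q → U₂ L q)
    (h₁ : ∀ K q, U₁ K q ↔ U K q ∧ ¬ U₂ K q) (e : Ex A Γ U a)
    (e₁ : ∀ a', a' + 1 = a → Ex A Γ U₁ a') : Ex A Γ U₂ a := by
  intro c hi hs hco
  have hU₁ := ext_uinv hU hU₂ h₁
  obtain ⟨b, hb, hsb, he⟩ := e c hi (hs.mono hsub) fun M q hM hq => by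
    by_cases h : U₂ M q
    · exact hco M q hM h
    · exact ext_dl₂ hup hs hq h
  rcases a with _ | a
  · refine Exa.of_zero fun K q hK hq => ?_
    rw [he K q hK (hsub _ _ hq), card_eq_zero.1 hK, dl_empty]
  obtain ⟨y, hy, hsy, hey⟩ := e₁ a rfl (res U₁ b) (hb.res hU₁) supp_res fun M q hM hq => by
    have hq' := (h₁ _ _).1 hq
    rw [ext_res₁ hup h₁ hsb hq, ← he M q hM hq'.1]
    exact hs _ _ hq'.2
  have hey' : ∀ K q, #K = a → U₁ K q → b K q = dl y K q := fun K q hK hq => by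
    rw [← hey K q hK hq, res_of hq]
  refine ⟨res U₂ (b + dl y), (hb.add (hy.dl hΓ)).res hU₂, supp_res, fun K q hK hq => ?_⟩
  rw [ext_key hc h₁ hsb hsy hey' hK (hsub _ _ hq)]
  exact he K q hK (hsub _ _ hq)

end

end Crest.Agent.R66
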