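import Crest.Agent.R66.Basic

/-! Row 66: fat faces and dead ends (Evra-Kaufman). -/

set_option autoImplicit false
set_option linter.unusedSectionVars false

namespace Crest.Agent.R66

open Finset Matrix
open scoped Classical

noncomputable section

variable {I G : Type} [DecidableEq I] [Group G] [Fintype I] [Fintype G]
  {Γ : Finset I → Subgroup G} {φ : Finset I → G → ZMod 2} {η : ℕ → ℝ}

theorem fat_card_pos (E : Subgroup G) : (0 : ℝ) < Nat.card E := by exact_mod_cast Nat.card_pos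

theorem fat_sum_av (E : Subgroup G) (f : G → ℝ) : ∑ q, av E f q = ∑ q, f q := by
  simp only [av]
  rw [← sum_div, sum_sm, nsmul_eq_mul, mul_div_cancel_left₀ _ (fat_card_pos E).ne']

theorem fat_av_nonneg (E : Subgroup G) {f : G → ℝ} (hf : ∀ x, 0 ≤ f x) (q : G) : 0 ≤ av E f q :=
  div_nonneg (sum_nonneg fun _ _ => hf _) (fat_card_pos E).le

theorem fat_av_lin (E : Subgroup G) (a b c : ℝ) (f g : G → ℝ) (q : G) :
    av E (fun x => a * f x + b * g x + c) q = a * av E f q + b * av E g q + c := by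
  have h := sm_const (E := E) c q
  have h0 := (fat_card_pos E).ne'
  simp only [av, sm, sum_add_distrib, ← mul_sum, nsmul_eq_mul] at h ⊢
  rw [h]; field_simp

theorem fat_card_prod (P : Finset I → Prop) (Q : Finset I → G → Prop) [DecidablePred P]
    [∀ K, DecidablePred (Q K)] [DecidablePred fun x : Finset I × G => P x.1 ∧ Q x.1 x.2] :
    #{x : Finset I × G | P x.1 ∧ Q x.1 x.2} = ∑ K with P K, #{q | Q K q} := by
  rw [card_filter, Fintype.sum_prod_type, sum_filter]
  refine sum_congr rfl fun K _ => ?_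
  by_cases h : P K
  · simp only [h, true_and, if_true, card_filter]
  · simp [h]

theorem fat_ins (F : Finset I → ℝ) (hF : ∀ K, 0 ≤ F K) (i : I) (a j : ℕ) {S : Finset (Finset I)}
    (hS : ∀ K ∈ S, #K + (j + 1) = a ∧ i ∉ K) :
    ∑ K ∈ S, F (insert i K) ≤ ∑ K with #K + j = a, F K := by
  rw [← sum_image (s := S) (g := insert i) fun K hK L hL h => by
    rw [← erase_insert (hS K hK).2, h, erase_insert (hS L hL).2]]
  refine sum_le_sum_of_subset_of_nonneg (fun K hK => ?_) fun K _ _ => hF K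
  obtain ⟨L, hL, rfl⟩ := mem_image.1 hK
  have := hS L hL
  simp only [mem_filter, mem_univ, true_and, card_insert_of_notMem this.2]
  omega

theorem fat_cnt (a j : ℕ) :
    (cnt Γ φ η a j : ℝ) = ∑ K with #K + j = a, (#{q | Fat Γ φ η j K q} : ℝ) := by
  rw [cnt, fat_card_prod (fun K => #K + j = a) (Fat Γ φ η j)]; push_cast; rfl

/-- Sketch: cases on `j`; `sm_mul_mem`. -/
theorem Fat.inv (hφ : Inv Γ φ) (j : ℕ) (K : Finset I) (q : G) {γ : G} (hγ : γ ∈ Γ K) :
    Fat Γ φ η j K (q * γ) ↔ Fat Γ φ η j K q := by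
  cases j with
  | zero => simp only [Fat, hφ K q γ hγ]
  | succ j => simp only [Fat, av, sm_mul_mem q hγ]

theorem cnt_zero (a : ℕ) : cnt Γ φ η a 0 = nrm a φ := by
  simp only [cnt, nrm, Fat, add_zero]

/-- Markov.  Sketch: `η j * #{q | Fat (j + 1) K q} ≤ ∑ i ∉ K, ∑ q, av (Γ K) (1_{Fat j (insert i K)}) q
= ∑ i ∉ K, #{q | Fat j (insert i K) q}` (`sum_sm`); `(K, i) ↦ (insert i K, i)` is injective. -/
theorem cnt_succ (a j : ℕ) :
    η j * cnt Γ φ η a (j + 1) ≤ Fintype.card I * cnt Γ φ η a j := by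
  have h1 : ∀ K, η j * #{q | Fat Γ φ η (j + 1) K q} ≤
      ∑ i with i ∉ K, (#{q | Fat Γ φ η j (insert i K) q} : ℝ) := fun K => by
    have h2 : ∀ i, (#{q | Fat Γ φ η j (insert i K) q} : ℝ) =
        ∑ q, av (Γ K) (fun x => if Fat Γ φ η j (insert i K) x then 1 else 0) q := fun i => by
      rw [fat_sum_av, card_filter]; push_cast; rfl
    simp only [h2]
    rw [sum_comm, card_filter]
    push_cast
    rw [mul_sum]
    refine sum_le_sum fun q _ => ?_
    have h3 : ∀ i, 0 ≤ av (Γ K) (fun x => if Fat Γ φ η j (insert i K) x then 1 else 0) q :=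
      fun i => fat_av_nonneg _ (fun x => by split_ifs <;> norm_num) q
    split_ifs with h
    · obtain ⟨i, hi, h⟩ := h
      rw [mul_one]
      exact h.trans (single_le_sum (fun i _ => h3 i) (by simpa using hi))
    · rw [mul_zero]; exact sum_nonneg fun i _ => h3 i
  rw [fat_cnt, mul_sum]
  refine (sum_le_sum fun K _ => h1 K).trans ?_
  rw [sum_comm' (t' := univ) (s' := fun i => {K | #K + (j + 1) = a ∧ i ∉ K}) (by simp)]
  refine (sum_le_sum fun i _ => fat_ins (fun K => (#{q | Fat Γ φ η j K q} : ℝ))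
    (fun K => by positivity) i a j (by simp)).trans ?_
  rw [← fat_cnt, sum_const, card_univ, nsmul_eq_mul]

/-- Sketch: let `f`, `g` be the two indicator functions.  At a point `q` that is not fat,
`av (f * g) ≤ av f * av g + l * √(av f) * √(av g) ≤ (η j + l) * (av f + av g)` (`Ang` for
`f - av f q`).  The count is `∑ q, av (Γ K) (f * g * 1_{not fat}) q` (`sum_sm`, `Fat.inv`). -/
theorem dead_pair (hφ : Inv Γ φ) {l : ℝ} (hl : 0 ≤ l) {j : ℕ} (hη : 0 ≤ η j) {K : Finset I}
    {i i' : I} (hi : i ∉ K) (h : Ang (Γ K) (Γ (insert i K)) (Γ (insert i' K)) l) :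
    (#{q | Fat Γ φ η j (insert i K) q ∧ Fat Γ φ η j (insert i' K) q ∧ ¬ Fat Γ φ η (j + 1) K q} : ℝ)
      ≤ (η j + l) * (#{q | Fat Γ φ η j (insert i K) q} + #{q | Fat Γ φ η j (insert i' K) q}) := by
  set f : G → ℝ := fun x => if Fat Γ φ η j (insert i K) x then 1 else 0 with hf
  set g : G → ℝ := fun x => if Fat Γ φ η j (insert i' K) x then 1 else 0 with hg
  have f0 : ∀ x, 0 ≤ f x := fun x => by simp only [hf]; split_ifs <;> norm_num
  have g0 : ∀ x, 0 ≤ g x := fun x => by simp only [hg]; split_ifs <;> norm_num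
  have e1 : (#{q | Fat Γ φ η j (insert i K) q} : ℝ) = ∑ q, av (Γ K) f q := by
    rw [fat_sum_av, card_filter]; push_cast; rfl
  have e2 : (#{q | Fat Γ φ η j (insert i' K) q} : ℝ) = ∑ q, av (Γ K) g q := by
    rw [fat_sum_av, card_filter]; push_cast; rfl
  have e3 : (#{q | Fat Γ φ η j (insert i K) q ∧ Fat Γ φ η j (insert i' K) q ∧
      ¬ Fat Γ φ η (j + 1) K q} : ℝ) =
      ∑ q, av (Γ K) (fun x => if Fat Γ φ η (j + 1) K x then 0 else f x * g x) q := by
    rw [fat_sum_av, card_filter]; push_cast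
    refine sum_congr rfl fun q _ => ?_
    simp only [hf, hg]
    split_ifs <;> simp_all
  rw [e1, e2, e3, ← sum_add_distrib, mul_sum]
  refine sum_le_sum fun q _ => ?_
  have m0 := fat_av_nonneg (Γ K) f0 q
  have n0 := fat_av_nonneg (Γ K) g0 q
  have e4 : av (Γ K) (fun x => if Fat Γ φ η (j + 1) K x then 0 else f x * g x) q =
      if Fat Γ φ η (j + 1) K q then 0 else av (Γ K) (fun x => f x * g x) q := by
    unfold av sm
    rw [sum_congr rfl (g := fun e => if Fat Γ φ η (j + 1) K q then 0 else f (q * e) * g (q * e))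
      fun e he => by simp only [Fat.inv hφ (j + 1) K q (mem_filter.1 he).2]]
    split_ifs <;> simp
  rw [e4]
  split_ifs with hq
  · positivity
  have hm : av (Γ K) f q ≤ η j := (not_le.1 fun h => hq ⟨i, hi, h⟩).le
  set m := av (Γ K) f q with hm'
  have h1 := h (fun x => f x - m) g (fun q x hx => by simp only [hf, Fat.inv hφ j _ q hx])
    (fun q x hx => by simp only [hg, Fat.inv hφ j _ q hx]) q (by
      have := fat_av_lin (Γ K) 1 0 (-m) f g q
      rw [← hm'] at this
      simpa [sub_eq_add_neg] using this)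
  have e5 : ((fun x => f x - m) * g) = fun x => 1 * (f x * g x) + (-m) * g x + 0 := by
    funext x; simp only [Pi.mul_apply]; ring
  have e6 : ((fun x => f x - m) ^ 2) = fun x => (1 - 2 * m) * f x + 0 * g x + m ^ 2 := by
    funext x; simp only [Pi.pow_apply, hf]; split_ifs <;> ring
  have e7 : g ^ 2 = g := by
    funext x; simp only [Pi.pow_apply, hg]; split_ifs <;> ring
  rw [e5, e6, e7, fat_av_lin, fat_av_lin, ← hm'] at h1
  set n := av (Γ K) g q
  have h2 : √((1 - 2 * m) * m + 0 * n + m ^ 2) ≤ √m := Real.sqrt_le_sqrt (by nlinarith)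
  have h3 : √m * √n ≤ m + n := by
    nlinarith [Real.sq_sqrt m0, Real.sq_sqrt n0, sq_nonneg (√m - √n), Real.sqrt_nonneg m,
      Real.sqrt_nonneg n]
  have h4 : l * √((1 - 2 * m) * m + 0 * n + m ^ 2) * √n ≤ l * (m + n) := by
    rw [mul_assoc]
    exact mul_le_mul_of_nonneg_left ((mul_le_mul_of_nonneg_right h2 (Real.sqrt_nonneg _)).trans h3) hl
  have h5 := (le_abs_self _).trans (h1.trans h4)
  nlinarith [mul_le_mul_of_nonneg_right hm n0, mul_nonneg hη m0]

/-- Sketch: union bound over `M`, `j < a`, `K`, `i`, `i'`. -/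
theorem ded_le (hφ : Inv Γ φ) {l : ℝ} (hl : 0 ≤ l) (hη : ∀ j, 0 ≤ η j) (h : AngAll Γ l) (a : ℕ) :
    (ded Γ φ η a : ℝ) ≤ 2 ^ Fintype.card I * (2 * Fintype.card I ^ 2) *
      ∑ j ∈ range a, (η j + l) * cnt Γ φ η a j := by
  set D : ℕ → I → I → Finset I → Finset G := fun j i i' K =>
    {q | Fat Γ φ η j (insert i K) q ∧ Fat Γ φ η j (insert i' K) q ∧ ¬ Fat Γ φ η (j + 1) K q}
  set S : ℕ → I → I → Finset (Finset I) := fun j i i' =>
    {K | #K + (j + 1) = a ∧ i ≠ i' ∧ i ∉ K ∧ i' ∉ K}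
  have h1 : ded Γ φ η a ≤ 2 ^ Fintype.card I *
      ∑ j ∈ range a, ∑ i, ∑ i', ∑ K ∈ S j i i', #(D j i i' K) := by
    refine (card_le_card (t := univ ×ˢ (range a).biUnion fun j => univ.biUnion fun i =>
      univ.biUnion fun i' => (S j i i').biUnion (D j i i')) fun x hx => ?_).trans ?_
    · obtain ⟨-, j, K, i, i', h1, h2, h3, h4, -, -, -, h5⟩ := (mem_filter.1 hx).2
      simp only [mem_product, mem_univ, true_and, mem_biUnion, mem_range]
      exact ⟨j, by omega, i, i', K, by simp only [S, mem_filter, mem_univ, true_and]; exact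
        ⟨h1, h2, h3, h4⟩, by simpa only [D, mem_filter, mem_univ, true_and] using h5⟩
    · rw [card_product, card_univ, Fintype.card_finset]
      refine Nat.mul_le_mul_left _ (card_biUnion_le.trans (sum_le_sum fun j _ =>
        card_biUnion_le.trans (sum_le_sum fun i _ => card_biUnion_le.trans
          (sum_le_sum fun i' _ => card_biUnion_le))))
  have h2 : ∀ j i i', ∑ K ∈ S j i i', (#(D j i i' K) : ℝ) ≤ 2 * ((η j + l) * cnt Γ φ η a j) := by
    intro j i i'
    have hS : ∀ K ∈ S j i i', #K + (j + 1) = a ∧ i ≠ i' ∧ i ∉ K ∧ i' ∉ K := fun K hK =>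
      (mem_filter.1 hK).2
    refine (sum_le_sum fun K hK => dead_pair hφ hl (hη j) (hS K hK).2.2.1
      (h K i i' (hS K hK).2.1 (hS K hK).2.2.1 (hS K hK).2.2.2)).trans ?_
    rw [← mul_sum, sum_add_distrib]
    have k1 := fat_ins (fun K => (#{q | Fat Γ φ η j K q} : ℝ)) (fun K => by positivity) i a j
      fun K hK => ⟨(hS K hK).1, (hS K hK).2.2.1⟩
    have k2 := fat_ins (fun K => (#{q | Fat Γ φ η j K q} : ℝ)) (fun K => by positivity) i' a j
      fun K hK => ⟨(hS K hK).1, (hS K hK).2.2.2⟩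
    rw [← fat_cnt] at k1 k2
    have := hη j
    nlinarith [mul_le_mul_of_nonneg_left (add_le_add k1 k2) (add_nonneg this hl)]
  refine (Nat.cast_le.2 h1).trans ?_
  push_cast
  rw [mul_assoc]
  refine mul_le_mul_of_nonneg_left ?_ (by positivity)
  rw [mul_sum]
  refine sum_le_sum fun j _ => (sum_le_sum fun i _ => sum_le_sum fun i' _ => h2 j i i').trans ?_
  simp only [sum_const, card_univ, nsmul_eq_mul]
  exact le_of_eq (by ring)

end

end Crest.Agent.R66
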