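import Crest.Agent.R66.Prism

/-! Row 66: bounded fillings in flag complexes over large fields. -/

set_option autoImplicit false
set_option linter.unusedSectionVars false

namespace Crest.Agent.R66

open Finset Matrix
open scoped Classical

noncomputable section

section aux
variable {A F Λ : Type} [AddCommGroup A] [Module (ZMod 2) A] [Field F] [AddCommGroup Λ] [Module F Λ]
  [FiniteDimensional F Λ]

lemma flag_card_vert {V : Type} [DecidableEq V] (z : Multiset (Finset V)) {a : ℕ}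
    (h : ∀ σ ∈ z, #σ = a) : #(z.toFinset.biUnion id) ≤ a * z.card := by
  refine (card_biUnion_le_card_mul _ _ a fun σ hσ => (h σ (Multiset.mem_toFinset.1 hσ)).le).trans ?_
  rw [mul_comm]
  exact Nat.mul_le_mul_left _ (Multiset.toFinset_card_le _)

/-- Cycles without hyperplanes. -/
lemma flag_nohyp [Finite F] (𝓔 : Finset (Submodule F Λ)) {B : Submodule F Λ} (hB : Good 𝓔 B)
    (h2 : 2 ≤ Module.finrank F B) {a M e : ℕ} (he : #𝓔 ≤ e)
    (hc : (a * M + 1) * (e + 1) < Nat.card F) (z : Multiset (Finset (Submodule F Λ)))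
    (hM : z.card ≤ M)
    (hz : ∀ σ ∈ z, Fl 𝓔 B σ ∧ #σ = a ∧ ∀ Y ∈ σ, Module.finrank F Y + 2 ≤ Module.finrank F B)
    (hcy : ∀ f : _ → A, pr (sd f) z = 0) :
    ∃ u : Multiset (Finset (Submodule F Λ)), u.card ≤ (a + 1) * M ∧
      (∀ τ ∈ u, Fl 𝓔 B τ ∧ #τ = a + 1) ∧ ∀ f : _ → A, pr f z = pr (sd f) u := by
  have hmem : ∀ Y ∈ insert ⊥ (z.toFinset.biUnion id),
      (Y < B ∧ Good 𝓔 Y) ∧ Module.finrank F Y + 2 ≤ Module.finrank F B := by
    intro Y hY
    rcases mem_insert.1 hY with rfl | hY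
    · refine ⟨⟨bot_lt_iff_ne_bot.2 ?_, fun E _ => .inl (bot_inf_eq _)⟩, by simpa using h2⟩
      rintro rfl
      simp at h2
    · obtain ⟨σ, hσ, hY⟩ := mem_biUnion.1 hY
      have hσ' := hz σ (Multiset.mem_toFinset.1 hσ)
      exact ⟨(hσ'.1.2 Y hY).2, hσ'.2.2 Y hY⟩
  obtain ⟨w, hw, hw'⟩ := exists_generic 𝓔 (insert ⊥ (z.toFinset.biUnion id)) hB
    (fun Y hY => (hmem Y hY).1) (lt_of_le_of_lt (Nat.mul_le_mul ((card_insert_le _ _).trans
      (Nat.succ_le_succ ((flag_card_vert z fun σ hσ => (hz σ hσ).2.1).trans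
        (Nat.mul_le_mul_left _ hM)))) (Nat.succ_le_succ he)) hc)
  obtain ⟨u, hu1, hu2, hu3⟩ := fill_small (A := A) 𝓔 (insert ⊥ (z.toFinset.biUnion id)) hw
    (mem_insert_self _ _) (fun Y hY => ⟨(hmem Y hY).2, hw' Y hY⟩) z
    (fun σ hσ => ⟨(hz σ hσ).1, (hz σ hσ).2.1, fun Y hY =>
      mem_insert_of_mem (mem_biUnion.2 ⟨σ, Multiset.mem_toFinset.2 hσ, hY⟩)⟩) hcy
  exact ⟨u, hu1.trans (Nat.mul_le_mul_left _ hM), hu2, hu3⟩

lemma flag_link_cycle {V : Type} [DecidableEq V] (z : Multiset (Finset V))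
    (hcy : ∀ f : _ → A, pr (sd f) z = 0) (y : V) (g : Finset V → A) :
    pr (sd g) ((z.filter (y ∈ ·)).map (·.erase y)) = 0 := by
  rw [← hcy fun ρ => if y ∈ ρ then g (ρ.erase y) else 0, simp_pr_map, simp_pr_filter]
  refine simp_pr_congr fun σ _ => ?_
  by_cases h : y ∈ σ
  · rw [if_pos h, sd, sd, ← add_sum_erase _ _ h, if_neg (notMem_erase _ _), zero_add]
    refine sum_congr rfl fun v hv => ?_
    rw [if_pos (mem_erase.2 ⟨(mem_erase.1 hv).1.symm, h⟩), erase_right_comm]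
  · rw [if_neg h, sd]
    exact (sum_eq_zero fun v _ => if_neg fun h' => h (mem_of_mem_erase h')).symm

/-- Removing the hyperplanes. -/
lemma flag_remove (𝓔 : Finset (Submodule F Λ)) {B : Submodule F Λ} {a M Φ : ℕ}
    (hf : ∀ Hy : Submodule F Λ, Good 𝓔 Hy → Module.finrank F Hy + 1 = Module.finrank F B →
      Fill A (Fl 𝓔 Hy) a M Φ) (z : Multiset (Finset (Submodule F Λ))) (hM : z.card ≤ M)
    (hz : ∀ σ ∈ z, Fl 𝓔 B σ ∧ #σ = a + 1) (hcy : ∀ f : _ → A, pr (sd f) z = 0) :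
    ∃ z' u : Multiset (Finset (Submodule F Λ)), z'.card ≤ M + (a + 1) * M * Φ ∧
      u.card ≤ (a + 1) * M * Φ ∧
      (∀ σ ∈ z', Fl 𝓔 B σ ∧ #σ = a + 1 ∧ ∀ Y ∈ σ, Module.finrank F Y + 2 ≤ Module.finrank F B) ∧
      (∀ τ ∈ u, Fl 𝓔 B τ ∧ #τ = a + 1 + 1) ∧ ∀ f : _ → A, pr f z = pr f z' + pr (sd f) u := by
  set ℋ := (z.toFinset.biUnion id).filter
    fun Y : Submodule F Λ => Module.finrank F Y + 1 = Module.finrank F B with hℋ
  have hℋc : #ℋ ≤ (a + 1) * M := (card_filter_le _ _).trans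
    ((flag_card_vert z fun σ hσ => (hz σ hσ).2).trans (Nat.mul_le_mul_left _ hM))
  have hℋm : ∀ Hy ∈ ℋ, (⊥ < Hy ∧ Hy < B ∧ Good 𝓔 Hy) ∧
      Module.finrank F Hy + 1 = Module.finrank F B := fun Hy h => by
    obtain ⟨h1, h2⟩ := mem_filter.1 h
    obtain ⟨σ, hσ, hY⟩ := mem_biUnion.1 h1
    exact ⟨(hz σ (Multiset.mem_toFinset.1 hσ)).1.2 Hy hY, h2⟩
  have htop : ∀ σ ∈ z, ∀ Hy ∈ σ, Module.finrank F Hy + 1 = Module.finrank F B →
      ∀ Y ∈ σ, Y ≠ Hy → Y < Hy := fun σ hσ Hy h1 h2 Y hY hne => by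
    rcases (hz σ hσ).1.1 Y hY Hy h1 with h | h
    · exact lt_of_le_of_ne h hne
    · have := Submodule.finrank_lt_finrank_of_lt ((hz σ hσ).1.2 Y hY).2.1
      exact (hne (Submodule.eq_of_le_of_finrank_le h (by omega)).symm).elim
  have key : ∀ Hy : Submodule F Λ, ∃ w : Multiset (Finset (Submodule F Λ)), Hy ∈ ℋ → w.card ≤ Φ ∧
      (∀ τ ∈ w, Fl 𝓔 Hy τ ∧ #τ = a + 1) ∧
      ∀ f : _ → A, pr f ((z.filter (Hy ∈ ·)).map (·.erase Hy)) = pr (sd f) w := by
    intro Hy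
    by_cases h : Hy ∈ ℋ
    swap
    · exact ⟨0, fun h' => (h h').elim⟩
    obtain ⟨w, hw⟩ := hf Hy (hℋm Hy h).1.2.2 (hℋm Hy h).2 ((z.filter (Hy ∈ ·)).map (·.erase Hy))
      (by rw [Multiset.card_map]; exact (Multiset.card_le_card (Multiset.filter_le _ _)).trans hM)
      (fun ρ hρ => by
        obtain ⟨σ, hσ, rfl⟩ := Multiset.mem_map.1 hρ
        obtain ⟨hσ, hH⟩ := Multiset.mem_filter.1 hσ
        refine ⟨⟨fun Y hY Z hZ => (hz σ hσ).1.1 Y (mem_of_mem_erase hY) Z (mem_of_mem_erase hZ),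
          fun Y hY => ?_⟩, by rw [card_erase_of_mem hH, (hz σ hσ).2]; rfl⟩
        have := (hz σ hσ).1.2 Y (mem_of_mem_erase hY)
        exact ⟨this.1, htop σ hσ Hy hH (hℋm Hy h).2 Y (mem_of_mem_erase hY) (mem_erase.1 hY).1,
          this.2.2⟩)
      (flag_link_cycle z hcy Hy)
    exact ⟨w, fun _ => hw⟩
  choose w hw using key
  have hsum : ∑ Hy ∈ ℋ, (w Hy).card ≤ (a + 1) * M * Φ :=
    (sum_le_card_nsmul _ _ Φ fun Hy h => (hw Hy h).1).trans
      (by rw [smul_eq_mul]; exact Nat.mul_le_mul_right _ hℋc)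
  refine ⟨z.filter (fun σ => ∀ Y : Submodule F Λ, Y ∈ σ →
    Module.finrank F Y + 2 ≤ Module.finrank F B) +
    ∑ Hy ∈ ℋ, w Hy, ∑ Hy ∈ ℋ, (w Hy).map (insert Hy), ?_, ?_, fun σ hσ => ?_, fun τ hτ => ?_,
    fun f => ?_⟩
  · rw [Multiset.card_add, Multiset.card_sum]
    exact add_le_add ((Multiset.card_le_card (Multiset.filter_le _ _)).trans hM) hsum
  · simpa only [Multiset.card_sum, Multiset.card_map] using hsum
  · rcases Multiset.mem_add.1 hσ with hσ | hσ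
    · obtain ⟨h1, h2⟩ := Multiset.mem_filter.1 hσ
      exact ⟨(hz σ h1).1, (hz σ h1).2, h2⟩
    · obtain ⟨Hy, h, hσ⟩ := Multiset.mem_sum.1 hσ
      obtain ⟨h1, h2⟩ := (hw Hy h).2.1 σ hσ
      refine ⟨⟨h1.1, fun Y hY => ⟨(h1.2 Y hY).1, (h1.2 Y hY).2.1.trans (hℋm Hy h).1.2.1,
        (h1.2 Y hY).2.2⟩⟩, h2, fun Y hY => ?_⟩
      have := Submodule.finrank_lt_finrank_of_lt (h1.2 Y hY).2.1
      have := (hℋm Hy h).2
      omega
  · obtain ⟨Hy, h, hτ⟩ := Multiset.mem_sum.1 hτ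
    obtain ⟨σ, hσ, rfl⟩ := Multiset.mem_map.1 hτ
    obtain ⟨h1, h2⟩ := (hw Hy h).2.1 σ hσ
    refine ⟨⟨fun Y hY Z hZ => ?_, fun Y hY => ?_⟩,
      by rw [card_insert_of_notMem fun h' => (h1.2 Hy h').2.1.false, h2]⟩
    · rcases mem_insert.1 hZ with rfl | hZ1
      · rcases mem_insert.1 hY with rfl | hY1
        · exact .inl le_rfl
        · exact .inl (h1.2 Y hY1).2.1.le
      · rcases mem_insert.1 hY with rfl | hY1
        · exact .inr (h1.2 Z hZ1).2.1.le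
        · exact h1.1 Y hY1 Z hZ1
    · rcases mem_insert.1 hY with rfl | hY1
      · exact (hℋm _ h).1
      · exact ⟨(h1.2 Y hY1).1, (h1.2 Y hY1).2.1.trans (hℋm Hy h).1.2.1, (h1.2 Y hY1).2.2⟩
  · have a1 : ∀ Hy ∈ ℋ, pr (sd f) ((w Hy).map (insert Hy)) =
        pr f (w Hy) + pr (fun σ => if Hy ∈ σ then f σ else 0) z := fun Hy h => by
      rw [← simp_pr_filter, simp_pr_map, simp_pr_congr fun τ hτ =>
        prism_sd_insert f fun h' => (((hw Hy h).2.1 τ hτ).1.2 Hy h').2.1.false, simp_pr_fadd,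
        ← (hw Hy h).2.2, simp_pr_map]
      congr 1
      exact simp_pr_congr fun σ hσ => by rw [insert_erase (Multiset.mem_filter.1 hσ).2]
    rw [simp_pr_add, simp_pr_sum, simp_pr_sum, sum_congr rfl a1, sum_add_distrib, add_assoc,
      ← add_assoc (∑ Hy ∈ ℋ, pr f (w Hy)), two_self, zero_add, simp_pr_filter, ← simp_pr_fsum,
      ← simp_pr_fadd]
    refine simp_pr_congr fun σ hσ => ?_
    by_cases h : ∀ Y ∈ σ, Module.finrank F Y + 2 ≤ Module.finrank F B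
    · rw [if_pos h, sum_eq_zero, add_zero]
      refine fun Hy hH => if_neg fun h' => ?_
      have := h Hy h'
      have := (hℋm Hy hH).2
      omega
    · rw [if_neg h, zero_add]
      push Not at h
      obtain ⟨Y, hY, h⟩ := h
      have h1 := Submodule.finrank_lt_finrank_of_lt ((hz σ hσ).1.2 Y hY).2.1
      have h2 : Module.finrank F Y + 1 = Module.finrank F B := by omega
      rw [sum_eq_single_of_mem Y
        (mem_filter.2 ⟨mem_biUnion.2 ⟨σ, Multiset.mem_toFinset.2 hσ, hY⟩, h2⟩), if_pos hY]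
      refine fun Hy hH hne => if_neg fun h' => ?_
      have := Submodule.finrank_lt_finrank_of_lt (htop σ hσ Y hY h2 Hy h' hne)
      have := (hℋm Hy hH).2
      omega

end aux

/-- Sketch: induction on `a` (for all `M`).  A flag contains at most one hyperplane of `B`.  Remove
the hyperplanes `Hy` of `B` that occur in `z` (at most `M` of them; none if `a = 0`): the link
`zH = (z.filter (Hy ∈ ·)).map (·.erase Hy)` is a cycle of level `a - 1` in `Fl 𝓔 Hy` (apply the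
cycle condition to `f ρ = if Hy ∈ ρ then g (ρ.erase Hy) else 0`), so it is the boundary of some `wH`
of size `≤ Φ'`; `z' = z.filter (no hyperplane) + ∑ Hy, wH` is a cycle without hyperplanes and
`pr f z = pr f z' + pr (sd f) (∑ Hy, wH.map (insert Hy))`.  Then use `exists_generic` and
`fill_small` with `𝒴 = insert ⊥ (all vertices of z')`. -/
theorem exists_fill (a M e : ℕ) : ∃ Φ p : ℕ, ∀ (A F Λ : Type) [AddCommGroup A] [Module (ZMod 2) A]
    [Field F] [Finite F] [AddCommGroup Λ] [Module F Λ] [FiniteDimensional F Λ], p < Nat.card F →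
    ∀ (𝓔 : Finset (Submodule F Λ)) (B : Submodule F Λ), #𝓔 ≤ e → Good 𝓔 B →
      a + 2 ≤ Module.finrank F B → Fill A (Fl 𝓔 B) a M Φ := by
  induction a with
  | zero =>
    refine ⟨(0 + 1) * M, (0 * M + 1) * (e + 1), ?_⟩
    intro A F Λ _ _ _ _ _ _ _ hp 𝓔 B he hB ha z hM hz hcy
    refine flag_nohyp 𝓔 hB (by omega) he hp z hM (fun σ hσ => ⟨(hz σ hσ).1, (hz σ hσ).2, ?_⟩) hcy
    rw [card_eq_zero.1 (hz σ hσ).2]
    simp
  | succ a ih =>
    obtain ⟨Φ, p, h⟩ := ih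
    refine ⟨(a + 1 + 1) * (M + (a + 1) * M * Φ) + (a + 1) * M * Φ,
      max p (((a + 1) * (M + (a + 1) * M * Φ) + 1) * (e + 1)), ?_⟩
    intro A F Λ _ _ _ _ _ _ _ hp 𝓔 B he hB ha z hM hz hcy
    obtain ⟨z', u, e1, e2, e3, e4, e5⟩ := flag_remove (A := A) 𝓔 (B := B)
      (fun Hy h1 h2 => h A F Λ ((le_max_left _ _).trans_lt hp) 𝓔 Hy he h1 (by omega)) z hM hz hcy
    obtain ⟨u', f1, f2, f3⟩ := flag_nohyp (A := A) 𝓔 hB (by omega) he
      ((le_max_right _ _).trans_lt hp) z' e1 e3 (fun f => by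
        have := e5 (sd f)
        rw [hcy, show sd (sd f) = fun _ => 0 from funext fun τ => sum_erase_erase f τ,
          simp_pr_fzero, add_zero] at this
        exact this.symm)
    refine ⟨u' + u, by rw [Multiset.card_add]; exact add_le_add f1 e2, fun τ hτ => ?_,
      fun f => by rw [e5, f3, simp_pr_add]⟩
    rcases Multiset.mem_add.1 hτ with hτ | hτ
    · exact f2 τ hτ
    · exact e4 τ hτ

/-- Sketch: induction on the level `n` gives `r, p` that work for all `a ≤ n` (`SCone.zero`,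
`SCone.succ`, `SCone.mono`); take `n = N` (`finrank B ≤ N`). -/
theorem exists_big (N : ℕ) : ∃ r p : ℕ, ∀ (F A : Type) [Field F] [Finite F] [AddCommGroup A]
    [Module (ZMod 2) A], p < Nat.card F → Big F A N r := by
  have key : ∀ n : ℕ, ∃ r p : ℕ, ∀ (F A : Type) [Field F] [Finite F] [AddCommGroup A]
      [Module (ZMod 2) A], p < Nat.card F →
      ∀ (𝓔 : Finset (Submodule F (Fin N → F))) (B : Submodule F (Fin N → F)) (a : ℕ), a ≤ n →
        #𝓔 ≤ 3 * N + 3 → Good 𝓔 B → a + 2 ≤ Module.finrank F B → SCone A (Fl 𝓔 B) a r := by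
    intro n
    induction n with
    | zero =>
      obtain ⟨Φ, p, h⟩ := exists_fill 0 1 (3 * N + 3)
      refine ⟨Φ, p, ?_⟩
      intro F A _ _ _ _ hp 𝓔 B a ha he hB hr
      obtain rfl : a = 0 := by omega
      exact SCone.zero (h A F _ hp 𝓔 B he hB hr)
    | succ n ih =>
      obtain ⟨r, p, h⟩ := ih
      obtain ⟨Φ, p', h'⟩ := exists_fill (n + 1) (1 + (n + 1) * r) (3 * N + 3)
      refine ⟨max r Φ, max p p', ?_⟩
      intro F A _ _ _ _ hp 𝓔 B a ha he hB hr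
      have hp1 := (le_max_left _ _).trans_lt hp
      rcases ha.eq_or_lt with rfl | ha
      · refine SCone.succ (fun σ v hσ => ?_) (h F A hp1 𝓔 B n le_rfl he hB (by omega))
          (h' A F _ ((le_max_right _ _).trans_lt hp) 𝓔 B he hB hr)
        exact ⟨fun Y hY Z hZ => hσ.1 Y (mem_of_mem_erase hY) Z (mem_of_mem_erase hZ),
          fun Y hY => hσ.2 Y (mem_of_mem_erase hY)⟩
      · exact (h F A hp1 𝓔 B a (by omega) he hB hr).mono le_rfl (le_max_left _ _)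
  obtain ⟨r, p, h⟩ := key N
  refine ⟨r, p, ?_⟩
  intro F A _ _ _ _ hp 𝓔 B a he hB hr
  have := Submodule.finrank_le B
  rw [Module.finrank_fin_fun] at this
  exact h F A hp 𝓔 B a (by omega) he hB hr

end

end Crest.Agent.R66
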