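import Crest.Agent.R66.Trickle
import Crest.Agent.R66.Gen

/-! Row 66: the angles of the Iwahori coset complex. -/

set_option autoImplicit false
set_option linter.unusedSectionVars false

namespace Crest.Agent.R66

open Finset Matrix
open scoped Classical

noncomputable section

variable {F R : Type} [Field F] [CommRing R] [Algebra F R] [Finite R] {P : Par F R} {N : ℕ}

/-- The cyclic successor. -/
def heisS (c : Fin N) : Fin N := ⟨if c + 1 < N then c + 1 else 0, by have := c.2; split_ifs <;> omega⟩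

lemma heis_ne (hN : 3 ≤ N) (b : Fin N) : heisS b ≠ b ∧ heisS (heisS b) ≠ b := by
  have := b.2
  simp only [heisS, Ne, Fin.ext_iff]
  split_ifs <;> omega

lemma heis_rk1 {c b : Fin N} (h : c ≠ b) : rk c b < rk c (heisS b) := by
  have := b.2; have := c.2
  simp only [heisS, Ne, Fin.ext_iff, rk] at *
  split_ifs <;> omega

lemma heis_rk0 (c b : Fin N) : ¬ rk c b < rk c (heisS c) := by
  have := b.2; have := c.2
  simp only [heisS, rk]
  split_ifs <;> omega

lemma heis_rk2 {a b : Fin N} (h : rk (heisS b) b < rk (heisS b) a) : a = heisS b := by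
  have := b.2; have := a.2
  simp only [heisS, Fin.ext_iff, rk] at *
  split_ifs at * <;> omega

lemma heis_rk3 (hN : 3 ≤ N) {a b : Fin N} (h : rk (heisS (heisS b)) b < rk (heisS (heisS b)) a) :
    a = heisS b ∨ a = heisS (heisS b) := by
  have := b.2; have := a.2
  simp only [heisS, Fin.ext_iff, rk] at *
  split_ifs at * <;> omega

lemma heis_pos (hN : 3 ≤ N) {i j a b : Fin N} (h : ∀ c, c ≠ i ∧ c ≠ j → rk c b < rk c a) :
    (a = heisS i ∧ b = i) ∨ (a = heisS j ∧ b = j) ∨ (a = heisS j ∧ b = i ∧ j = heisS i) ∨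
      (a = heisS i ∧ b = j ∧ i = heisS j) := by
  have h1 : ¬ (b ≠ i ∧ b ≠ j) := fun h' => (rk_le_self b a).not_gt (h b h')
  have h2 : ¬ (heisS b ≠ i ∧ heisS b ≠ j) ∨ a = heisS b :=
    or_iff_not_imp_left.2 fun h' => heis_rk2 (h _ (not_not.1 h'))
  have h3 : ¬ (heisS (heisS b) ≠ i ∧ heisS (heisS b) ≠ j) ∨ a = heisS b ∨ a = heisS (heisS b) :=
    or_iff_not_imp_left.2 fun h' => heis_rk3 hN (h _ (not_not.1 h'))
  have h4 := heis_ne hN b
  have h5 := (heis_ne hN (heisS b)).1
  grind

lemma heis_rep {L : Finset (Fin N)} {g : Iw P N} (hg : g ∈ H P L) (a b : Fin N) :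
    mat g a b = (1 : Matrix (Fin N) (Fin N) R) a b ∨ ∀ c ∈ L, rk c b < rk c a :=
  or_iff_not_imp_left.2 fun h c hc => by_contra fun h' => h ((mem_Hc.1 (mem_H.1 hg c hc) a b).2 h')

lemma heis_entry {L : Finset (Fin N)} (hL : L.Nonempty) {g : Iw P N} (hg : g ∈ H P L) {a b : Fin N}
    (hab : a ≠ b) : ∃ x : F, mat g a b = x • eps P a b := by
  obtain ⟨c, hc⟩ := hL
  by_cases h : rk c b < rk c a
  · exact (mem_Hc.1 (mem_H.1 hg c hc) a b).1 h
  · exact ⟨0, by rw [(mem_Hc.1 (mem_H.1 hg c hc) a b).2 h, one_apply_ne hab, zero_smul]⟩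

lemma heis_zero {L : Finset (Fin N)} {g : Iw P N} (hg : g ∈ H P L) {a b c : Fin N} (hab : a ≠ b)
    (hc : c ∈ L) (h : ¬ rk c b < rk c a) {x : F} (hx : mat g a b = x • eps P a b) : x = 0 :=
  smul_eps_inj (P := P) (i := a) (j := b) (by
    rw [← hx, (mem_Hc.1 (mem_H.1 hg c hc) a b).2 h, one_apply_ne hab, zero_smul])

lemma heis_mat {a b : Fin N} (h : a ≠ b) (x : F) :
    mat (xr P h (algebraMap F R x)) = 1 + single a b (x • eps P a b) := by
  rw [mat_xr, Algebra.smul_def]

lemma heis_mem {L : Finset (Fin N)} {a b : Fin N} (h : a ≠ b) (x : F)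
    (hL : ∀ c ∈ L, rk c b < rk c a) : xr P h (algebraMap F R x) ∈ H P L :=
  mem_H.2 fun c hc => (xr_mem_Hc h _).2 (.inr ⟨hL c hc, x, by rw [Algebra.smul_def]⟩)

lemma heis_adj [Finite F] (hN : 3 ≤ N) {K : Finset (Fin N)} {i j : Fin N} (hj : j = heisS i)
    (hK : ∀ c, c ∈ K ↔ c ≠ i ∧ c ≠ j) :
    Ang (H P K) (H P (insert i K)) (H P (insert j K)) (1 / √(Nat.card F)) := by
  obtain ⟨k, hk⟩ : ∃ k, k = heisS j := ⟨_, rfl⟩
  have hji : j ≠ i := hj ▸ (heis_ne hN i).1
  have hki : k ≠ i := by rw [hk, hj]; exact (heis_ne hN i).2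
  have hkj : k ≠ j := hk ▸ (heis_ne hN j).1
  have r1 : ∀ c, c ≠ i → rk c i < rk c j := fun c hc => hj ▸ heis_rk1 hc
  have r2 : ∀ c, c ≠ j → rk c j < rk c k := fun c hc => hk ▸ heis_rk1 hc
  obtain ⟨e, he⟩ : ∃ e : F → F → F → Iw P N, ∀ x y z, e x y z = xr P hji (algebraMap F R x) *
    xr P hkj (algebraMap F R y) * xr P hki (algebraMap F R z) := ⟨_, fun _ _ _ => rfl⟩
  have me : ∀ x y z, mat (e x y z) = 1 + single j i (x • eps P j i) + single k j (y • eps P k j) +
      single k i (z • eps P k i) := fun x y z => by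
    simp only [he, mat_mul, heis_mat, add_mul, mul_add, one_mul, mul_one,
      single_mul_single_of_ne _ _ _ _ hki.symm, single_mul_single_of_ne _ _ _ _ hkj.symm, add_zero]
  have mul : ∀ x y z x' y' z', e x y z * e x' y' z' = e (x + x') (y + y') (z + z' + y * x') := by
    intro x y z x' y' z'
    apply mat_injective
    simp only [mat_mul, me, add_mul, mul_add, one_mul, mul_one,
      single_mul_single_of_ne _ _ _ _ hki.symm, single_mul_single_of_ne _ _ _ _ hkj.symm,
      single_mul_single_of_ne _ _ _ _ hji.symm, single_mul_single_same, add_zero, add_smul,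
      single_add, smul_mul_smul_comm, eps_mul P (rk_le_self k j) (r1 k hki).le]
    abel
  have one : e 0 0 0 = 1 := mat_injective (by simp [me])
  have inv : ∀ x, (e x 0 0)⁻¹ = e (-x) 0 0 := fun x => inv_eq_of_mul_eq_one_right (by simp [mul, one])
  have hK0 : K.Nonempty := ⟨k, (hK k).2 ⟨hki, hkj⟩⟩
  have rep : ∀ g ∈ H P K, ∃ x y z, g = e x y z ∧ mat g j i = x • eps P j i ∧
      mat g k j = y • eps P k j ∧ mat g k i = z • eps P k i := fun g hg => by
    obtain ⟨x, hx⟩ := heis_entry hK0 hg hji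
    obtain ⟨y, hy⟩ := heis_entry hK0 hg hkj
    obtain ⟨z, hz⟩ := heis_entry hK0 hg hki
    refine ⟨x, y, z, mat_injective ?_, hx, hy, hz⟩
    rw [me, ← hx, ← hy, ← hz]
    ext a b
    by_cases h1 : j = a ∧ i = b
    · obtain ⟨rfl, rfl⟩ := h1; simp [hji, hkj]
    by_cases h2 : k = a ∧ j = b
    · obtain ⟨rfl, rfl⟩ := h2; simp [hji.symm, hkj, hkj.symm]
    by_cases h3 : k = a ∧ i = b
    · obtain ⟨rfl, rfl⟩ := h3; simp [hji, hki, hkj.symm]
    simp only [Matrix.add_apply, single_apply, h1, h2, h3, if_false, add_zero]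
    refine (heis_rep hg a b).resolve_right fun h => ?_
    have := heis_pos hN fun c hc => h c ((hK c).2 hc)
    grind
  have mA : ∀ y, e 0 y 0 ∈ H P (insert i K) := fun y => by
    simp only [he, map_zero, xr_zero, one_mul, mul_one]
    refine heis_mem _ _ fun c hc => r2 c ?_
    rcases mem_insert.1 hc with rfl | hc
    exacts [hji.symm, ((hK c).1 hc).2]
  have mB : ∀ x, e x 0 0 ∈ H P (insert j K) := fun x => by
    simp only [he, map_zero, xr_zero, mul_one]
    refine heis_mem _ _ fun c hc => r1 c ?_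
    rcases mem_insert.1 hc with rfl | hc
    exacts [hji, ((hK c).1 hc).1]
  have rA : ∀ g ∈ H P (insert i K), ∃ y, g = e 0 y 0 := fun g hg => by
    obtain ⟨x, y, z, h0, hx, -, hz⟩ := rep g (H_anti (subset_insert _ _) hg)
    obtain rfl := heis_zero hg hji (mem_insert_self _ _) (rk_le_self _ _).not_gt hx
    obtain rfl := heis_zero hg hki (mem_insert_self _ _) (rk_le_self _ _).not_gt hz
    exact ⟨y, h0⟩
  have rB : ∀ g ∈ H P (insert j K), ∃ x, g = e x 0 0 := fun g hg => by
    obtain ⟨x, y, z, h0, -, hy, hz⟩ := rep g (H_anti (subset_insert _ _) hg)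
    obtain rfl := heis_zero hg hkj (mem_insert_self _ _) (rk_le_self _ _).not_gt hy
    obtain rfl := heis_zero hg hki (mem_insert_self _ _) (hk ▸ heis_rk0 _ _) hz
    exact ⟨x, h0⟩
  have card : Nat.card F = Nat.card (H P (insert j K)) :=
    Nat.card_eq_of_bijective (fun x => ⟨e x 0 0, mB x⟩) ⟨fun x x' h => by
      have := congrArg (fun g : H P (insert j K) => mat g.1 j i) h
      exact smul_eps_inj (P := P) (i := j) (j := i) (by simpa [me] using this), fun g => by
      obtain ⟨x, hx⟩ := rB g.1 g.2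
      exact ⟨x, Subtype.ext hx.symm⟩⟩
  rw [card]
  refine Ang.heis (A' := mkSub {g | ∃ y z, g = e 0 y z} ⟨0, 0, one.symm⟩ ?_) (fun g hg => ?_) ?_
    (H_anti (subset_insert _ _)) ?_ ?_ ?_
  · rintro _ ⟨y, z, rfl⟩ _ ⟨y', z', rfl⟩
    exact ⟨_, _, by rw [mul, add_zero]⟩
  · obtain ⟨y, rfl⟩ := rA g hg
    exact ⟨_, _, rfl⟩
  · rintro _ ⟨y, z, rfl⟩
    rw [he]
    exact (H P K).mul_mem ((H P K).mul_mem (heis_mem _ _ fun c hc => r1 c ((hK c).1 hc).1)
      (heis_mem _ _ fun c hc => r2 c ((hK c).1 hc).2))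
      (heis_mem _ _ fun c hc => (r1 c ((hK c).1 hc).1).trans (r2 c ((hK c).1 hc).2))
  · rintro b hb _ ⟨y, z, rfl⟩
    obtain ⟨x, rfl⟩ := rB b hb
    exact ⟨_, _, by rw [inv, mul, mul, add_zero, add_neg_cancel]⟩
  · intro γ hγ
    obtain ⟨x, y, z, rfl, -⟩ := rep γ hγ
    exact ⟨_, ⟨y, z - y * x, rfl⟩, _, mB x, by simp [mul]⟩
  · rintro b hb hb1 _ ⟨y, z, rfl⟩
    obtain ⟨x, rfl⟩ := rB b hb
    have hx : x ≠ 0 := by rintro rfl; exact hb1 one
    exact ⟨_, mA (y + z / x), _, mA (-z / x), by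
      rw [inv, mul, mul, mul]; congr 1 <;> [ring; ring; (field_simp; ring)]⟩

/-- Rank two.  Write `s c` for the cyclic successor of `c` (`rk c (s c) = 0`).  A root element
`xr a b x`, `x ∈ F`, lies in `Hc c` iff `c` is not in the cyclic interval `[b, a)`, and the entry
`(a, b)` of an element of `H K`, `K ≠ ∅`, vanishes unless `[b, a)` misses `K`.  So
`H (insert j K) = {xr (s i) i x}`, `H (insert i K) = {xr (s j) j x}`.  If `j ≠ s i` and `i ≠ s j`
then `H K` is the product of the two (`Ang.of_mul`; one can use `gen` with the product, which is a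
subgroup as the two groups commute).  If `j = s i` (the other case is symmetric, `Ang.symm`) then
`H K` has the three entries `(j, i)`, `(k, j)`, `(k, i)` with `k = s j`; use `Ang.heis` with
`A = H (insert i K) = {xr k j x}`, `A' = {xr k j x * xr k i z}` (the elements of `H K` with entry
`(j, i)` zero, e.g. `H K ⊓ GG {k} univ`), `B = H (insert j K) = {xr j i x}` of order `card F`, and
`xr_comm`. -/
theorem ang_two [Finite F] (hN : 3 ≤ N) {K : Finset (Fin N)} {i j : Fin N} (hij : i ≠ j)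
    (hK : ∀ c, c ∈ K ↔ c ≠ i ∧ c ≠ j) :
    Ang (H P K) (H P (insert i K)) (H P (insert j K)) (1 / √(Nat.card F)) := by
  by_cases h1 : j = heisS i
  · exact heis_adj hN h1 hK
  by_cases h2 : i = heisS j
  · exact (heis_adj hN h2 fun c => (hK c).trans and_comm).symm (by positivity)
  refine (Ang.of_mul (H_anti (subset_insert _ _)) (H_anti (subset_insert _ _))
    fun g hg => ?_).mono (by positivity)
  have hK0 : K.Nonempty := ⟨heisS i, (hK _).2 ⟨(heis_ne hN i).1, Ne.symm h1⟩⟩
  obtain ⟨x, hx⟩ := heis_entry hK0 hg (heis_ne hN j).1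
  obtain ⟨y, hy⟩ := heis_entry hK0 hg (heis_ne hN i).1
  refine ⟨_, heis_mem (heis_ne hN j).1 x fun c hc => heis_rk1 ?_, _,
    heis_mem (heis_ne hN i).1 y fun c hc => heis_rk1 ?_, mat_injective ?_⟩
  · rcases mem_insert.1 hc with rfl | hc
    exacts [hij, ((hK c).1 hc).2]
  · rcases mem_insert.1 hc with rfl | hc
    exacts [hij.symm, ((hK c).1 hc).1]
  simp only [mat_mul, heis_mat, add_mul, mul_add, one_mul, mul_one,
    single_mul_single_of_ne _ _ _ _ h1, add_zero]
  rw [← hx, ← hy]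
  ext a b
  by_cases h3 : heisS j = a ∧ j = b
  · obtain ⟨rfl, rfl⟩ := h3; simp [hij, (heis_ne hN j).1]
  by_cases h4 : heisS i = a ∧ i = b
  · obtain ⟨rfl, rfl⟩ := h4; simp [hij.symm, (heis_ne hN i).1]
  simp only [Matrix.add_apply, single_apply, h3, h4, if_false, add_zero]
  refine (heis_rep hg a b).resolve_right fun h => ?_
  have := heis_pos hN fun c hc => h c ((hK c).2 hc)
  grind

/-- Sketch: induction on `n`: if `#K + n + 2 = N` the angles at `K` are at most
`1 / (√(card F) - n)` (`ang_two`, `trickle`, `H_sup`). -/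
theorem angAll [Finite F] (hN : 3 ≤ N) (hF : (N : ℝ) + 1 < √(Nat.card F)) :
    AngAll (H P : Finset (Fin N) → _) (1 / (√(Nat.card F) - N)) := by
  have key : ∀ (n : ℕ) (K : Finset (Fin N)), #K + n + 2 = N → ∀ i j, i ≠ j → i ∉ K → j ∉ K →
      Ang (H P K) (H P (insert i K)) (H P (insert j K)) (1 / (√(Nat.card F) - n)) := by
    intro n
    induction n with
    | zero =>
      intro K hK i j hij hi hj
      have h1 : insert i (insert j K) = univ := eq_univ_of_card _ (by
        rw [card_insert_of_notMem (by simp [hij, hi]), card_insert_of_notMem hj, Fintype.card_fin]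
        omega)
      simpa using ang_two hN hij fun c => ⟨fun hc => ⟨by rintro rfl; exact hi hc, by
        rintro rfl; exact hj hc⟩, fun hc => by simpa [hc.1, hc.2] using h1.ge (mem_univ c)⟩
    | succ n ih =>
      intro K hK i j hij hi hj
      have h1 : (n : ℝ) + 3 ≤ N := by exact_mod_cast (show n + 3 ≤ N by omega)
      have h2 : 0 < √(Nat.card F) - n - 1 := by linarith
      have h3 : 0 < √(Nat.card F) - n := by linarith
      refine (trickle H_anti (by rw [Fintype.card_fin]; omega) (by positivity)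
        ((div_lt_one h3).2 (by linarith)) (fun i j h => H_sup hN h)
        (fun k hk => ih _ (by rw [card_insert_of_notMem hk]; omega)) hij hi hj).mono (le_of_eq ?_)
      rw [Nat.cast_succ, ← sub_sub]
      field_simp
  intro K i j hij hi hj
  have h1 : #(insert i (insert j K)) ≤ N := (card_le_univ _).trans_eq (Fintype.card_fin N)
  rw [card_insert_of_notMem (by simp [hij, hi]), card_insert_of_notMem hj] at h1
  refine (key (N - 2 - #K) K (by omega) i j hij hi hj).mono ?_
  have h2 : ((N - 2 - #K : ℕ) : ℝ) ≤ N := by exact_mod_cast (show N - 2 - #K ≤ N by omega)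
  exact one_div_le_one_div_of_le (by linarith) (by linarith)

end

end Crest.Agent.R66
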