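import Crest.Agent.R66.Four1
import Crest.Agent.R66.Ord

/-! Row 66: Fourier analysis over the unipotent radical. -/

set_option autoImplicit false
set_option linter.unusedSectionVars false

namespace Crest.Agent.R66

open Finset Matrix
open scoped Classical

noncomputable section

variable {F R : Type} [Field F] [CommRing R] [Algebra F R] [Finite R] {P : Par F R} {N : ℕ}
  {k : Type} [Field k] [Algebra (ZMod 2) k] {r a : ℕ} {D S : Finset (Fin N)}

/-- Left and right sums over `E` agree on `Q`. -/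
lemma four_sm (hd : Disjoint D S) (f : Iw P N → k) {q : Iw P N} (hq : q ∈ GG P D (D ∪ S)) :
    ∑ e with e ∈ GG P D S, f (e * q) = sm (GG P D S) f q := by
  refine (sum_bijective (fun e => q * e * q⁻¹) (MulAut.conj q).bijective (fun x => ?_)
    fun x _ => ?_).symm
  · simp [conj_mem_GG hd hq]
  · rw [inv_mul_cancel_right]

lemma four_inv_sm (hd : Disjoint D S) {b : Finset (Fin N) → Iw P N → k} (hb : Inv (Fam P D D) b) :
    Inv (Fam P D (D ∪ S)) fun K => sm (GG P D S) (b K) := fun K q γ hγ => by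
  obtain ⟨e, he, g, hg, rfl⟩ := split hd hγ
  beta_reduce
  rw [← mul_assoc, sm_mul_of_norm (conj_mem_GG hd (four_le_G K hg).1) (fun q => hb K q g hg),
    sm_mul_mem q he.1]

/-- Sketch: `Exa.of_cosets Q` reduces to `q ∈ Q`.  Put
`c_Θ K q = ∑ e ∈ E, ψ (- Θ (mat e - 1)) * c K (e * q)`; `∑ Θ, c_Θ = c` (`sum_dual`); the `Θ` that
vanish on `E - 1` form a subspace, so their number is odd, and for them `c_Θ = sm E (c K)` on `Q`
(`conj_mem_GG`); the others are exact (`four_one`). -/
theorem four [Finite F] (hB : Big F k N r) (ha : a + 1 ≤ #D) (hd : Disjoint D S)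
    {ψ : AddChar F k} (hψ : ψ ≠ 1) {c : Finset (Fin N) → Iw P N → k}
    (hc : Inv (Fam P D (D ∪ S)) c) (hco : Coc Al a c) :
    Exa (Fam P D (D ∪ S)) Al a (c + fun K => sm (GG P D S) (c K)) := by
  refine Exa.of_cosets (GG P D (D ∪ S)) uinv_al (fun K _ _ => inf_le_left) fun q₀ => ?_
  have e1 : Lt q₀ (c + fun K => sm (GG P D S) (c K)) =
      Lt q₀ c + fun K => sm (GG P D S) (Lt q₀ c K) := by
    funext K q
    simp [Lt, sm, mul_assoc]
  simp only [e1, Al, and_true]
  replace hc := hc.tr q₀
  replace hco := hco.tr q₀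
  generalize Lt q₀ c = c at hc hco
  have : Finite (Module.Dual F (Matrix (Fin N) (Fin N) R)) :=
    Finite.of_injective _ DFunLike.coe_injective
  have := Fintype.ofFinite (Module.Dual F (Matrix (Fin N) (Fin N) R))
  set d : Module.Dual F (Matrix (Fin N) (Fin N) R) → Finset (Fin N) → Iw P N → k :=
    fun Θ K q => ∑ e with e ∈ GG P D S, ψ (Θ (1 - mat e)) * c K (e * q) with hd'
  let W : Submodule F (Module.Dual F (Matrix (Fin N) (Fin N) R)) :=
    { carrier := {Θ | ∀ e ∈ GG P D S, Θ (mat e - 1) = 0}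
      zero_mem' := fun _ _ => rfl
      add_mem' := fun ha hb e he => by rw [LinearMap.add_apply, ha e he, hb e he, add_zero]
      smul_mem' := fun x _ ha e he => by rw [LinearMap.smul_apply, ha e he, smul_zero] }
  have h1 : Exa (Fam P D (D ∪ S)) (fun _ q => q ∈ GG P D (D ∪ S)) a (∑ Θ with Θ ∉ W, d Θ) := by
    refine Exa.sum _ fun Θ hΘ => four_one hB ha hd hψ Θ ?_ (fun K q γ hγ => ?_)
      (fun M q hM _ => ?_) fun K e he q _ => ?_
    · by_contra! h
      exact (mem_filter.1 hΘ).2 h
    · simp only [hd', ← mul_assoc, hc K _ γ hγ]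
    · simp only [hd', dl]
      rw [sum_comm]
      refine sum_eq_zero fun e _ => ?_
      rw [← mul_sum]
      exact mul_eq_zero_of_right _ (hco M _ hM trivial)
    · simp only [hd', mul_sum]
      refine sum_bijective (· * e) (Group.mulRight_bijective e) (fun x => ?_) fun x hx => ?_
      · simp [(GG P D S).mul_mem_cancel_right he]
      · rw [← mul_assoc, ← mul_assoc, ← AddChar.map_add_eq_mul, ← map_add, ← neg_sub (mat (x * e)),
          four_add hd (mem_filter.1 hx).2 he]
        congr 3
        abel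
  refine h1.congr fun K q _ hq => ?_
  have h2 : ∑ Θ, d Θ K q = c K q := by
    simp only [hd']
    rw [sum_comm]
    simp only [← sum_mul, sum_dual P.two hψ]
    rw [sum_eq_single 1 (fun e _ he => ?_) (by simp [one_mem])]
    · simp
    · rw [if_neg fun h : 1 - mat e = 0 => he (mat_injective (sub_eq_zero.1 h).symm), zero_mul]
  have h3 : ∑ Θ with Θ ∈ W, d Θ K q = sm (GG P D S) (c K) q := by
    rw [sum_congr rfl (g := fun _ => sm (GG P D S) (c K) q) fun Θ hΘ => ?_, sum_const,
      odd_nsmul]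
    · rw [← Fintype.card_subtype, ← Nat.card_eq_fintype_card]
      exact odd_card_module (V := W) P.two
    · rw [← four_sm hd _ hq]
      refine sum_congr rfl fun e he => ?_
      rw [← neg_sub, map_neg, (mem_filter.1 hΘ).2 e (mem_filter.1 he).2, neg_zero,
        AddChar.map_zero_eq_one, one_mul]
  rw [Finset.sum_apply, Finset.sum_apply, Pi.add_apply, Pi.add_apply, ← h2, ← h3,
    ← sum_filter_add_sum_filter_not univ (· ∈ W), add_right_comm, two_self, zero_add]

/-- Sketch: if `c = dl b` then `sm E c = dl (sm E b)` (`dl_sm`), and `sm E b` is invariant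
(`split`, `sm_mul_mem`, `sm_mul_of_norm`). -/
theorem four_inj [Finite F] (hB : Big F k N r) (ha : a + 1 ≤ #D) (hd : Disjoint D S)
    {ψ : AddChar F k} (hψ : ψ ≠ 1) {c : Finset (Fin N) → Iw P N → k}
    (hc : Inv (Fam P D (D ∪ S)) c) (hco : Coc Al a c) (h : Exa (Fam P D D) Al a c) :
    Exa (Fam P D (D ∪ S)) Al a c := by
  refine (four hB ha hd hψ hc hco).of_add ?_
  obtain ⟨b, hb, -, he⟩ := h
  refine ⟨fun K => sm (GG P D S) (b K), four_inv_sm hd hb, supp_al, fun K q hK _ => ?_⟩
  rw [dl_sm]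
  exact sum_congr rfl fun e _ => he K _ hK trivial

/-- Sketch: `four` for `φ` and for `Lt e φ`; on `GG D D` the two averages agree;
`Exa.restrict`. -/
theorem triv_col [Finite F] (hB : Big F k N r) (ha : a + 1 ≤ #D) (hd : Disjoint D S)
    {ψ : AddChar F k} (hψ : ψ ≠ 1) :
    Triv k (Fam P D (D ∪ S)) (Fam P D D) (GG P D S) a := by
  intro φ hφ hco e he
  have hU : UInv (Fam P D D) fun _ q => q ∈ Fam P D D ∅ := fun K q γ hγ =>
    (Fam P D D ∅).mul_mem_cancel_right (Fam_anti D D (empty_subset K) hγ)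
  refine (((four hB ha hd hψ hφ hco).add (four hB ha hd hψ (hφ.tr e) (hco.tr e))).restrict
    four_le_G hU (fun _ _ _ => trivial) fun _ _ _ _ h _ => h).congr fun K q _ hq => ?_
  have h1 : sm (GG P D S) (Lt e φ K) q = sm (GG P D S) (φ K) q := by
    have h2 := (conj_mem_GG hd (inv_mem (four_le_G ∅ hq).1) e).2 he
    rw [← sm_mul_mem (f := φ K) q h2]
    exact sum_congr rfl fun x _ => congrArg (φ K) (by group)
  simp only [Pi.add_apply, h1]
  rw [add_add_add_comm, two_self, add_zero]

end

end Crest.Agent.R66
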