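import Crest.Agent.R66.Cone

/-! Row 66: joins of discrete sets. -/

set_option autoImplicit false
set_option linter.unusedSectionVars false

namespace Crest.Agent.R66

open Finset Matrix
open scoped Classical

noncomputable section

variable {I J G A : Type} [DecidableEq I] [DecidableEq J] [Group G] [AddCommGroup A]
  [Module (ZMod 2) A]

/-- The faces used in the induction. -/
def join_W (Γ : Finset J → Subgroup G) (S₀ T S : Finset J) (q : G) : Prop :=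
  q ∈ Γ ∅ ∧ T ⊆ S ∧ S ⊆ S₀ ∧ ∀ m ∈ T, q ∉ Γ {m}

lemma join_uinv {Γ : Finset J → Subgroup G} (hΓ : Antitone Γ) (S₀ T : Finset J) :
    UInv Γ (join_W Γ S₀ T) := fun S q γ hγ => by
  simp only [join_W, (Γ ∅).mul_mem_cancel_right (hΓ (empty_subset S) hγ)]
  refine and_congr_right fun _ => and_congr_right fun hT => and_congr_right fun _ =>
    forall₂_congr fun m hm => ?_
  rw [(Γ {m}).mul_mem_cancel_right (hΓ (singleton_subset_iff.2 (hT hm)) hγ)]

lemma join_cone {Γ : Finset J → Subgroup G} (hΓ : Antitone Γ) (S₀ : Finset J)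
    (h1 : ∀ S m, Γ S ⊓ Γ {m} ≤ Γ (insert m S)) {m : J} (hm : m ∈ S₀)
    (h2 : ∀ γ ∈ Γ ∅, ∃ γ' ∈ Γ (S₀.erase m), γ'⁻¹ * γ ∈ Γ {m}) {T : Finset J} (hmT : m ∉ T)
    (b : ℕ) : Ex A Γ (fun S q => join_W Γ S₀ T S q ∧ (m ∉ S ∨ q ∈ Γ {m})) b := by
  intro c hi hs hco
  have hg : ∀ q : G, ∃ g : G, q ∈ Γ ∅ → g ∈ Γ (S₀.erase m) ∧ q * g ∈ Γ {m} := fun q => by
    by_cases hq : q ∈ Γ ∅
    · obtain ⟨g, h3, h4⟩ := h2 q⁻¹ (inv_mem hq)
      exact ⟨g, fun _ => ⟨h3, by simpa using inv_mem h4⟩⟩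
    · exact ⟨1, fun h => (hq h).elim⟩
  choose g hg using hg
  have hgS : ∀ q ∈ Γ ∅, ∀ S ⊆ S₀, m ∉ S → g q ∈ Γ S := fun q hq S hS hmS =>
    hΓ (subset_erase.2 ⟨hS, hmS⟩) (hg q hq).1
  refine ⟨fun S q => if m ∉ S ∧ join_W Γ S₀ T S q then c (insert m S) (q * g q) else 0,
    fun S q γ hγ => ?_, fun S q h => ?_, fun K q hK hq => ?_⟩
  · simp only [join_uinv hΓ S₀ T S q γ hγ]
    split_ifs with h
    swap
    · rfl
    · have hq := h.2.1
      have hq' : q * γ ∈ Γ ∅ := mul_mem hq (hΓ (empty_subset S) hγ)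
      have : (q * g q)⁻¹ * (q * γ * g (q * γ)) ∈ Γ (insert m S) :=
        h1 S m <| Subgroup.mem_inf.2 ⟨by
          have : (q * g q)⁻¹ * (q * γ * g (q * γ)) = (g q)⁻¹ * γ * g (q * γ) := by group
          rw [this]
          exact mul_mem (mul_mem (inv_mem (hgS q hq S h.2.2.2.1 h.1)) hγ)
            (hgS _ hq' S h.2.2.2.1 h.1), mul_mem (inv_mem (hg q hq).2) (hg _ hq').2⟩
      rw [← hi _ (q * g q) _ this, mul_inv_cancel_left]
  · exact if_neg fun h' => h ⟨h'.2, .inl h'.1⟩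
  obtain ⟨⟨hq0, hTK, hKS, hT⟩, hq⟩ := hq
  by_cases hmK : m ∈ K
  · have hq : q ∈ Γ {m} := hq.resolve_left (not_not.2 hmK)
    rw [dl, sum_eq_single_of_mem m hmK fun i _ hij => if_neg fun h =>
      h.1 (mem_erase.2 ⟨hij.symm, hmK⟩), if_pos ⟨notMem_erase m K, hq0,
        subset_erase.2 ⟨hTK, hmT⟩, (erase_subset _ _).trans hKS, hT⟩]
    have : g q ∈ Γ (insert m (K.erase m)) := h1 _ m ⟨hgS q hq0 _ ((erase_subset _ _).trans hKS)
      (notMem_erase m K), ((Γ {m}).mul_mem_cancel_left hq).1 (hg q hq0).2⟩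
    rw [hi _ q _ this, insert_erase hmK]
  · have hgK := hgS q hq0 K hKS hmK
    have := hco (insert m K) (q * g q) (by rw [card_insert_of_notMem hmK, hK])
      ⟨⟨mul_mem hq0 (hΓ (empty_subset K) hgK), hTK.trans (subset_insert _ _),
        insert_subset hm hKS, fun m' hm' => by
          rw [(Γ {m'}).mul_mem_cancel_right (hΓ (singleton_subset_iff.2 (hTK hm')) hgK)]
          exact hT m' hm'⟩, .inr (hg q hq0).2⟩
    rw [dl, sum_insert hmK, erase_insert hmK, hi K q _ hgK] at this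
    rw [eq_of_add_eq_zero' this]
    refine sum_congr rfl fun i hi' => ?_
    have hij : m ≠ i := by rintro rfl; exact hmK hi'
    rw [erase_insert_of_ne hij]
    by_cases h : T ⊆ K.erase i
    · exact (if_pos ⟨fun h' => hmK (mem_of_mem_erase h'), hq0, h,
        (erase_subset _ _).trans hKS, hT⟩).symm
    · rw [hs _ _ fun h' => h fun y hy => (mem_insert.1 (h'.1.2.1 hy)).resolve_left
        (by rintro rfl; exact hmT hy)]
      exact (if_neg fun h' => h h'.2.2.1).symm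

/-- The coset complex is a join of `#S₀` discrete sets.  Sketch: by `Ex.of_cosets (Γ ∅)` restrict to
`q ∈ Γ ∅`.  For `T ⊆ S₀` let `W T S q := q ∈ Γ ∅ ∧ T ⊆ S ∧ S ⊆ S₀ ∧ ∀ m ∈ T, q ∉ Γ {m}`.  Downward
induction on `T` (induction on `#(S₀ \ T)`): `W S₀` has no faces of level `b` (`Ex.of_empty`).  For
`m ∈ S₀ \ T` use `Ex.ext` with `U₂ = W (insert m T)` and `U₁ S q = W T S q ∧ (m ∉ S ∨ q ∈ Γ {m})`.
`U₁` is a cone: `h2` applied to `q⁻¹` gives `τ q ∈ q Γ (S₀.erase m) ∩ Γ {m}`; put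
`b S q = if m ∉ S ∧ U₁ S q then c (insert m S) (τ q) else 0` (invariant by `h1`); for `m ∉ K` use the
cocycle condition at `(insert m K, τ q)`. -/
theorem Ex.join {Γ : Finset J → Subgroup G} (hΓ : Antitone Γ) (S₀ : Finset J)
    (h1 : ∀ S m, Γ S ⊓ Γ {m} ≤ Γ (insert m S))
    (h2 : ∀ m ∈ S₀, ∀ γ ∈ Γ ∅, ∃ γ' ∈ Γ (S₀.erase m), γ'⁻¹ * γ ∈ Γ {m}) {b : ℕ} (hb : b < #S₀) :
    Ex A Γ (fun S _ => S ⊆ S₀) b := by
  have key : ∀ n, ∀ T ⊆ S₀, #(S₀ \ T) = n → Ex A Γ (join_W Γ S₀ T) b := by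
    intro n
    induction n with
    | zero =>
      intro T _ hn
      refine Ex.of_empty fun K q hK h => ?_
      have := card_le_card ((sdiff_eq_empty_iff_subset.1 (card_eq_zero.1 hn)).trans h.2.1)
      omega
    | succ n ih =>
      intro T hT hn
      obtain ⟨m, hm⟩ := card_pos.1 (show 0 < #(S₀ \ T) by omega)
      obtain ⟨hm, hmT⟩ := mem_sdiff.1 hm
      refine Ex.ext (U₂ := join_W Γ S₀ (insert m T)) hΓ (join_uinv hΓ S₀ T) (join_uinv hΓ S₀ _)
        (fun K L M q h3 h4 h5 h6 => ⟨h5.1, h5.2.1.trans h3, h4.trans h6.2.2.1, h5.2.2.2⟩)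
        (fun K q h => ⟨h.1, (subset_insert _ _).trans h.2.1, h.2.2.1,
          fun m' hm' => h.2.2.2 m' (mem_insert_of_mem hm')⟩)
        (fun K L q h3 h4 h5 => ⟨h4.1, h4.2.1.trans h3, h5.2.2.1, h4.2.2.2⟩)
        (fun K q => and_congr_right fun h => ?_) (join_cone hΓ S₀ h1 hm (h2 m hm) hmT b)
        (ih _ (insert_subset hm hT) ?_)
      · simp only [join_W, insert_subset_iff, forall_mem_insert] at h ⊢
        tauto
      · rw [sdiff_insert, card_erase_of_mem (mem_sdiff.2 ⟨hm, hmT⟩), hn]; rfl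
  refine Ex.of_cosets (Γ ∅) (fun _ _ _ _ => Iff.rfl) (fun K _ _ => hΓ (empty_subset K)) fun _ => ?_
  exact (key _ ∅ (empty_subset _) rfl).congr fun K q => by simp [join_W]

end

end Crest.Agent.R66
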