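import Crest.Agent.R66.Grp

/-! Row 66: the symmetry between rows and columns. -/

set_option autoImplicit false
set_option linter.unusedSectionVars false

namespace Crest.Agent.R66

open Finset Matrix
open scoped Classical

noncomputable section

/-- Transport of structure.  Sketch: pull back cochains by `c ↦ fun K q => c (K.map π) (σ q)`,
which commutes with `dl`, and push `b` forward along the inverses. -/
theorem Triv.transport {I G A : Type} [DecidableEq I] [Group G] [AddCommGroup A]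
    {Γ₁ Γ₁' Γ₂ Γ₂' : Finset I → Subgroup G} {E₁ E₂ : Subgroup G} {a : ℕ} (σ : G ≃* G) (π : I ≃ I)
    (h : ∀ K g, σ g ∈ Γ₂ (K.map π.toEmbedding) ↔ g ∈ Γ₁ K)
    (h' : ∀ K g, σ g ∈ Γ₂' (K.map π.toEmbedding) ↔ g ∈ Γ₁' K) (hE : ∀ g, σ g ∈ E₂ ↔ g ∈ E₁)
    (hT : Triv A Γ₁ Γ₁' E₁ a) : Triv A Γ₂ Γ₂' E₂ a := by
  intro φ hφ hco e he
  have hd : ∀ (π : I ≃ I) (σ : G → G) (c : Finset I → G → A) K q,
      dl (fun K q => c (K.map π.toEmbedding) (σ q)) K q = dl c (K.map π.toEmbedding) (σ q) := by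
    intro π σ c K q
    simp [dl, map_erase]
  have hm : ∀ K : Finset I, (K.map π.symm.toEmbedding).map π.toEmbedding = K := fun K => by
    simp [Finset.map_map]
  obtain ⟨b, hb, hs, he⟩ := hT (fun K q => φ (K.map π.toEmbedding) (σ q))
    (fun K q γ hγ => by beta_reduce; rw [map_mul, hφ _ _ _ ((h K γ).2 hγ)])
    (fun M q hM _ => by rw [hd]; exact hco _ _ (by simpa using hM) trivial) (σ.symm e)
    (by rwa [← hE, σ.apply_symm_apply])
  have h0 : ∀ q, σ.symm q ∈ Γ₁' ∅ ↔ q ∈ Γ₂' ∅ := fun q => by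
    rw [← h', σ.apply_symm_apply, map_empty]
  refine ⟨fun K q => b (K.map π.symm.toEmbedding) (σ.symm q), fun K q γ hγ => ?_,
    fun K q hq => hs _ _ (mt (h0 q).1 hq), fun K q hK hq => ?_⟩
  · beta_reduce
    rw [map_mul, hb _ _ _ (by rwa [← h', σ.apply_symm_apply, hm])]
  · rw [hd, ← he _ _ (by simpa using hK) ((h0 q).2 hq)]
    simp [Lt, hm]

variable {F R : Type} [Field F] [CommRing R] [Algebra F R] [Finite R] {P : Par F R} {N : ℕ}

/-- Sketch: `τ M i j = M (rev j) (rev i)` is an anti-automorphism, `σ g = (τ g)⁻¹`;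
`π c = N - 2 - c` for `c < N - 1` and `π (N - 1) = N - 1`;
`rk (π c) j < rk (π c) i ↔ rk c (rev i) < rk c (rev j)` and `eps (rev j) (rev i) = eps i j`. -/
theorem exists_sym (P : Par F R) (N : ℕ) : ∃ (σ : Iw P N ≃* Iw P N) (π : Fin N ≃ Fin N),
    (∀ A B g, σ g ∈ GG P (B.image Fin.rev) (A.image Fin.rev) ↔ g ∈ GG P A B) ∧
    ∀ c g, σ g ∈ Hc P (π c) ↔ g ∈ Hc P c := by
  let τ : Iw P N → Iw P N := fun g => mk ((mat g)ᵀ.submatrix Fin.revPerm Fin.revPerm)
    (by rw [det_submatrix_equiv_self, det_transpose, mat_det]) fun i j hij => by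
      have := mat_dvd g (Fin.rev_le_rev.2 hij)
      simpa [one_apply, eq_comm] using this
  have hτ : ∀ g i j, mat (τ g) i j = mat g j.rev i.rev := fun _ _ _ => rfl
  have hττ : ∀ g, τ (τ g) = g := fun g => mat_injective (by ext i j; simp [hτ])
  have hmul : ∀ g h, τ (g * h) = τ h * τ g := fun g h => mat_injective (by
    simp only [τ, mat_mk, mat_mul, transpose_mul, submatrix_mul_equiv])
  have h1 : τ 1 = 1 := mat_injective (by ext i j; simp [hτ, one_apply, eq_comm])
  have hinv : ∀ g, τ g⁻¹ = (τ g)⁻¹ := fun g =>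
    eq_inv_of_mul_eq_one_left (by rw [← hmul, mul_inv_cancel, h1])
  have ho : ∀ i j : Fin N, (1 : Matrix (Fin N) (Fin N) R) j.rev i.rev = (1 : Matrix _ _ R) i j :=
    fun i j => by simp [one_apply, eq_comm]
  let π : Fin N → Fin N := fun c =>
    ⟨if (c : ℕ) + 1 < N then N - 2 - c else c, by have := c.2; split_ifs <;> omega⟩
  have hπ : Function.Involutive π := fun c => by
    have := c.2
    simp only [π, Fin.ext_iff]
    split_ifs <;> omega
  refine ⟨⟨⟨fun g => (τ g)⁻¹, fun g => (τ g)⁻¹, fun g => by simp [hinv, hττ],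
    fun g => by simp [hinv, hττ]⟩, fun g h => by simp [hmul]⟩, hπ.toPerm, fun A B g => ?_,
    fun c g => ?_⟩
  · show (τ g)⁻¹ ∈ _ ↔ _
    have hi : ∀ (A : Finset (Fin N)) i, i ∈ A.image Fin.rev ↔ i.rev ∈ A := fun A i => by
      simp only [mem_image]
      exact ⟨by rintro ⟨x, hx, rfl⟩; simpa using hx, fun h => ⟨_, h, i.rev_rev⟩⟩
    rw [inv_mem_iff, mem_GG, mem_GG]
    simp only [hτ, hi]
    exact ⟨fun h i j hij => by simpa [ho] using h j.rev i.rev (by simpa using hij.symm),
      fun h i j hij => (h _ _ hij.symm).trans (ho i j)⟩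
  · show (τ g)⁻¹ ∈ Hc P (π c) ↔ _
    have hr : ∀ i j : Fin N, rk (π c) j < rk (π c) i ↔ rk c i.rev < rk c j.rev := fun i j => by
      have := c.2; have := i.2; have := j.2
      simp only [π, rk, Fin.val_rev]
      split_ifs <;> omega
    have he : ∀ i j : Fin N, eps P i j = eps P j.rev i.rev := fun i j => by simp [eps]
    rw [inv_mem_iff, mem_Hc, mem_Hc]
    simp only [hτ, hr]
    refine ⟨fun h i j => ?_, fun h i j => ?_⟩
    · have := h j.rev i.rev
      rwa [ho, ← he, i.rev_rev, j.rev_rev] at this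
    · rw [he, ← ho]
      exact h _ _

/-- The row version from the column version. -/
theorem triv_row {A : Type} [AddCommGroup A] {a n : ℕ}
    (h : ∀ D S : Finset (Fin N), Disjoint D S → #D = n →
      Triv A (Fam P D (D ∪ S)) (Fam P D D) (GG P D S) a)
    {D S : Finset (Fin N)} (hd : Disjoint D S) (hn : #D = n) :
    Triv A (Fam P (D ∪ S) D) (Fam P D D) (GG P S D) a := by
  obtain ⟨σ, π, h1, h2⟩ := exists_sym P N
  have hrr : ∀ A : Finset (Fin N), (A.image Fin.rev).image Fin.rev = A := fun A => by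
    simp [image_image, Function.comp_def]
  have key : ∀ (A B K : Finset (Fin N)) g, σ g ∈ Fam P B A (K.map π.toEmbedding) ↔
      g ∈ Fam P (A.image Fin.rev) (B.image Fin.rev) K := fun A B K g => by
    rw [mem_Fam, mem_Fam, ← h1 (A.image Fin.rev), hrr, hrr]
    simp only [forall_mem_map, Equiv.coe_toEmbedding, h2]
  refine (h (D.image Fin.rev) (S.image Fin.rev) ((disjoint_image Fin.rev_injective).2 hd)
    (by rw [card_image_of_injective _ Fin.rev_injective, hn])).transport σ π
    (fun K g => by rw [key, image_union]) (key D D) fun g => ?_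
  rw [← h1 (D.image Fin.rev), hrr, hrr]

end

end Crest.Agent.R66
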