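import Crest.Agent.R66.Erase
import Crest.Agent.R66.Four
import Crest.Agent.R66.Sym
import Crest.Agent.R66.Join
import Crest.Agent.R66.Dbl

/-! Row 66: vanishing of the cohomology. -/

set_option autoImplicit false
set_option linter.unusedSectionVars false

namespace Crest.Agent.R66

open Finset Matrix
open scoped Classical

noncomputable section

variable {F R : Type} [Field F] [CommRing R] [Algebra F R] [Finite R] {P : Par F R} {N : ℕ}

/-- Sketch: strong induction on `a` (for all `D`).  Pick `S₀ ⊆ D` with `#S₀ = a + 1` and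
`m' ∈ D \ S₀`; `dbl` with `Γ K S = Fam (D \ S) D K`; rows: `Ex.join`, `GG_inf`, `hprod`; columns:
`four_inj` with `D \ S` and the induction hypothesis (`#S ≥ 2`) or `exa_erase`, `triv_col`,
`triv_row` (`S = {m}`). -/
theorem vanish [Finite F] {k : Type} [Field k] [Algebra (ZMod 2) k] {r : ℕ} (hB : Big F k N r)
    {ψ : AddChar F k} (hψ : ψ ≠ 1) (a : ℕ) (D : Finset (Fin N)) (h : 2 * a + 2 ≤ #D) :
    Ex k (Fam P D D) Al a := by
  induction a using Nat.strong_induction_on generalizing D with
  | _ a ih =>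
  intro c hc _ hco
  obtain ⟨S₀, hS₀, hcard⟩ := exists_subset_card_eq (s := D) (n := a + 1) (by omega)
  obtain ⟨m', hm', hm''⟩ := exists_mem_notMem_of_card_lt_card (s := S₀) (t := D) (by omega)
  have := dbl (A := k) (fun K S => Fam P (D \ S) D K)
    (fun K K' S S' hK hS => inf_le_inf (GG_mono (sdiff_subset_sdiff Subset.rfl hS) Subset.rfl)
      (H_anti hK)) S₀ hcard
    (fun K b hb => Ex.join (fun S S' hS => inf_le_inf_right _
      (GG_mono (sdiff_subset_sdiff Subset.rfl hS) Subset.rfl)) S₀ (fun S m g hg => ⟨?_, hg.1.2⟩)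
      (fun m hm γ hγ => hprod hS₀ hm' hm'' hm (by rwa [sdiff_empty] at hγ)) (by omega))
    (fun S hS h2 a' ha' φ h1 _ h3 => ?_) (c := c) (by simpa using hc) hco fun m hm => ?_
  · simpa using this
  · refine GG_mono (fun x => ?_) Subset.rfl (GG_inf ⟨hg.1.1, hg.2.1⟩)
    simp only [mem_sdiff, mem_insert, mem_inter, mem_singleton]
    tauto
  · have h4 : #(D \ S) + #S = #D := card_sdiff_add_card_eq_card (hS.trans hS₀)
    have := four_inj (P := P) (D := D \ S) (S := S) (c := φ) hB (a := a') (by omega) sdiff_disjoint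
      hψ
    rw [sdiff_union_of_subset (hS.trans hS₀)] at this
    exact this h1 h3 (ih a' (by omega) (D \ S) (by omega) φ
      (h1.mono fun K => inf_le_inf_right _ (GG_mono Subset.rfl sdiff_subset)) supp_al h3)
  · have hm1 := hS₀ hm
    have h4 : #(D.erase m) + 1 = #D := card_erase_add_one hm1
    have h5 : Disjoint (D.erase m) {m} := by simp
    have h6 : D.erase m ∪ {m} = D := by rw [union_comm, ← insert_eq, insert_erase hm1]
    have h7 := triv_col (P := P) hB (a := a) (by omega) h5 hψ
    have h8 := triv_row (P := P) (A := k) (a := a) (n := #(D.erase m))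
      (fun D' S hd hn => triv_col hB (by omega) hd hψ) h5 rfl
    have := four_inj (P := P) (c := c) hB (a := a) (by omega) h5 hψ
    rw [h6] at h7 h8 this
    rw [sdiff_singleton_eq_erase]
    exact this (hc.mono fun K => inf_le_inf_right _ (GG_mono (erase_subset _ _) Subset.rfl)) hco
      (exa_erase hm1 h7 h8 hc hco)

/-- Sketch: `k` and `ψ` from `AddChar.FiniteField.primitiveChar F (ZMod 2)` (`P.two`), `vanish` with
`D = univ`, `Fam_univ`, `Ex.coeff` with a linear retraction of `algebraMap (ZMod 2) k`. -/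
theorem vanish_two [Finite F] {r : ℕ}
    (hB : ∀ (A : Type) [AddCommGroup A] [Module (ZMod 2) A], Big F A N r) {a : ℕ}
    (h : 2 * a + 2 ≤ N) : Ex (ZMod 2) (H P : Finset (Fin N) → _) Al a := by
  have := Fintype.ofFinite F
  have := Fact.mk Nat.prime_two
  have hch : ringChar (ZMod 2) ≠ ringChar F := by
    rw [ZMod.ringChar_zmod_n]
    intro h'
    exact P.two (by exact_mod_cast (ringChar.spec F 2).2 (h' ▸ dvd_rfl))
  let ψ := AddChar.FiniteField.primitiveChar F (ZMod 2) hch
  have hψ : ψ.char ≠ 1 := by simpa using ψ.prim one_ne_zero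
  obtain ⟨ρ, hρ⟩ := LinearMap.exists_leftInverse_of_injective
    (Algebra.linearMap (ZMod 2) (CyclotomicField ψ.n (ZMod 2))) (LinearMap.ker_eq_bot.2 (algebraMap (ZMod 2) _).injective)
  have := vanish (P := P) (hB _) hψ a univ (by simpa using h)
  rw [Fam_univ] at this
  exact Ex.coeff (Algebra.linearMap (ZMod 2) _).toAddMonoidHom ρ.toAddMonoidHom
    (fun x => LinearMap.congr_fun hρ x) this

end

end Crest.Agent.R66
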