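import Crest.Agent.R66.Real
import Crest.Agent.R66.Vanish
import Crest.Agent.R66.EK
import Crest.Agent.R66.Heis
import Crest.Agent.R66.Flag

/-! Row 66: assembly. -/

set_option autoImplicit false
set_option linter.unusedSectionVars false

namespace Crest.Agent.R66

open Finset Matrix Crest.CombinatoricsR.Cochain
open scoped Classical

noncomputable section

/-- `expand` for all levels up to `d`. -/
theorem expand_all (n d C : ℕ) : ∃ l : ℝ, 0 < l ∧ ∀ D : ℕ, ∃ C' : ℕ, ∀ (I G : Type) [DecidableEq I]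
    [Group G] [Fintype I] [Fintype G] (Γ : Finset I → Subgroup G), Fintype.card I = n →
    Antitone Γ → Γ ∅ = ⊤ → AngAll Γ l → (∀ i, Nat.card (Γ {i}) ≤ D) → ∀ a ≤ d,
    LkE Γ (a + 1) C → Ex (ZMod 2) Γ Al a → Expa Γ a C' := by
  choose l hl h using fun a => expand n a C
  have hne : (range (d + 1)).Nonempty := ⟨0, by simp⟩
  refine ⟨(range (d + 1)).inf' hne l, (lt_inf'_iff hne).2 fun a _ => hl a, fun D => ?_⟩
  choose C' hC' using fun a => h a D
  refine ⟨(range (d + 1)).sup C', fun I G _ _ _ _ Γ h1 h2 h3 h4 h5 a ha h6 h7 c hc => ?_⟩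
  have ha' : a ∈ range (d + 1) := mem_range.2 (by omega)
  obtain ⟨b, hb, hb'⟩ := hC' a I G Γ h1 h2 h3
    (fun K i j h h' h'' => (h4 K i j h h' h'').mono (inf'_le l ha')) h6 h5 h7 c hc
  exact ⟨b, hb, hb'.trans (Nat.mul_le_mul_right _ (le_sup (f := C') ha'))⟩

theorem final (d : ℕ) (hd : 1 ≤ d) : ∃ D : ℕ, ∃ ε : ℝ, 0 < ε ∧ ∀ N : ℕ, ∃ n : ℕ,
    ∃ T : Finset (Finset (Fin n)), N ≤ n ∧ (∀ τ ∈ T, τ.card = d + 1) ∧
      (∀ v : Fin n, 1 ≤ vertexDegree T v ∧ vertexDegree T v ≤ D) ∧ (skeleton T).Connected ∧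
      ∀ i : ℕ, i < d → ∀ f : Finset (Fin n) → ZMod 2, ∃ b : Finset (Fin n) → ZMod 2,
        IsCoboundaryClass i b ∧
          ε * cochainNorm d T i (f - b) ≤ cochainNorm d T (i + 1) (coboundary i f) := by
  set N := (d + 2) ^ 2 with hN
  have hN3 : 2 * d + 2 ≤ N := by nlinarith
  obtain ⟨r, p₀, hB⟩ := exists_big N
  obtain ⟨l, hl, hE⟩ := expand_all N d (2 ^ N * r)
  obtain ⟨p, hp₁, hp⟩ := Nat.exists_infinite_primes (p₀ + 3 + ⌈((N : ℝ) + 2 + 1 / l) ^ 2⌉₊)
  have := Fact.mk hp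
  have hcard : Nat.card (ZMod p) = p := Nat.card_zmod p
  have hsq : (N : ℝ) + 2 + 1 / l ≤ √(Nat.card (ZMod p)) := by
    rw [hcard]
    refine Real.le_sqrt_of_sq_le ((Nat.le_ceil _).trans ?_)
    exact_mod_cast le_trans (Nat.le_add_left _ _) hp₁
  have hl' : 0 < 1 / l := by positivity
  have h2 : (2 : ZMod p) ≠ 0 := by
    intro h
    have := (ZMod.natCast_eq_zero_iff 2 p).1 (by exact_mod_cast h)
    have := Nat.le_of_dvd two_pos this
    omega
  have hB' : ∀ (A : Type) [AddCommGroup A] [Module (ZMod 2) A], Big (ZMod p) A N r :=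
    fun A _ _ => hB (ZMod p) A (by omega)
  obtain ⟨C', hC'⟩ := hE (p ^ (N * N))
  obtain ⟨D', ε, hε, hR⟩ := realise N d (p ^ (N * N)) C' hd (by omega)
  refine ⟨D', ε, hε, fun n₀ => ?_⟩
  obtain ⟨R, _, _, _, P, hn⟩ := exists_par (ZMod p) h2 (n₀ * p ^ (N * N))
  have hD : ∀ c : Fin N, Nat.card (H P {c}) ≤ p ^ (N * N) := fun c => by
    have : H P {c} = Hc P c := by ext g; simp [mem_H]
    rw [this]
    simpa [hcard] using card_Hc_le (P := P) c
  have hA : AngAll (H P : Finset (Fin N) → _) l := fun K i j h h' h'' => by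
    refine (angAll (P := P) (by omega) (by linarith) K i j h h' h'').mono ?_
    rw [div_le_iff₀ (by linarith)]
    calc (1 : ℝ) = l * (1 / l) := by field_simp
      _ ≤ _ := by gcongr; linarith
  obtain ⟨n, T, h1, h⟩ := hR (Fin N) (Iw P N) (H P) (Fintype.card_fin N) (by simp [mem_H]) hD
    fun a _ ha => hC' (Fin N) (Iw P N) (H P) (Fintype.card_fin N) H_anti
      (by ext g; simp [mem_H]) hA hD a ha
      (link_lke (hB' _) (Nat.pow_le_pow_left (by omega) 2)) (vanish_two hB' (by omega))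
  refine ⟨n, T, ?_, h⟩
  have h3 := (hn.trans (card_le_card_Iw (P := P) (N := N) (by omega))).trans
    (Nat.card_eq_fintype_card.le.trans h1)
  exact Nat.le_of_mul_le_mul_right h3 (pow_pos hp.pos _)

end

end Crest.Agent.R66
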