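import Crest.Agent.R66.Morse

/-! Row 66: one nontrivial character. -/

set_option autoImplicit false
set_option linter.unusedSectionVars false

namespace Crest.Agent.R66

open Finset Matrix
open scoped Classical

noncomputable section

variable {F R : Type} [Field F] [CommRing R] [Algebra F R] [Finite R] {P : Par F R} {N : ℕ}
  {k : Type} [Field k] [Algebra (ZMod 2) k] {r a : ℕ} {D S : Finset (Fin N)}

/-- A finite vector space over a field of odd characteristic has odd cardinality. -/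
theorem odd_card_module {V : Type} [AddCommGroup V] [Module F V] [Finite V] (h2 : (2 : F) ≠ 0) :
    Odd (Nat.card V) := by
  rw [← Nat.not_even_iff_odd, even_iff_two_dvd]
  intro h
  have := Fact.mk Nat.prime_two
  obtain ⟨x, hx⟩ := exists_prime_addOrderOf_dvd_card' 2 h
  have h1 : (2 : F) • x = 0 := by
    rw [two_smul, ← two_nsmul, ← hx, addOrderOf_nsmul_eq_zero]
  rw [(smul_eq_zero.1 h1).resolve_left h2] at hx
  simp at hx

/-- Orthogonality. -/
theorem sum_dual {V : Type} [AddCommGroup V] [Module F V] [Fintype (Module.Dual F V)]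
    (h2 : (2 : F) ≠ 0) {ψ : AddChar F k} (hψ : ψ ≠ 1) (u : V) :
    ∑ Θ : Module.Dual F V, ψ (Θ u) = if u = 0 then 1 else 0 := by
  split_ifs with hu
  · simp only [hu, map_zero, AddChar.map_zero_eq_one, sum_const, card_univ]
    exact odd_nsmul (by rw [← Nat.card_eq_fintype_card]; exact odd_card_module h2) 1
  obtain ⟨x, hx⟩ := AddChar.ne_one_iff.1 hψ
  obtain ⟨Θ₁, h1⟩ := not_forall.1 (mt (Module.forall_dual_apply_eq_zero_iff F u).1 hu)
  have := Equiv.sum_comp (Equiv.addLeft ((x / Θ₁ u) • Θ₁)) fun Θ : Module.Dual F V => ψ (Θ u)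
  simp only [Equiv.coe_addLeft, LinearMap.add_apply, LinearMap.smul_apply, smul_eq_mul,
    div_mul_cancel₀ x h1, AddChar.map_add_eq_mul, ← mul_sum] at this
  exact (mul_left_eq_self₀.1 this).resolve_left hx

/-- The functional on column `m`. -/
def four_th (Θ : Module.Dual F (Matrix (Fin N) (Fin N) R)) (m : Fin N) :
    Module.Dual F (Fin N → R) where
  toFun v := Θ (of fun i j => if j = m then v i else 0)
  map_add' v w := by
    rw [← map_add]; congr 1; ext i j; simp only [of_apply, Matrix.add_apply, Pi.add_apply]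
    split_ifs <;> simp
  map_smul' x v := by
    rw [RingHom.id_apply, ← map_smul]; congr 1; ext i j
    simp only [of_apply, Matrix.smul_apply, Pi.smul_apply]
    split_ifs <;> simp

lemma four_th_sum (Θ : Module.Dual F (Matrix (Fin N) (Fin N) R)) (M : Matrix (Fin N) (Fin N) R) :
    Θ M = ∑ m, four_th Θ m fun i => M i m := by
  simp only [four_th, LinearMap.coe_mk, AddHom.coe_mk, ← map_sum]
  congr 1; ext i j
  simp [Matrix.sum_apply]

lemma four_col (M u : Matrix (Fin N) (Fin N) R) (m : Fin N) :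
    (fun i => (M * u) i m) = ∑ i, M *ᵥ Pi.single i (u i m) := by
  funext l
  simp [mul_apply, Finset.sum_apply, mulVec_single, mul_comm]

lemma four_sub_one {A B : Finset (Fin N)} {e : Iw P N} (he : e ∈ GG P A B) {i j : Fin N}
    (h : i ∉ A ∨ j ∉ B) : (mat e - 1) i j = 0 := by
  rw [Matrix.sub_apply, mem_GG.1 he i j h, sub_self]

lemma four_add (hd : Disjoint D S) {e e' : Iw P N} (he : e ∈ GG P D S) (he' : e' ∈ GG P D S) :
    mat (e * e') - 1 = (mat e - 1) + (mat e' - 1) := by
  have : (mat e - 1) * (mat e' - 1) = 0 := by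
    ext i j
    rw [mul_apply]
    refine sum_eq_zero fun l _ => ?_
    by_cases hl : l ∈ S
    · rw [four_sub_one he' (.inl (disjoint_right.1 hd hl)), mul_zero]
    · rw [four_sub_one he (.inr hl), zero_mul]
  rw [mat_mul, ← sub_eq_zero, ← this]
  noncomm_ring

lemma four_uniq (hd : Disjoint D S) {e e' g g' : Iw P N} (he : e ∈ GG P D S) (he' : e' ∈ GG P D S)
    (hg : g ∈ GG P D D) (hg' : g' ∈ GG P D D) (h : e * g = e' * g') : e = e' ∧ g = g' := by
  have h1 : e'⁻¹ * e = g' * g⁻¹ := by rw [inv_mul_eq_iff_eq_mul, ← mul_assoc, ← h]; group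
  have h2 : e'⁻¹ * e = 1 := mat_injective (by
    ext i j
    by_cases hj : j ∈ S
    · rw [h1]; exact mem_GG.1 (mul_mem hg' (inv_mem hg)) i j (.inr (disjoint_right.1 hd hj))
    · exact mem_GG.1 (mul_mem (inv_mem he') he) i j (.inr hj))
  obtain rfl : e' = e := inv_mul_eq_one.1 h2
  exact ⟨rfl, mul_left_cancel h⟩

lemma four_le_E (K : Finset (Fin N)) : Fam P D S K ≤ Fam P D (D ∪ S) K :=
  inf_le_inf_right _ (GG_mono Subset.rfl subset_union_right)

lemma four_le_G (K : Finset (Fin N)) : Fam P D D K ≤ Fam P D (D ∪ S) K :=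
  inf_le_inf_right _ (GG_mono Subset.rfl subset_union_left)

/-- The vectors `bv D j`, `j > m`, span the column space. -/
lemma four_span {m : Fin N} (hm : m ∉ D) (φ : Module.Dual F (Fin N → R))
    (h : ∀ j, (m : ℕ) < j → φ (bv P D j) = 0) {i : Fin N} (hi : i ∈ D) (y : R) :
    φ (Pi.single i (y * eps P i m)) = 0 := by
  have hN := i.pos
  have him : (i : ℕ) ≠ m := fun h => hm (Fin.ext h ▸ hi)
  have hb : ∀ n : ℕ, bv P D (i + N * n) = Pi.single i (P.t ^ n) := fun n => by
    funext l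
    rw [bv, Nat.add_mul_mod_self_left, Nat.mod_eq_of_lt i.2, Nat.add_mul_div_left _ _ hN,
      Nat.div_eq_of_lt i.2, zero_add, Pi.single_apply]
    by_cases hl : l = i
    · simp [hl, hi]
    · rw [if_neg hl, if_neg fun h => hl (Fin.ext h.2.symm)]
  have h1 : ∀ n : ℕ, φ (Pi.single i (P.t ^ n * eps P i m)) = 0 := fun n => by
    have := m.2
    rw [eps]
    split_ifs with h'
    · rw [← pow_succ, ← hb]
      exact h _ (by nlinarith)
    · rw [mul_one, ← hb]
      exact h _ (by rw [Fin.lt_def] at h'; omega)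
  obtain ⟨s, hs⟩ := P.nil
  have h2 : ∀ n, n ≤ s → ∀ y : R, φ (Pi.single i (P.t ^ n * y * eps P i m)) = 0 := fun n hn => by
    induction hn using Nat.decreasingInduction with
    | self => simp [hs]
    | of_succ n _ ih =>
      intro y
      obtain ⟨x, y', rfl⟩ := P.span y
      have : P.t ^ n * (algebraMap F R x + P.t * y') * eps P i m =
          x • (P.t ^ n * eps P i m) + P.t ^ (n + 1) * y' * eps P i m := by
        rw [Algebra.smul_def]; ring
      rw [this, Pi.single_add, Pi.single_smul, map_add, map_smul, h1, ih, smul_zero, add_zero]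
  simpa using h2 0 s.zero_le y

lemma four_nested {c c' m i : Fin N} (hc : c ≠ m) (h : rk m c' ≤ rk m c) (h' : rk c' m < rk c' i) :
    rk c m < rk c i := by
  have := c.2; have := c'.2; have := m.2; have := i.2
  simp only [rk, ne_eq, Fin.ext_iff] at *
  split_ifs at * <;> omega

/-- One nontrivial character.  Let `Q = GG D (D ∪ S)`, `E = GG D S`, `G' = GG D D`,
`χ e = ψ (Θ (mat e - 1))` (a character of `E`), `θ m v = Θ (of fun i j => if j = m then v i else 0)`.
Sketch: `res (· ∈ G') c` is supported on the set `U` of `morse`: if `q ∈ G'` and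
`θ m (mat q *ᵥ Pi.single i (eps i m)) ≠ 0` for an `i ∈ D` in the windows of all `c ∈ K` (the windows
are nested: take `c ∈ K` minimising `rk m c`), then for `e = xr i m x ∈ Fam D S K` with
`ψ (x * θ …) ≠ 1` we get `c K q = c K (q * e) = c K ((q * e * q⁻¹) * q) = χ (q * e * q⁻¹) * c K q`
(`mat_conj`); for `K = ∅` use `hΘ`.  The hypothesis `hθ` of `morse` follows from `hΘ`: the vectors
`bv D j`, `j > m`, span the column space at `m` (`P.span`, `P.nil`) and `q` acts bijectively on `E`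
by conjugation.  `morse` gives `b`; extend it to `Q` by `b' K (e * g) = χ e * b K g` (`split`; the
decomposition is unique) and by zero; `b'` is invariant since `χ (g * e * g⁻¹) = 1` for
`e ∈ Fam D S K` and `U K g`. -/
theorem four_one (hB : Big F k N r) (ha : a + 1 ≤ #D) (hd : Disjoint D S) {ψ : AddChar F k}
    (hψ : ψ ≠ 1) (Θ : Module.Dual F (Matrix (Fin N) (Fin N) R))
    (hΘ : ∃ e ∈ GG P D S, Θ (mat e - 1) ≠ 0) {c : Finset (Fin N) → Iw P N → k}
    (hc : Inv (Fam P D (D ∪ S)) c) (hco : Coc Al a c)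
    (he : ∀ K, ∀ e ∈ GG P D S, ∀ q ∈ GG P D (D ∪ S), c K (e * q) = ψ (Θ (mat e - 1)) * c K q) :
    Exa (Fam P D (D ∪ S)) (fun _ q => q ∈ GG P D (D ∪ S)) a c := by
  obtain ⟨x₀, hx₀⟩ := AddChar.ne_one_iff.1 hψ
  obtain ⟨e₀, he₀, hΘ⟩ := hΘ
  have hGQ : GG P D D ≤ GG P D (D ∪ S) := GG_mono Subset.rfl subset_union_left
  have hEQ : GG P D S ≤ GG P D (D ∪ S) := GG_mono Subset.rfl subset_union_right
  have kill : ∀ K, ∀ q ∈ GG P D (D ∪ S), ∀ u : Matrix (Fin N) (Fin N) R,
      (∀ x : F, ∃ e ∈ Fam P D S K, mat e = 1 + x • u) → Θ (mat q * u) ≠ 0 → c K q = 0 := by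
    intro K q hq u hu h
    obtain ⟨e, he1, he2⟩ := hu (x₀ / Θ (mat q * u))
    have h1 := he K _ ((conj_mem_GG hd hq e).2 he1.1) q hq
    rw [inv_mul_cancel_right, hc K q e (four_le_E K he1), mat_conj hd hq he1.1, he2,
      add_sub_cancel_left, add_sub_cancel_left, Matrix.mul_smul, map_smul, smul_eq_mul,
      div_mul_cancel₀ _ h] at h1
    exact (mul_left_eq_self₀.1 h1.symm).resolve_left hx₀
  have hent : ∀ e ∈ GG P D S, ∀ i j, ∃ y, (mat e - 1) i j = y * eps P i j := fun e he i j => by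
    by_cases hij : i = j
    · subst hij
      refine ⟨0, ?_⟩
      rw [zero_mul, four_sub_one he]
      by_cases hi : i ∈ D
      exacts [.inr (disjoint_left.1 hd hi), .inl hi]
    · rw [Matrix.sub_apply, one_apply_ne hij, sub_zero]
      exact exists_entry e hij
  -- the column on which `Θ` is nontrivial
  obtain ⟨m₀, hm₀'⟩ : ∃ m, four_th Θ m (fun i => (mat e₀ - 1) i m) ≠ 0 := by
    by_contra! h
    exact hΘ (by rw [four_th_sum]; exact sum_eq_zero fun m _ => h m)
  have hm₀ : m₀ ∈ S := by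
    by_contra h
    exact hm₀' (by simp only [four_sub_one he₀ (.inr h)]; exact map_zero _)
  have hθ : ∀ q ∈ GG P D D, ∃ j, (m₀ : ℕ) < j ∧ four_th Θ m₀ (mat q *ᵥ bv P D j) ≠ 0 := by
    intro q hq
    by_contra! h
    have h1 := (conj_mem_GG hd (inv_mem (hGQ hq)) e₀).2 he₀
    have h2 : mat e₀ - 1 = mat q * (mat (q⁻¹ * e₀ * q⁻¹⁻¹) - 1) := by
      rw [mat_conj hd (inv_mem (hGQ hq)) he₀, add_sub_cancel_left, ← mul_assoc, ← mat_mul,
        mul_inv_cancel, mat_one, one_mul]
    refine hm₀' ?_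
    rw [h2, four_col, map_sum]
    refine sum_eq_zero fun i _ => ?_
    by_cases hi : i ∈ D
    · obtain ⟨y, hy⟩ := hent _ h1 i m₀
      rw [hy]
      exact four_span (disjoint_right.1 hd hm₀)
        (four_th Θ m₀ ∘ₗ ((mat q).mulVecLin.restrictScalars F)) h hi y
    · rw [four_sub_one h1 (.inl hi), Pi.single_zero, mulVec_zero, map_zero]
  set U : Finset (Fin N) → Iw P N → Prop :=
    fun K q => q ∈ GG P D D ∧ ∀ m ∈ S, ∃ c ∈ K, Bad D (four_th Θ m) m c q with hU
  have hsupp : ∀ K, ∀ q ∈ GG P D D, ¬ U K q → c K q = 0 := by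
    intro K q hq h
    simp only [hU, not_and, not_forall, not_exists] at h
    obtain ⟨m, hm, h⟩ := h hq
    rcases K.eq_empty_or_nonempty with rfl | hK
    · have h1 := (conj_mem_GG hd (inv_mem (hGQ hq)) e₀).2 he₀
      refine kill ∅ q (hGQ hq) (mat (q⁻¹ * e₀ * q⁻¹⁻¹) - 1) (fun x => ?_) ?_
      · obtain ⟨e, he1, he2⟩ := exists_mem_GG (P := P) hd (x • (mat (q⁻¹ * e₀ * q⁻¹⁻¹) - 1))
          (fun i j h => by rw [Matrix.smul_apply, four_sub_one h1 h, smul_zero]) fun i j => by
            obtain ⟨y, hy⟩ := hent _ h1 i j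
            exact ⟨x • y, by rw [Matrix.smul_apply, hy, smul_mul_assoc]⟩
        exact ⟨e, mem_Fam.2 ⟨he1, by simp⟩, he2⟩
      · rwa [mat_conj hd (inv_mem (hGQ hq)) he₀, add_sub_cancel_left, ← mul_assoc, ← mat_mul,
          mul_inv_cancel, mat_one, one_mul]
    obtain ⟨c₁, hc₁, hmin⟩ := K.exists_min_image (rk m) hK
    have h1 := h c₁ hc₁
    simp only [Bad, not_forall] at h1
    obtain ⟨i, hi, hr, h1⟩ := h1
    have him : i ≠ m := by rintro rfl; exact lt_irrefl _ hr
    refine kill K q (hGQ hq) (single i m (eps P i m)) (fun x => ⟨xr P him (algebraMap F R x),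
      mem_Fam.2 ⟨xr_mem_GG _ _ hi hm, fun c hc => (xr_mem_Hc _ _).2 (.inr ⟨?_, x, ?_⟩)⟩, ?_⟩) ?_
    · refine four_nested ?_ (hmin c hc) hr
      rintro rfl
      exact h c hc fun i _ h => ((rk_le_self c i).not_gt h).elim
    · rw [Algebra.smul_def]
    · rw [mat_xr, smul_single, Algebra.smul_def]
    · convert h1 using 1
      simp only [four_th, LinearMap.coe_mk, AddHom.coe_mk]
      congr 1; ext l j
      by_cases hj : j = m
      · simp [hj, mulVec_single]
      · simp [hj]
  obtain ⟨b, hb, hbs, hbe⟩ := morse (θ := four_th Θ) hB ha hd hm₀ hθ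
    (res (fun _ q => q ∈ GG P D D) c)
    ((hc.mono four_le_G).res fun K q γ hγ => (GG P D D).mul_mem_cancel_right hγ.1)
    (fun K q h => by
      by_cases hq : q ∈ GG P D D
      · rw [res_of (U := fun _ q => q ∈ GG P D D) hq]; exact hsupp K q hq h
      · exact res_of_not (U := fun _ q => q ∈ GG P D D) hq)
    (fun M q hM h => by
      rw [← hco M q hM trivial]
      exact sum_congr rfl fun i _ => res_of (U := fun _ q => q ∈ GG P D D) h.1)
  have hsp : ∀ q ∈ GG P D (D ∪ S), ∃ e ∈ GG P D S, ∃ g ∈ GG P D D, q = e * g := fun q hq => by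
    obtain ⟨e, he, g, hg, h⟩ := split (K := ∅) hd (mem_Fam.2 ⟨hq, by simp⟩)
    exact ⟨e, he.1, g, hg.1, h⟩
  choose! ee hee gg hgg hq using hsp
  set b' : Finset (Fin N) → Iw P N → k := fun K q =>
    if q ∈ GG P D (D ∪ S) then ψ (Θ (mat (ee q) - 1)) * b K (gg q) else 0 with hb'
  have key : ∀ K, ∀ e ∈ GG P D S, ∀ g ∈ GG P D D,
      b' K (e * g) = ψ (Θ (mat e - 1)) * b K g := fun K e he g hg => by
    have h := mul_mem (hEQ he) (hGQ hg)
    obtain ⟨h1, h2⟩ := four_uniq hd he (hee _ h) hg (hgg _ h) (hq _ h)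
    simp only [hb', if_pos h, ← h1, ← h2]
  refine ⟨b', fun K q γ hγ => ?_, fun K q h => if_neg h, fun K q hK h => ?_⟩
  · by_cases h : q ∈ GG P D (D ∪ S)
    swap
    · simp only [hb', if_neg h, if_neg (mt ((GG P D (D ∪ S)).mul_mem_cancel_right hγ.1).1 h)]
    obtain ⟨e₂, he₂, g₂, hg₂, rfl⟩ := split hd hγ
    have h1 := (conj_mem_GG hd (hGQ (hgg q h)) e₂).2 he₂.1
    have h2 : q * (e₂ * g₂) = (ee q * (gg q * e₂ * (gg q)⁻¹)) * (gg q * g₂) := by
      conv_lhs => rw [hq q h]
      group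
    rw [h2, key K _ (mul_mem (hee q h) h1) _ (mul_mem (hgg q h) hg₂.1), hb K _ _ hg₂,
      four_add hd (hee q h) h1, map_add, AddChar.map_add_eq_mul]
    conv_rhs => rw [hq q h, key K _ (hee q h) _ (hgg q h)]
    by_cases hu : U K (gg q)
    swap
    · rw [hbs K _ hu, mul_zero, mul_zero]
    have : Θ (mat (gg q * e₂ * (gg q)⁻¹) - 1) = 0 := by
      rw [mat_conj hd (hGQ (hgg q h)) he₂.1, add_sub_cancel_left, four_th_sum]
      refine sum_eq_zero fun m _ => ?_
      rw [four_col, map_sum]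
      refine sum_eq_zero fun i _ => ?_
      by_cases hm : i ∉ D ∨ m ∉ S
      · simp [four_sub_one he₂.1 hm]
      push Not at hm
      obtain ⟨c, hc, hbad⟩ := hu.2 m hm.2
      have him : i ≠ m := by rintro rfl; exact disjoint_left.1 hd hm.1 hm.2
      have h3 := mem_Hc.1 ((mem_Fam.1 he₂).2 c hc) i m
      rw [Matrix.sub_apply]
      by_cases hr : rk c m < rk c i
      · obtain ⟨x, hx⟩ := h3.1 hr
        rw [hx, one_apply_ne him, sub_zero, Pi.single_smul, mulVec_smul, map_smul,
          hbad i hm.1 hr, smul_zero]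
      · simp [h3.2 hr]
    rw [this, AddChar.map_zero_eq_one, mul_one]
  · rw [hq q h, he K _ (hee q h) _ (hGQ (hgg q h)), dl]
    simp only [key _ _ (hee q h) _ (hgg q h), ← mul_sum]
    congr 1
    by_cases hu : U K (gg q)
    · rw [← res_of (U := fun _ q => q ∈ GG P D D) (c := c) (hgg q h)]
      exact hbe K _ hK hu
    · rw [hsupp K _ (hgg q h) hu]
      refine (sum_eq_zero fun i _ => hbs _ _ fun h' => hu ⟨h'.1, fun m hm => ?_⟩).symm
      obtain ⟨c, hc, hbad⟩ := h'.2 m hm
      exact ⟨c, mem_of_mem_erase hc, hbad⟩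

end

end Crest.Agent.R66
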