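import Crest.Agent.R66.Basic

/-! Row 66: root elements. -/

set_option autoImplicit false
set_option linter.unusedSectionVars false

namespace Crest.Agent.R66

open Finset Matrix
open scoped Classical

noncomputable section

variable {F R : Type} [Field F] [CommRing R] [Algebra F R] [Finite R] {P : Par F R} {N : ℕ}

lemma rk_lt (c i : Fin N) : rk c i < N := by
  have := i.2; have := c.2
  simp only [rk]
  split_ifs <;> omega

lemma rk_le_self (c i : Fin N) : rk c i ≤ rk c c := by
  have := i.2; have := c.2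
  simp only [rk]
  split_ifs <;> omega

/-- Sketch: `P.t ≠ 0` makes `R` nontrivial. -/
theorem eps_ne_zero (i j : Fin N) : eps P i j ≠ 0 := by
  unfold eps
  split_ifs
  · exact P.ne
  · intro h
    exact P.ne (by rw [← mul_one P.t, h, mul_zero])

theorem smul_eps_inj {i j : Fin N} {x y : F} (h : x • eps P i j = y • eps P i j) : x = y := by
  by_contra hne
  have h1 : (x - y) • eps P i j = 0 := by rw [sub_smul, h, sub_self]
  have h2 : eps P i j = 0 := by
    have := congrArg (fun z => (x - y)⁻¹ • z) h1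
    simpa [smul_smul, inv_mul_cancel₀ (sub_ne_zero.2 hne)] using this
  exact eps_ne_zero i j h2

/-- Entries are multiples of `eps`. -/
theorem exists_entry (g : Iw P N) {i j : Fin N} (h : i ≠ j) : ∃ y, mat g i j = y * eps P i j := by
  unfold eps
  split_ifs with hij
  · obtain ⟨y, hy⟩ := mat_dvd g hij.le
    rw [one_apply_ne h, sub_zero] at hy
    exact ⟨y, by rw [hy, mul_comm]⟩
  · exact ⟨mat g i j, (mul_one _).symm⟩

/-- Sketch: `1 + t * y` with `t` nilpotent. -/
theorem isUnit_diag (g : Iw P N) (i : Fin N) : IsUnit (mat g i i) := by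
  obtain ⟨y, hy⟩ := mat_dvd g (le_refl i)
  rw [one_apply_eq, sub_eq_iff_eq_add] at hy
  rw [hy]
  exact ((Commute.all _ _).isNilpotent_mul_right P.nil).isUnit_add_one

theorem xr_add {i j : Fin N} (h : i ≠ j) (y z : R) : xr P h (y + z) = xr P h y * xr P h z := by
  apply mat_injective
  rw [mat_mul, mat_xr, mat_xr, mat_xr, add_mul, single_add, Matrix.mul_add, Matrix.add_mul,
    Matrix.add_mul, single_mul_single_of_ne _ _ _ _ h.symm]
  simp only [Matrix.one_mul, Matrix.mul_one, add_zero]
  abel

theorem xr_zero {i j : Fin N} (h : i ≠ j) : xr P h 0 = 1 := by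
  apply mat_injective
  rw [mat_xr, zero_mul, single_zero, add_zero, mat_one]

theorem xr_mem_GG {A B : Finset (Fin N)} {i j : Fin N} (h : i ≠ j) (y : R) (hi : i ∈ A)
    (hj : j ∈ B) : xr P h y ∈ GG P A B := by
  refine mem_GG.2 fun k l hkl => ?_
  rw [mat_xr, Matrix.add_apply, single_apply, if_neg, add_zero]
  rintro ⟨rfl, rfl⟩
  exact hkl.elim (fun h => h hi) fun h => h hj

theorem xr_mem_Hc {c i j : Fin N} (h : i ≠ j) (y : R) : xr P h y ∈ Hc P c ↔
    y * eps P i j = 0 ∨ rk c j < rk c i ∧ ∃ x : F, y * eps P i j = x • eps P i j := by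
  constructor
  · intro hx
    have h1 := mem_Hc.1 hx i j
    rw [mat_xr, Matrix.add_apply, single_apply_same, one_apply_ne h, zero_add] at h1
    by_cases hr : rk c j < rk c i
    · exact .inr ⟨hr, h1.1 hr⟩
    · exact .inl (h1.2 hr)
  · intro hx
    refine mem_Hc.2 fun k l => ?_
    rw [mat_xr, Matrix.add_apply, single_apply]
    split_ifs with hkl
    · obtain ⟨rfl, rfl⟩ := hkl
      rw [one_apply_ne h, zero_add]
      rcases hx with h0 | ⟨hr, h1⟩
      · exact ⟨fun _ => ⟨0, by rw [h0, zero_smul]⟩, fun _ => h0⟩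
      · exact ⟨fun _ => h1, fun h' => absurd hr h'⟩
    · rw [add_zero]
      refine ⟨fun hr => ⟨0, ?_⟩, fun _ => rfl⟩
      rw [zero_smul, one_apply_ne]
      rintro rfl
      exact lt_irrefl _ hr

theorem xr_congr {i j : Fin N} (h : i ≠ j) {y z : R} (hyz : y * eps P i j = z * eps P i j) :
    xr P h y = xr P h z := by
  apply mat_injective
  rw [mat_xr, mat_xr, hyz]

lemma grp_xr_inv {i j : Fin N} (h : i ≠ j) (y : R) : (xr P h y)⁻¹ = xr P h (-y) := by
  rw [inv_eq_iff_mul_eq_one, ← xr_add, add_neg_cancel, xr_zero]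

lemma grp_eps_cor {i m j : Fin N} (h1 : i ≠ m) (h2 : m ≠ j) (h3 : i ≠ j) :
    eps P i m * eps P m j = (if rk j m < rk j i then 1 else P.t) * eps P i j := by
  have := i.2; have := m.2; have := j.2
  simp only [rk, eps, Fin.lt_def, ne_eq, Fin.ext_iff] at *
  split_ifs <;> first | omega | simp

/-- The commutator relation.  Sketch: `eps i m * eps m j = cor * eps i j` by `omega` on the six
orders of `i, m, j`. -/
theorem xr_comm {i m j : Fin N} (h1 : i ≠ m) (h2 : m ≠ j) (h3 : i ≠ j) (y z : R) :
    xr P h1 y * xr P h2 z * (xr P h1 y)⁻¹ * (xr P h2 z)⁻¹ =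
      xr P h3 (y * z * if rk j m < rk j i then 1 else P.t) := by
  apply mat_injective
  rw [grp_xr_inv, grp_xr_inv, mat_mul, mat_mul, mat_mul, mat_xr, mat_xr, mat_xr, mat_xr, mat_xr,
    mul_assoc (y * z), ← grp_eps_cor h1 h2 h3, neg_mul, neg_mul, ← single_neg,
    ← single_neg]
  have e : y * z * (eps P i m * eps P m j) = y * eps P i m * (z * eps P m j) := by ring
  rw [e]
  generalize y * eps P i m = a
  generalize z * eps P m j = b
  rw [← single_mul_single_same a i m j b]
  have aa : single i m a * single i m a = 0 := single_mul_single_of_ne _ _ _ _ h1.symm _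
  have bb : single m j b * single m j b = 0 := single_mul_single_of_ne _ _ _ _ h2.symm _
  have ba : single m j b * single i m a = 0 := single_mul_single_of_ne _ _ _ _ h3.symm _
  generalize single i m a = X at *
  generalize single m j b = Y at *
  have h4 : (1 + X) * (1 + Y) * (1 + -X) * (1 + -Y) = 1 + X * Y - X * X - Y * X - Y * Y
      - X * (Y * X) - X * (Y * Y) + X * X * Y + Y * X * Y + X * (Y * X) * Y := by noncomm_ring
  rw [h4, aa, bb, ba]
  simp

end

end Crest.Agent.R66
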