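import Crest.Agent.R66.Fat

/-! Row 66: ladders (Evra-Kaufman). -/

set_option autoImplicit false
set_option linter.unusedSectionVars false

namespace Crest.Agent.R66

open Finset Matrix
open scoped Classical

noncomputable section

variable {I G : Type} [DecidableEq I] [Group G] [Fintype I] [Fintype G]
  {Γ : Finset I → Subgroup G} {φ : Finset I → G → ZMod 2} {η : ℕ → ℝ}

theorem lad_card_prod {X Y : Type} [Fintype X] [Fintype Y] (P : X → Prop) (Q : X → Y → Prop)
    [DecidablePred P] [∀ K, DecidablePred (Q K)]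
    [DecidablePred fun x : X × Y => P x.1 ∧ Q x.1 x.2] :
    #{x : X × Y | P x.1 ∧ Q x.1 x.2} = ∑ K with P K, #{q | Q K q} := by
  rw [card_filter, Fintype.sum_prod_type, sum_filter]
  refine sum_congr rfl fun K _ => ?_
  by_cases h : P K
  · simp only [h, true_and, if_true, card_filter]
  · simp [h]

theorem lad_zmod : ∀ u v w : ZMod 2, (u ≠ 0 → u = v) →
    ((if u ≠ 0 then 1 else 0) + if v + w ≠ 0 then 1 else 0) ≤
      (if u + w ≠ 0 then 1 else 0) + if v ≠ 0 then 1 else 0 := by decide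

theorem Lad.spec {j : ℕ} {K₀ K : Finset I} {q : G} (h : Lad Γ φ η j K₀ K q) :
    K₀ ⊆ K ∧ #K = #K₀ + j ∧ φ K q ≠ 0 ∧ Fat Γ φ η j K₀ q := by
  induction j generalizing K₀ with
  | zero => obtain ⟨rfl, h⟩ := h; exact ⟨Subset.refl _, rfl, h, h⟩
  | succ j ih =>
    obtain ⟨h1, i, hi, h2⟩ := h
    obtain ⟨h3, h4, h5, -⟩ := ih h2
    exact ⟨(subset_insert _ _).trans h3, by rw [h4, card_insert_of_notMem hi]; omega, h5, h1⟩

theorem Lad.inv (hΓ : Antitone Γ) (hφ : Inv Γ φ) (j : ℕ) (K₀ K : Finset I) (q : G) {γ : G}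
    (hγ : γ ∈ Γ K) : Lad Γ φ η j K₀ K (q * γ) ↔ Lad Γ φ η j K₀ K q := by
  induction j generalizing K₀ with
  | zero => simp only [Lad, Fat.inv hφ 0 K q hγ]
  | succ j ih =>
    by_cases h : K₀ ⊆ K
    · simp only [Lad, Fat.inv hφ (j + 1) K₀ q (hΓ h hγ), ih]
    · exact iff_of_false (fun h' => h h'.spec.1) fun h' => h h'.spec.1

/-- The swap lemma.  Sketch: induction on `j` (both parts together, for all `K₀`).  `j = 0`:
`K₀ = K = M.erase i'`.  Step, with `Lad j (insert k K₀) K`: if `i ∉ K₀` use part one (`i ≠ k`) or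
part two (`i = k`) of the hypothesis; if `i ∈ K₀`, part two gives a ladder from
`insert k (K₀.erase i)`, which is fat as is `K₀ = insert i (K₀.erase i)`; no dead end makes
`K₀.erase i` fat. -/
theorem Lad.swap {a j : ℕ} {K₀ K M : Finset I} {q : G} (hM : #M = a + 1) (hd : ¬ Dead Γ φ η a M q)
    (hj : #K₀ + j = a) (h : Lad Γ φ η j K₀ K q) (hK : K ⊆ M) {i : I} (hi : i ∈ M)
    (hφ : φ (M.erase i) q ≠ 0) :
    (i ∉ K₀ → Lad Γ φ η j K₀ (M.erase i) q) ∧
      (i ∈ K₀ → Lad Γ φ η (j + 1) (K₀.erase i) (M.erase i) q) := by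
  induction j generalizing K₀ with
  | zero =>
    obtain ⟨rfl, h⟩ := h
    refine ⟨fun hi' => ⟨eq_of_subset_of_card_le (subset_erase.2 ⟨hK, hi'⟩) ?_, hφ⟩, fun hi' => ?_⟩
    · rw [card_erase_of_mem hi]; omega
    obtain ⟨k, hk, hk'⟩ := exists_mem_notMem_of_card_lt_card (s := K₀) (t := M) (by omega)
    have hki : k ≠ i := by rintro rfl; exact hk' hi'
    have h1 : k ∉ K₀.erase i := fun h => hk' (mem_of_mem_erase h)
    have h2 : insert k (K₀.erase i) = M.erase i := by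
      refine eq_of_subset_of_card_le (insert_subset (mem_erase.2 ⟨hki, hk⟩) (erase_subset_erase _ hK))
        ?_
      rw [card_insert_of_notMem h1, card_erase_add_one hi', card_erase_of_mem hi]; omega
    refine ⟨?_, k, h1, h2, hφ⟩
    by_contra h3
    exact hd ⟨0, K₀.erase i, i, k, by rw [add_zero, card_erase_add_one hi']; omega, hki.symm,
      notMem_erase _ _, h1, hi, hk, (erase_subset _ _).trans hK, by rwa [insert_erase hi'],
      by rw [h2]; exact hφ, h3⟩
  | succ j ih =>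
    obtain ⟨h1, k, hk, h2⟩ := h
    obtain ⟨h3, h4⟩ := ih (by rw [card_insert_of_notMem hk]; omega) h2
    have h5 := h2.spec.1.trans hK
    refine ⟨fun hi' => ?_, fun hi' => ?_⟩
    · by_cases hik : i = k
      · subst hik
        simpa only [erase_insert hk] using h4 (mem_insert_self _ _)
      · exact ⟨h1, k, hk, h3 (by simp [hik, hi'])⟩
    · have hki : k ≠ i := by rintro rfl; exact hk hi'
      have h6 := h4 (mem_insert_of_mem hi')
      rw [erase_insert_of_ne hki] at h6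
      have h7 : k ∉ K₀.erase i := fun h => hk (mem_of_mem_erase h)
      refine ⟨?_, k, h7, h6⟩
      by_contra h8
      exact hd ⟨j + 1, K₀.erase i, i, k, by have := card_erase_add_one hi'; omega, hki.symm,
        notMem_erase _ _, h7, hi, h5 (mem_insert_self _ _),
        (erase_subset _ _).trans ((subset_insert _ _).trans h5), by rwa [insert_erase hi'],
        h6.spec.2.2.2, h8⟩

theorem sum_nrmL (Γ₀ : Subgroup G) (a : ℕ) (c : Finset I → G → ZMod 2) :
    ∑ q₀, nrmL Γ₀ q₀ a c = Nat.card Γ₀ * nrm a c := by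
  have h1 : ∀ K, ∑ q₀, #{x | x ∈ Γ₀ ∧ c K (q₀ * x) ≠ 0} = Nat.card Γ₀ * #{q | c K q ≠ 0} := by
    intro K
    have := sum_sm (B := ℤ) Γ₀ fun q => if c K q ≠ 0 then 1 else 0
    simp only [sm, sum_boole, filter_filter, nsmul_eq_mul] at this
    exact_mod_cast this
  simp only [nrmL, nrm]
  rw [sum_congr rfl fun q₀ _ => fat_card_prod (fun K => #K = a)
    fun K x => x ∈ Γ₀ ∧ c K (q₀ * x) ≠ 0, fat_card_prod (fun K => #K = a) fun K q => c K q ≠ 0,
    sum_comm, mul_sum]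
  exact sum_congr rfl fun K _ => h1 K

/-- Parts of locally minimal cochains expand.  Sketch: fix `q₀` and take `b` from `LkE`; `dl b` is
supported on the star.  Let `s c` be the number of `(K, x)` with `#K = a`, `K₀ ⊆ K`, `x ∈ Γ K₀`,
`c K (q₀ * x) ≠ 0`.  `LocMin` gives `s φ ≤ s (φ + dl b)`; `s (φ + dl b) ≤ s (ψ + dl b) + s (φ + ψ)`
and `s φ = s ψ + s (φ + ψ)`.  Sum over `q₀` with `sum_nrmL`. -/
theorem LocMin.part (hΓ : Antitone Γ) {a C : ℕ} (hm : LocMin Γ a φ) (hL : LkE Γ a C)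
    {K₀ : Finset I} (h0 : K₀.Nonempty) (h0' : #K₀ ≤ a) {ψ : Finset I → G → ZMod 2} (hψ : Inv Γ ψ)
    (hs : Supp (fun K _ => K₀ ⊆ K) ψ) (hψφ : ∀ K q, ψ K q ≠ 0 → ψ K q = φ K q) :
    nrm a ψ ≤ C * nrm (a + 1) (dl ψ) := by
  have key : ∀ q₀, nrmL (Γ K₀) q₀ a ψ ≤ C * nrmL (Γ K₀) q₀ (a + 1) (dl ψ) := by
    intro q₀
    obtain ⟨b, hb, hbs, hbn⟩ := hL K₀ h0 h0' ψ hψ hs q₀
    refine le_trans ?_ hbn
    have h1 := hm K₀ h0 q₀ b hb hbs
    have h2 : ∀ c : Finset I → G → ZMod 2,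
        nrm a c = #{x : Finset I × G | #x.1 = a ∧ c x.1 (q₀ * x.2) ≠ 0} := fun c =>
      (card_bijective (Prod.map id (q₀ * ·))
        (Function.bijective_id.prodMap (Group.mulLeft_bijective q₀)) fun x => by simp).symm
    have h3 : ∀ K x, ¬ (K₀ ⊆ K ∧ x ∈ Γ K₀) → dl b K (q₀ * x) = 0 := fun K x h =>
      sum_eq_zero fun i _ => hbs _ _ fun h' =>
        h ⟨h'.1.trans (erase_subset _ _), by simpa using h'.2⟩
    rw [h2, h2] at h1
    simp only [nrmL, card_filter] at h1 ⊢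
    refine le_of_add_le_add_right (le_trans (add_le_add_right h1 _) ?_)
    rw [← sum_add_distrib, ← sum_add_distrib]
    refine sum_le_sum fun x _ => ?_
    have h4 := hψφ x.1 (q₀ * x.2)
    have h5 := h3 x.1 x.2
    have h6 := hs x.1 (q₀ * x.2)
    simp only [Pi.add_apply]
    by_cases h7 : #x.1 = a
    · by_cases h8 : x.2 ∈ Γ K₀
      · by_cases h9 : K₀ ⊆ x.1
        · simp only [h7, h8, true_and]
          exact lad_zmod _ _ _ h4
        · simp [h5 fun h => h9 h.1, h6 h9]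
      · simp [h8, h5 fun h => h8 h.2]
    · simp [h7]
  have h := sum_le_sum fun q₀ (_ : q₀ ∈ univ) => key q₀
  rw [← mul_sum, sum_nrmL, sum_nrmL, mul_left_comm] at h
  exact Nat.le_of_mul_le_mul_left h Nat.card_pos

/-- Sketch: for `#K₀ + j = a` let `ψ = res (Lad j K₀) φ`.  If `dl ψ M q ≠ 0`, `#M = a + 1` and
`¬ Dead`, then some `Lad j K₀ (M.erase i') q` holds, `ψ (M.erase i) q = φ (M.erase i) q` for
`i ∉ K₀` (`Lad.swap`), so the cocycle condition gives `i ∈ K₀` with `φ (M.erase i) q ≠ 0` and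
`Lad (j + 1) (K₀.erase i) (M.erase i) q`.  The map `(K₀, M, q, i) ↦ (i, K₀.erase i, M.erase i, q)`
is injective. -/
theorem lad_le (hΓ : Antitone Γ) (hφ : Inv Γ φ) {a C : ℕ} (hco : Coc Al a φ) (hm : LocMin Γ a φ)
    (hL : LkE Γ a C) {j : ℕ} (hj : j < a) :
    lad Γ φ η a j ≤ C * (2 ^ Fintype.card I * ded Γ φ η a + Fintype.card I * lad Γ φ η a (j + 1)) := by
  set ψ : Finset I → Finset I → G → ZMod 2 := fun K₀ => res (Lad Γ φ η j K₀) φ with hψ
  have h1 : lad Γ φ η a j = ∑ K₀ with #K₀ + j = a, nrm a (ψ K₀) := by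
    rw [lad, lad_card_prod (fun K₀ : Finset I => #K₀ + j = a)
      fun K₀ (y : Finset I × G) => Lad Γ φ η j K₀ y.1 y.2]
    refine sum_congr rfl fun K₀ hK₀ => congrArg card (filter_congr fun y _ => ⟨fun h => ?_, ?_⟩)
    · exact ⟨h.spec.2.1.trans (mem_filter.1 hK₀).2, by rw [hψ]; simpa [res_of h] using h.spec.2.2.1⟩
    · exact fun h => by_contra fun h' => h.2 (res_of_not h')
  have h2 : ∀ K₀, #K₀ + j = a → nrm a (ψ K₀) ≤ C * nrm (a + 1) (dl (ψ K₀)) := fun K₀ h =>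
    hm.part hΓ hL (card_pos.1 (by omega)) (by omega)
      (hφ.res fun K q γ hγ => Lad.inv hΓ hφ j K₀ K q hγ)
      (supp_res.mono fun K q h => h.spec.1) fun K q h => res_of (by_contra fun h' => h (res_of_not h'))
  rw [h1]
  refine (sum_le_sum fun K₀ h => h2 K₀ (mem_filter.1 h).2).trans ?_
  rw [← mul_sum]
  refine Nat.mul_le_mul_left _ ?_
  simp only [nrm]
  rw [← lad_card_prod (fun K₀ : Finset I => #K₀ + j = a)
    fun K₀ (y : Finset I × G) => #y.1 = a + 1 ∧ dl (ψ K₀) y.1 y.2 ≠ 0]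
  refine (card_le_card (t := univ ×ˢ
      (univ.filter fun x : Finset I × G => #x.1 = a + 1 ∧ Dead Γ φ η a x.1 x.2) ∪
    univ.biUnion fun i => image (fun y => (insert i y.1, insert i y.2.1, y.2.2))
      {x : Finset I × Finset I × G | #x.1 + (j + 1) = a ∧ Lad Γ φ η (j + 1) x.1 x.2.1 x.2.2})
    ?_).trans ((card_union_le _ _).trans (add_le_add ?_ (card_biUnion_le.trans ?_)))
  · rintro ⟨K₀, M, q⟩ hx
    obtain ⟨h3, h4, h5⟩ := (mem_filter.1 hx).2
    simp only at h3 h4 h5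
    by_cases hd : Dead Γ φ η a M q
    · exact mem_union_left _ (by simp [h4, hd])
    obtain ⟨i', -, h6⟩ := exists_ne_zero_of_sum_ne_zero h5
    have h7 : Lad Γ φ η j K₀ (M.erase i') q := by_contra fun h' => h6 (res_of_not h')
    have h8 : ∃ i ∈ K₀, φ (M.erase i) q ≠ 0 := by
      by_contra h
      push Not at h
      refine h5 (Eq.trans (sum_congr rfl fun i hi => ?_) (hco M q h4 trivial))
      by_cases h9 : φ (M.erase i) q = 0
      · simp [hψ, res, h9]
      · exact res_of ((h7.swap h4 hd h3 (erase_subset _ _) hi h9).1 fun h' => h9 (h i h'))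
    obtain ⟨i, hi, h9⟩ := h8
    have hi' : i ∈ M := (h7.spec.1.trans (erase_subset _ _)) hi
    refine mem_union_right _ (mem_biUnion.2 ⟨i, mem_univ _, mem_image.2 ⟨(K₀.erase i, M.erase i, q),
      mem_filter.2 ⟨mem_univ _, ?_, (h7.swap h4 hd h3 (erase_subset _ _) hi' h9).2 hi⟩, ?_⟩⟩)
    · have := card_erase_add_one hi
      simp only; omega
    · simp only [insert_erase hi, insert_erase hi']
  · rw [card_product, card_univ, Fintype.card_finset, ded]
  · refine (sum_le_sum fun i _ => card_image_le).trans ?_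
    rw [sum_const, card_univ, smul_eq_mul, lad]

theorem lad_zero (a : ℕ) : lad Γ φ η a 0 = nrm a φ := by
  refine (card_bij (fun (x : Finset I × G) _ => (x.1, x.1, x.2)) (fun x hx => ?_)
    (fun x _ y _ h => ?_) fun y hy => ?_).symm
  · simpa [Lad, Fat] using hx
  · simp only [Prod.mk.injEq] at h
    exact Prod.ext h.1 h.2.2
  · obtain ⟨K₀, K, q⟩ := y
    obtain ⟨h1, h3, h2⟩ := (mem_filter.1 hy).2
    obtain rfl : K₀ = K := h3
    exact ⟨(K₀, q), mem_filter.2 ⟨mem_univ _, h1, h2⟩, rfl⟩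

/-- Sketch: a ladder from `∅` makes `(∅, q)` fat for one, hence all `q`. -/
theorem lad_top (h0 : Γ ∅ = ⊤) (hφ : Inv Γ φ) (a : ℕ) (h : cnt Γ φ η a a < Fintype.card G) :
    lad Γ φ η a a = 0 := by
  rw [lad, card_eq_zero, filter_eq_empty_iff]
  rintro ⟨K₀, K, q⟩ - ⟨h1, h2⟩
  obtain rfl : K₀ = ∅ := card_eq_zero.1 (by simpa using h1)
  refine h.not_ge (card_univ (α := G) ▸ card_le_card_of_injOn (fun q' => (∅, q')) (fun q' _ => ?_)
    fun _ _ _ _ h => (Prod.mk.inj h).2)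
  have := (Fat.inv (η := η) hφ a ∅ q (γ := q⁻¹ * q') (by simp [h0])).2 h2.spec.2.2.2
  simpa using this

end

end Crest.Agent.R66
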