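import Crest.Agent.R66.Basic

/-! Row 66: bounded contractions of simplicial complexes. -/

set_option autoImplicit false
set_option linter.unusedSectionVars false

namespace Crest.Agent.R66

open Finset Matrix
open scoped Classical

noncomputable section

variable {A V : Type} [AddCommGroup A] [Module (ZMod 2) A] [DecidableEq V]
  {𝒦 𝒦' : Finset V → Prop} {a r : ℕ}

section pr
variable {X Y B : Type} [AddCommGroup B]

@[simp] lemma simp_pr_zero (f : X → B) : pr f 0 = 0 := by simp [pr]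

@[simp] lemma simp_pr_cons (f : X → B) (x : X) (z : Multiset X) : pr f (x ::ₘ z) = f x + pr f z := by
  simp [pr]

@[simp] lemma simp_pr_singleton (f : X → B) (x : X) : pr f {x} = f x := by simp [pr]

lemma simp_pr_add (f : X → B) (z w : Multiset X) : pr f (z + w) = pr f z + pr f w := by simp [pr]

lemma simp_pr_map (f : X → B) (e : Y → X) (z : Multiset Y) :
    pr f (z.map e) = pr (fun y => f (e y)) z := by
  simp [pr]

lemma simp_pr_sum (f : X → B) (s : Finset Y) (z : Y → Multiset X) :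
    pr f (∑ y ∈ s, z y) = ∑ y ∈ s, pr f (z y) := by
  induction s using Finset.induction_on with
  | empty => simp
  | insert a s ha ih => rw [sum_insert ha, sum_insert ha, simp_pr_add, ih]

lemma simp_pr_bind (f : X → B) (s : Multiset Y) (z : Y → Multiset X) :
    pr f (s.bind z) = pr (fun y => pr f (z y)) s := by
  induction s using Multiset.induction_on with
  | empty => simp
  | cons a s ih => rw [Multiset.cons_bind, simp_pr_add, ih, simp_pr_cons]

lemma simp_pr_congr {f g : X → B} {z : Multiset X} (h : ∀ x ∈ z, f x = g x) : pr f z = pr g z := by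
  rw [pr, pr, Multiset.map_congr rfl h]

lemma simp_pr_fadd (f g : X → B) (z : Multiset X) :
    pr (fun x => f x + g x) z = pr f z + pr g z := by
  simp [pr, Multiset.sum_map_add]

lemma simp_pr_fzero (z : Multiset X) : pr (fun _ => (0 : B)) z = 0 := by simp [pr]

lemma simp_pr_fsum (s : Finset Y) (f : Y → X → B) (z : Multiset X) :
    pr (fun x => ∑ y ∈ s, f y x) z = ∑ y ∈ s, pr (f y) z := by
  induction s using Finset.induction_on with
  | empty => simp [simp_pr_fzero]
  | insert a s ha ih => simp only [sum_insert ha]; rw [simp_pr_fadd, ih]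

lemma simp_pr_val (f : X → B) (s : Finset X) : pr f s.val = ∑ x ∈ s, f x := rfl

lemma simp_pr_filter (f : X → B) (p : X → Prop) [DecidablePred p] (z : Multiset X) :
    pr f (z.filter p) = pr (fun x => if p x then f x else 0) z := by
  induction z using Multiset.induction_on with
  | empty => simp
  | cons a s ih =>
    by_cases h : p a
    · rw [Multiset.filter_cons_of_pos _ h, simp_pr_cons, simp_pr_cons, ih, if_pos h]
    · rw [Multiset.filter_cons_of_neg _ h, simp_pr_cons, ih, if_neg h, zero_add]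

end pr

lemma SCone.mono {a' r' : ℕ} (h : SCone A 𝒦 a r) (ha : a' ≤ a) (hr : r ≤ r') :
    SCone A 𝒦 a' r' := by
  obtain ⟨κ, hκ⟩ := h
  exact ⟨κ, fun σ h1 h2 => ⟨(hκ σ h1 (h2.trans ha)).1.trans hr, (hκ σ h1 (h2.trans ha)).2⟩⟩

/-- Sketch: fill the cycle `{∅}` (`sd f ∅ = 0`). -/
theorem SCone.zero {Φ : ℕ} (h : Fill A 𝒦 0 1 Φ) : SCone A 𝒦 0 Φ := by
  by_cases h0 : 𝒦 ∅
  · obtain ⟨w, hw1, hw2, hw3⟩ := h {∅} (by simp) (by simpa using h0) (fun f => by simp [sd])
    refine ⟨fun _ => w, fun σ _ hσ => ?_⟩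
    obtain rfl : σ = ∅ := card_eq_zero.1 (by omega)
    exact ⟨hw1, by simpa using hw2, fun f => by simpa using hw3 f⟩
  · refine ⟨fun _ => 0, fun σ h1 hσ => ?_⟩
    obtain rfl : σ = ∅ := card_eq_zero.1 (by omega)
    exact (h0 h1).elim

/-- Sketch: for `#σ = a + 1` fill the cycle `σ + ∑ v ∈ σ, κ (σ.erase v)`; it is a cycle by the
identity at level `a` applied to `σ.erase v` and a symmetric double sum (cf. `sum_erase_erase`). -/
theorem SCone.succ {Φ : ℕ} (hd : ∀ σ v, 𝒦 σ → 𝒦 (σ.erase v)) (h : SCone A 𝒦 a r)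
    (hf : Fill A 𝒦 (a + 1) (1 + (a + 1) * r) Φ) : SCone A 𝒦 (a + 1) (max r Φ) := by
  obtain ⟨κ, hκ⟩ := h
  have key : ∀ σ, ∃ w : Multiset (Finset V), 𝒦 σ → #σ = a + 1 → w.card ≤ Φ ∧
      (∀ τ ∈ w, 𝒦 τ ∧ #τ = a + 1 + 1) ∧
      ∀ f : Finset V → A, f σ = pr (sd f) w + ∑ v ∈ σ, pr f (κ (σ.erase v)) := by
    intro σ
    by_cases hσ : 𝒦 σ ∧ #σ = a + 1
    swap
    · exact ⟨0, fun h1 h2 => (hσ ⟨h1, h2⟩).elim⟩
    obtain ⟨h1, h2⟩ := hσ
    have he : ∀ v ∈ σ, #(σ.erase v) = a := fun v hv => by rw [card_erase_of_mem hv]; omega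
    obtain ⟨w, hw1, hw2, hw3⟩ := hf (σ ::ₘ ∑ v ∈ σ, κ (σ.erase v)) (by
        rw [Multiset.card_cons, Multiset.card_sum, add_comm]
        gcongr
        rw [← h2, ← smul_eq_mul]
        exact sum_le_card_nsmul _ _ _ fun v hv => (hκ _ (hd σ v h1) (he v hv).le).1)
      (fun τ hτ => by
        rcases Multiset.mem_cons.1 hτ with rfl | hτ
        · exact ⟨h1, h2⟩
        · obtain ⟨v, hv, hτ⟩ := Multiset.mem_sum.1 hτ
          have := (hκ _ (hd σ v h1) (he v hv).le).2.1 τ hτ
          exact ⟨this.1, by rw [this.2, he v hv]⟩)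
      (fun f => by
        rw [simp_pr_cons, simp_pr_sum, sd, ← sum_add_distrib,
          ← sum_erase_erase (fun ρ => pr f (κ ρ)) σ]
        refine sum_congr rfl fun v hv => ?_
        rw [(hκ _ (hd σ v h1) (he v hv).le).2.2 f, add_comm, ← add_assoc, two_self, zero_add])
    refine ⟨w, fun _ _ => ⟨hw1, hw2, fun f => ?_⟩⟩
    rw [← hw3 f, simp_pr_cons, simp_pr_sum, add_assoc, two_self, add_zero]
  choose w hw using key
  refine ⟨fun σ => if #σ = a + 1 then w σ else κ σ, fun σ h1 h2 => ?_⟩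
  have he : ∀ v ∈ σ, ¬ #(σ.erase v) = a + 1 := fun v hv => by
    have := card_pos.2 ⟨v, hv⟩
    rw [card_erase_of_mem hv]; omega
  have hs : ∀ f : Finset V → A,
      ∑ v ∈ σ, pr f (if #(σ.erase v) = a + 1 then w (σ.erase v) else κ (σ.erase v)) =
        ∑ v ∈ σ, pr f (κ (σ.erase v)) := fun f =>
    sum_congr rfl fun v hv => by rw [if_neg (he v hv)]
  simp only [hs]
  by_cases h : #σ = a + 1
  · rw [if_pos h]
    obtain ⟨e1, e2, e3⟩ := hw σ h1 h
    exact ⟨e1.trans (le_max_right _ _), by rw [h]; exact e2, e3⟩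
  · rw [if_neg h]
    obtain ⟨e1, e2, e3⟩ := hκ σ h1 (by omega)
    exact ⟨e1.trans (le_max_left _ _), e2, e3⟩

/-- Joins.  Sketch: `κ' σ = (κ (σ.filter p)).map (· ∪ σ.filter (¬ p ·))`; apply the identity for `κ`
to `g ρ = f (ρ ∪ σ.filter (¬ p ·))`; the terms with `¬ p v` cancel in pairs. -/
theorem SCone.join (p : V → Prop) [DecidablePred p] (𝓛 : Finset V → Prop)
    (hp : ∀ σ, 𝒦 σ → ∀ v ∈ σ, p v)
    (h' : ∀ σ, 𝒦' σ ↔ 𝒦 (σ.filter p) ∧ 𝓛 (σ.filter fun v => ¬ p v)) (h : SCone A 𝒦 a r) :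
    SCone A 𝒦' a r := by
  obtain ⟨κ, hκ⟩ := h
  refine ⟨fun σ => (κ (σ.filter p)).map (· ∪ σ.filter fun v => ¬ p v), fun σ h1 h2 => ?_⟩
  obtain ⟨h3, h4⟩ := (h' σ).1 h1
  obtain ⟨e1, e2, e3⟩ := hκ _ h3 ((card_filter_le _ _).trans h2)
  have hdis : ∀ τ ∈ κ (σ.filter p), Disjoint τ (σ.filter fun v => ¬ p v) := fun τ hτ =>
    disjoint_left.2 fun v hv hv' => (mem_filter.1 hv').2 (hp τ (e2 τ hτ).1 v hv)
  refine ⟨by rwa [Multiset.card_map], fun τ' hτ' => ?_, fun f => ?_⟩
  · obtain ⟨τ, hτ, rfl⟩ := Multiset.mem_map.1 hτ'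
    refine ⟨(h' _).2 ⟨?_, ?_⟩, ?_⟩
    · convert (e2 τ hτ).1 using 1
      ext v
      have := hp τ (e2 τ hτ).1 v
      simp only [mem_filter, mem_union]
      tauto
    · convert h4 using 1
      ext v
      have := hp τ (e2 τ hτ).1 v
      simp only [mem_filter, mem_union]
      tauto
    · rw [card_union_of_disjoint (hdis τ hτ), (e2 τ hτ).2,
        ← card_filter_add_card_filter_not (s := σ) p]
      ring
  · have e4 := e3 fun ρ => f (ρ ∪ σ.filter fun v => ¬ p v)
    simp only [filter_union_filter_not_eq] at e4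
    rw [e4, simp_pr_map, ← sum_filter_add_sum_filter_not σ p]
    have a1 : pr (fun y => sd f (y ∪ σ.filter fun v => ¬ p v)) (κ (σ.filter p)) =
        pr (sd fun ρ => f (ρ ∪ σ.filter fun v => ¬ p v)) (κ (σ.filter p)) +
          ∑ v ∈ σ.filter fun v => ¬ p v,
            pr (fun τ => f (τ ∪ (σ.filter fun v => ¬ p v).erase v)) (κ (σ.filter p)) := by
      rw [← simp_pr_fsum, ← simp_pr_fadd]
      refine simp_pr_congr fun τ hτ => ?_
      rw [sd, sd, sum_union (hdis τ hτ)]
      congr 1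
      · refine sum_congr rfl fun v hv => ?_
        rw [erase_union_distrib, erase_eq_of_notMem (disjoint_left.1 (hdis τ hτ) hv)]
      · refine sum_congr rfl fun v hv => ?_
        rw [erase_union_distrib, erase_eq_of_notMem (disjoint_right.1 (hdis τ hτ) hv)]
    have a2 : ∑ v ∈ σ.filter p, pr f ((κ ((σ.erase v).filter p)).map
          (· ∪ (σ.erase v).filter fun v => ¬ p v)) =
        ∑ v ∈ σ.filter p, pr (fun ρ => f (ρ ∪ σ.filter fun v => ¬ p v))
          (κ ((σ.filter p).erase v)) := by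
      refine sum_congr rfl fun v hv => ?_
      rw [simp_pr_map, filter_erase, filter_erase,
        erase_eq_of_notMem (s := σ.filter fun v => ¬ p v) (by simp [(mem_filter.1 hv).2])]
    have a3 : ∑ v ∈ σ.filter fun v => ¬ p v, pr f ((κ ((σ.erase v).filter p)).map
          (· ∪ (σ.erase v).filter fun v => ¬ p v)) =
        ∑ v ∈ σ.filter fun v => ¬ p v,
          pr (fun τ => f (τ ∪ (σ.filter fun v => ¬ p v).erase v)) (κ (σ.filter p)) := by
      refine sum_congr rfl fun v hv => ?_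
      rw [simp_pr_map, filter_erase, filter_erase,
        erase_eq_of_notMem (s := σ.filter p) (by simp [(mem_filter.1 hv).2])]
    rw [a1, a2, a3, add_add_add_comm, two_self, add_zero]

end

end Crest.Agent.R66
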