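import Crest.Agent.R66.ExVt
import Crest.Agent.R66.Simp
import Crest.Agent.R66.Expand

/-! Row 66: links are joins of flag complexes. -/

set_option autoImplicit false
set_option linter.unusedSectionVars false

namespace Crest.Agent.R66

open Finset Matrix
open scoped Classical

noncomputable section

variable {F R : Type} [Field F] [CommRing R] [Algebra F R] [Finite R] {P : Par F R} {N : ℕ}
  {A : Type} [AddCommGroup A] [Module (ZMod 2) A]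

section aux
variable {D K₀ : Finset (Fin N)} {c₀ c c' : Fin N} {u u' : Iw P N}

lemma link_Hc (hu : u ∈ Fam P D D {c₀}) : u ∈ Hc P c₀ := (mem_Fam.1 hu).2 c₀ (mem_singleton_self _)

lemma link_pos_lt (hc' : c' ∈ D) (h : rk c₀ c < rk c₀ c') :
    #{i ∈ D | rk c₀ i ≤ rk c₀ c} < #{i ∈ D | rk c₀ i ≤ rk c₀ c'} := by
  refine card_lt_card ⟨fun i hi => ?_, fun hs => ?_⟩
  · exact mem_filter.2 ⟨(mem_filter.1 hi).1, (mem_filter.1 hi).2.trans h.le⟩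
  · exact (mem_filter.1 (hs (mem_filter.2 ⟨hc', le_rfl⟩))).2.not_gt h

lemma link_vt_lt (hu : u ∈ Fam P D D {c₀}) (hc' : c' ∈ D) (h : rk c₀ c < rk c₀ c') :
    vt D c₀ c u < vt D c₀ c' u := by
  refine lt_of_le_of_ne (vt_mono h.le) fun e => (link_pos_lt hc' h).ne ?_
  rw [← finrank_vt (link_Hc hu), ← finrank_vt (link_Hc hu), e]

lemma link_vt_inj (hu : u ∈ Fam P D D {c₀}) (hu' : u' ∈ Fam P D D {c₀}) (hc : c ∈ D) (hc' : c' ∈ D)
    (e : vt D c₀ c u = vt D c₀ c' u') : c = c' := by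
  have h : #{i ∈ D | rk c₀ i ≤ rk c₀ c} = #{i ∈ D | rk c₀ i ≤ rk c₀ c'} := by
    rw [← finrank_vt (link_Hc hu), ← finrank_vt (link_Hc hu'), e]
  rcases lt_trichotomy (rk c₀ c) (rk c₀ c') with h1 | h1 | h1
  · exact absurd h (link_pos_lt hc' h1).ne
  · exact rk_inj h1
  · exact absurd h.symm (link_pos_lt hc h1).ne

lemma link_bot_lt (hu : u ∈ Fam P D D {c₀}) (hc : c ∈ D) : ⊥ < vt D c₀ c u := by
  refine bot_lt_iff_ne_bot.2 fun e => ?_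
  have := finrank_vt (D := D) (c := c) (link_Hc hu)
  rw [e, finrank_bot] at this
  exact notMem_empty c (card_eq_zero.1 this.symm ▸ mem_filter.2 ⟨hc, le_rfl⟩)

lemma link_vt_eq_Ys (hu : u ∈ Fam P D D {c₀}) : vt D c₀ c u = Ys F D c₀ c ↔ u ∈ Hc P c := by
  rw [← vt_one (P := P), eq_comm, vt_eq_iff (one_mem _) hu, inv_one, one_mul]

lemma link_Ys_mono (h : rk c₀ c ≤ rk c₀ c') : Ys F D c₀ c ≤ Ys F D c₀ c' := fun _ hy i hi =>
  hy i fun h' => hi ⟨h'.1, h'.2.trans h⟩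

lemma link_card_Fss : #(Fss F D c₀) ≤ N + 1 := card_image_le.trans (card_range _).le

lemma link_good_Ys (P : Par F R) : Good (Fss F D c₀) (Ys F D c₀ c) := by
  rw [← vt_one (P := P)]
  exact vt_good (one_mem _)

lemma link_vt_mul {K : Finset (Fin N)} (hc₀ : c₀ ∈ K) (hu : u ∈ Fam P D D {c₀})
    (hu' : u' ∈ Fam P D D K) (hc : c ∈ K) : vt D c₀ c (u * u') = vt D c₀ c u := by
  symm
  rw [vt_eq_iff hu (mul_mem hu (Fam_anti D D (singleton_subset_iff.2 hc₀) hu')),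
    inv_mul_cancel_left]
  exact (mem_Fam.1 hu').2 c hc

lemma link_uinv (hc₀ : c₀ ∈ K₀) (𝓔 : Finset (Submodule F (Fin N → F))) :
    UInv (Fam P D D) (fun K u => K₀ ⊆ K ∧ K ⊆ D ∧ u ∈ Fam P D D K₀ ∧
      ∀ c ∈ K \ K₀, Good 𝓔 (vt D c₀ c u)) := by
  have key : ∀ K q, ∀ γ ∈ Fam P D D K, (K₀ ⊆ K ∧ K ⊆ D ∧ q ∈ Fam P D D K₀ ∧
      ∀ c ∈ K \ K₀, Good 𝓔 (vt D c₀ c q)) → K₀ ⊆ K ∧ K ⊆ D ∧ q * γ ∈ Fam P D D K₀ ∧
      ∀ c ∈ K \ K₀, Good 𝓔 (vt D c₀ c (q * γ)) := by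
    rintro K q γ hγ ⟨h1, h2, h3, h4⟩
    refine ⟨h1, h2, mul_mem h3 (Fam_anti D D h1 hγ), fun c hc => ?_⟩
    rw [link_vt_mul (h1 hc₀) (Fam_anti D D (singleton_subset_iff.2 hc₀) h3) hγ (mem_sdiff.1 hc).1]
    exact h4 c hc
  intro K q γ hγ
  refine ⟨fun h => ?_, key K q γ hγ⟩
  have := key K (q * γ) γ⁻¹ (inv_mem hγ) h
  rwa [mul_inv_cancel_right] at this

lemma link_rk_lt {c c₁ i : Fin N} (h : rk c c₁ < rk c i) : rk c₁ i < rk c i := by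
  have := i.2; have := c.2; have := c₁.2
  simp only [rk] at *
  split_ifs at * <;> omega

lemma link_card_rk_le (c : Fin N) (a : ℕ) : #{i : Fin N | rk c i ≤ a} ≤ a + 1 := by
  rw [← card_range (a + 1)]
  refine card_le_card_of_injOn (rk c) (fun i hi => ?_) fun i _ j _ e => rk_inj e
  simpa [Nat.lt_succ_iff] using hi

lemma link_le_card_rk (c c₁ : Fin N) : rk c c₁ + 1 ≤ #{i : Fin N | rk c i ≤ rk c c₁} := by
  have h1 : univ.image (rk c) = range N := by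
    refine eq_of_subset_of_card_le (fun k hk => ?_) ?_
    · obtain ⟨i, -, rfl⟩ := mem_image.1 hk
      exact mem_range.2 (rk_lt c i)
    · rw [card_image_of_injective _ fun i j e => rk_inj e]
      simp
  rw [← card_range (rk c c₁ + 1)]
  refine le_trans (card_le_card fun k hk => ?_) (card_image_le (f := rk c))
  have hk' := mem_range.1 hk
  have := rk_lt c c₁
  obtain ⟨i, -, rfl⟩ := mem_image.1 (h1.symm ▸ mem_range.2 (show k < N by omega))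
  exact mem_image.2 ⟨i, mem_filter.2 ⟨mem_univ _, by omega⟩, rfl⟩

end aux

/-- Sketch: `SCone.transfer` with `v c u = vt D c₀ c u`.  Use `finrank_vt` (the map
`c ↦ #{i ∈ D | rk c₀ i ≤ rk c₀ c}` is injective on `D`, positive, and `< #D` for `c ≠ c₀`),
`vt_mono`, `vt_top`, `vt_good`, `vt_eq_iff` (for `c ∈ K₀`: `vt c u = vt c 1 = Ys c`), and for `t4`
`exists_vt` applied to `σ ∪ K₀.image (Ys F D c₀)`. -/
theorem link_transfer {D K₀ : Finset (Fin N)} {c₀ : Fin N} (hc₀ : c₀ ∈ K₀) (hK₀ : K₀ ⊆ D)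
    (𝓔 : Finset (Submodule F (Fin N → F))) {a r : ℕ}
    (h : SCone A (fun σ => Fl (Fss F D c₀ ∪ 𝓔) (Ys F D c₀ c₀) σ ∧
      ∀ c ∈ K₀, ∀ Y ∈ σ, Y < Ys F D c₀ c ∨ Ys F D c₀ c < Y) a r) :
    CCone A (Fam P D D) (fun K u => K₀ ⊆ K ∧ K ⊆ D ∧ u ∈ Fam P D D K₀ ∧
      ∀ c ∈ K \ K₀, Good 𝓔 (vt D c₀ c u)) (a + #K₀) r := by
  have h0 : ∀ {u : Iw P N}, u ∈ Fam P D D K₀ → u ∈ Fam P D D {c₀} := fun hu =>
    Fam_anti D D (singleton_subset_iff.2 hc₀) hu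
  refine SCone.transfer K₀ (fun c u => vt D c₀ c u) (fun K q hq => hq.1) ?_ ?_ ?_ ?_ ?_ ?_ h
  · rintro K q ⟨h1, h2, h3, h4⟩
    have hcmp : ∀ c₁ ∈ K₀, ∀ c ∈ K \ K₀, vt D c₀ c q < Ys F D c₀ c₁ ∨ Ys F D c₀ c₁ < vt D c₀ c q := by
      intro c₁ hc₁ c hc
      rw [← (link_vt_eq_Ys (h0 h3)).2 ((mem_Fam.1 h3).2 c₁ hc₁)]
      rcases lt_trichotomy (rk c₀ c) (rk c₀ c₁) with h5 | h5 | h5
      · exact .inl (link_vt_lt (h0 h3) (hK₀ hc₁) h5)
      · exact absurd (rk_inj h5 ▸ hc₁) (mem_sdiff.1 hc).2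
      · exact .inr (link_vt_lt (h0 h3) (h2 (mem_sdiff.1 hc).1) h5)
    refine ⟨⟨fun Y hY Z hZ => ?_, fun Y hY => ?_⟩, fun c₁ hc₁ Y hY => ?_⟩
    · obtain ⟨c, -, rfl⟩ := mem_image.1 hY
      obtain ⟨c', -, rfl⟩ := mem_image.1 hZ
      exact (le_total (rk c₀ c) (rk c₀ c')).imp vt_mono vt_mono
    · obtain ⟨c, hc, rfl⟩ := mem_image.1 hY
      refine ⟨link_bot_lt (h0 h3) (h2 (mem_sdiff.1 hc).1), ?_, fun E hE => ?_⟩
      · refine (hcmp c₀ hc₀ c hc).resolve_right fun h5 => h5.not_ge ?_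
        rw [← vt_top (h0 h3)]
        exact vt_mono (rk_le_self c₀ c)
      · rcases mem_union.1 hE with hE | hE
        · exact vt_good (h0 h3) E hE
        · exact h4 c hc E hE
    · obtain ⟨c, hc, rfl⟩ := mem_image.1 hY
      exact hcmp c₁ hc₁ c hc
  · rintro K q ⟨h1, h2, h3, h4⟩ c hc c' hc' e
    exact link_vt_inj (h0 h3) (h0 h3) (h2 (mem_sdiff.1 (mem_coe.1 hc)).1)
      (h2 (mem_sdiff.1 (mem_coe.1 hc')).1) e
  · rintro K q ⟨h1, h2, h3, h4⟩ γ hγ c hc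
    exact link_vt_mul (h1 hc₀) (h0 h3) hγ (mem_sdiff.1 hc).1
  · rintro σ ⟨⟨h1, h2⟩, h3⟩
    obtain ⟨u, hu, hu'⟩ := exists_vt (P := P) (D := D) (c₀ := c₀) (σ ∪ K₀.image (Ys F D c₀))
      (fun Y hY Z hZ => by
        rcases mem_union.1 hY with hY | hY <;> rcases mem_union.1 hZ with hZ | hZ
        · exact h1 Y hY Z hZ
        · obtain ⟨c, hc, rfl⟩ := mem_image.1 hZ
          exact (h3 c hc Y hY).imp le_of_lt le_of_lt
        · obtain ⟨c, hc, rfl⟩ := mem_image.1 hY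
          exact (h3 c hc Z hZ).symm.imp le_of_lt le_of_lt
        · obtain ⟨c, -, rfl⟩ := mem_image.1 hY
          obtain ⟨c', -, rfl⟩ := mem_image.1 hZ
          exact (le_total (rk c₀ c) (rk c₀ c')).imp link_Ys_mono link_Ys_mono)
      (fun Y hY => by
        rcases mem_union.1 hY with hY | hY
        · exact ⟨(h2 Y hY).1, (h2 Y hY).2.1.le, fun E hE => (h2 Y hY).2.2 E (mem_union_left _ hE)⟩
        · obtain ⟨c, hc, rfl⟩ := mem_image.1 hY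
          refine ⟨?_, link_Ys_mono (rk_le_self c₀ c), link_good_Ys P⟩
          rw [← vt_one (P := P)]
          exact link_bot_lt (one_mem _) (hK₀ hc))
    have h4 : ∀ c ∈ K₀, vt D c₀ c u = Ys F D c₀ c := fun c hc => by
      obtain ⟨c', hc', e⟩ := hu' _ (mem_union_right _ (mem_image_of_mem _ hc))
      obtain rfl : c' = c := link_vt_inj hu (one_mem _) hc' (hK₀ hc) (e.trans vt_one.symm)
      exact e
    have h5 : (K₀ ∪ {c ∈ D | vt D c₀ c u ∈ σ}) \ K₀ = {c ∈ D | vt D c₀ c u ∈ σ} := by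
      refine union_sdiff_cancel_left (disjoint_left.2 fun c hc hc' => ?_)
      have := h3 c hc _ (mem_filter.1 hc').2
      rw [h4 c hc, or_self] at this
      exact lt_irrefl _ this
    refine ⟨K₀ ∪ {c ∈ D | vt D c₀ c u ∈ σ}, u, ⟨subset_union_left,
      union_subset hK₀ (filter_subset _ _),
      mem_Fam.2 ⟨(mem_Fam.1 hu).1, fun c hc => (link_vt_eq_Ys hu).1 (h4 c hc)⟩, ?_⟩, ?_⟩
    · rw [h5]
      exact fun c hc E hE => (h2 _ (mem_filter.1 hc).2).2.2 E (mem_union_right _ hE)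
    · rw [h5]
      refine Subset.antisymm (fun Y hY => ?_) fun Y hY => ?_
      · obtain ⟨c, hc, rfl⟩ := mem_image.1 hY
        exact (mem_filter.1 hc).2
      · obtain ⟨c, hc, rfl⟩ := hu' Y (mem_union_left _ hY)
        exact mem_image.2 ⟨c, mem_filter.2 ⟨hc, hY⟩, rfl⟩
  · rintro K q K' q' ⟨h1, h2, h3, -⟩ ⟨h1', h2', h3', -⟩ e
    have key : ∀ {K K' : Finset (Fin N)} {q q' : Iw P N}, K ⊆ D → K' ⊆ D → q ∈ Fam P D D K₀ →
        q' ∈ Fam P D D K₀ → (K \ K₀).image (fun c => vt D c₀ c q) =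
          (K' \ K₀).image (fun c => vt D c₀ c q') → ∀ c ∈ K, c ∉ K₀ →
          c ∈ K' ∧ vt D c₀ c q = vt D c₀ c q' := by
      intro K K' q q' h2 h2' h3 h3' e c hc hc'
      obtain ⟨c', hc'', e'⟩ := mem_image.1
        (e ▸ mem_image_of_mem (fun c => vt D c₀ c q) (mem_sdiff.2 ⟨hc, hc'⟩))
      obtain rfl : c' = c := link_vt_inj (h0 h3') (h0 h3) (h2' (mem_sdiff.1 hc'').1) (h2 hc) e'
      exact ⟨(mem_sdiff.1 hc'').1, e'.symm⟩
    have h6 : q⁻¹ * q' ∈ Fam P D D K₀ := mul_mem (inv_mem h3) h3'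
    refine ⟨Subset.antisymm (fun c hc => ?_) fun c hc => ?_, mem_Fam.2 ⟨(mem_Fam.1 h6).1,
      fun c hc => ?_⟩⟩
    · by_cases hc' : c ∈ K₀
      · exact h1' hc'
      · exact (key h2 h2' h3 h3' e c hc hc').1
    · by_cases hc' : c ∈ K₀
      · exact h1 hc'
      · exact (key h2' h2 h3' h3 e.symm c hc hc').1
    · by_cases hc' : c ∈ K₀
      · exact (mem_Fam.1 h6).2 c hc'
      · exact (vt_eq_iff (h0 h3) (h0 h3')).1 (key h2 h2' h3 h3' e c hc hc').2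
  · rintro K q ⟨h1, h2, h3, h4⟩ i hi
    exact ⟨subset_erase.2 ⟨h1, (mem_sdiff.1 hi).2⟩, (erase_subset _ _).trans h2, h3,
      fun c hc => h4 c (sdiff_subset_sdiff (erase_subset _ _) Subset.rfl hc)⟩

/-- Descending links.  Sketch: `a = 0`: `Ex.of_empty`.  Otherwise `hB` for `Fss ∪ 𝓔`, `B = Ys c₀`
(`finrank = #D`), `link_transfer` with `K₀ = {c₀}`, `CCone.ex`. -/
theorem desc_ex {r : ℕ} (hB : Big F A N r) {D : Finset (Fin N)} {c₀ : Fin N} (hc₀ : c₀ ∈ D)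
    (𝓔 : Finset (Submodule F (Fin N → F))) (h𝓔 : #𝓔 ≤ 2 * N + 2)
    (h𝓔' : ∀ E ∈ 𝓔, Ys F D c₀ c₀ ⊔ E = ⊤) {a : ℕ} (ha : a + 1 ≤ #D) :
    Ex A (Fam P D D) (fun K u => c₀ ∈ K ∧ K ⊆ D ∧ u ∈ Fam P D D {c₀} ∧
      ∀ c ∈ K, c ≠ c₀ → Good 𝓔 (vt D c₀ c u)) a := by
  rcases a with _ | a
  · refine Ex.of_empty fun K q hK hq => ?_
    rw [card_eq_zero] at hK
    exact notMem_empty _ (hK ▸ hq.1)
  have h1 := hB (Fss F D c₀ ∪ 𝓔) (Ys F D c₀ c₀) a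
    ((card_union_le _ _).trans (by have := link_card_Fss (F := F) (D := D) (c₀ := c₀); omega))
    (fun E hE => by
      rcases mem_union.1 hE with hE | hE
      · exact link_good_Ys P E hE
      · exact .inr (h𝓔' E hE))
    (by rw [finrank_Ys, filter_true_of_mem fun i _ => rk_le_self c₀ i]; omega)
  have h2 : Fl (Fss F D c₀ ∪ 𝓔) (Ys F D c₀ c₀) = fun σ => Fl (Fss F D c₀ ∪ 𝓔) (Ys F D c₀ c₀) σ ∧
      ∀ c ∈ ({c₀} : Finset (Fin N)), ∀ Y ∈ σ, Y < Ys F D c₀ c ∨ Ys F D c₀ c < Y := by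
    funext σ
    refine propext ⟨fun h => ⟨h, fun c hc Y hY => ?_⟩, fun h => h.1⟩
    rw [mem_singleton.1 hc]
    exact .inl (h.2 Y hY).2.1
  rw [h2] at h1
  have h3 := (link_transfer (P := P) (mem_singleton_self c₀) (singleton_subset_iff.2 hc₀) 𝓔 h1).ex
    (link_uinv (mem_singleton_self c₀) 𝓔)
  rw [card_singleton] at h3
  refine h3.congr fun K q => ?_
  simp only [singleton_subset_iff, mem_sdiff, mem_singleton, and_imp, ne_eq]

/-- Pigeonhole.  Sketch: otherwise map `i` to `(c, rk c i)` with `c ∈ K₀` minimising `rk c i`; then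
`rk c i ≤ rk c c₁` for all `c₁ ∈ K₀`, so `rk c i ≤ a` and `N ≤ a * (a + 1)`. -/
theorem exists_gap {K₀ : Finset (Fin N)} (h : K₀.Nonempty) {a : ℕ} (ha : #K₀ ≤ a)
    (hN : (a + 1) ^ 2 ≤ N) : ∃ c₀ ∈ K₀, ∀ c ∈ K₀, a + 1 ≤ rk c₀ c := by
  by_contra hcon
  push Not at hcon
  have h1 : (univ : Finset (Fin N)) ⊆ K₀.biUnion fun c => {i : Fin N | rk c i ≤ a} := by
    intro i _
    obtain ⟨c, hc, hmin⟩ := exists_min_image K₀ (fun c => rk c i) h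
    obtain ⟨c₁, hc₁, h2⟩ := hcon c hc
    refine mem_biUnion.2 ⟨c, hc, mem_filter.2 ⟨mem_univ _, ?_⟩⟩
    by_contra h3
    exact (link_rk_lt (show rk c c₁ < rk c i by omega)).not_ge (hmin c₁ hc₁)
  have h2 := (card_le_card h1).trans
    (card_biUnion_le_card_mul _ _ (a + 1) fun c _ => link_card_rk_le c a)
  rw [card_univ, Fintype.card_fin] at h2
  nlinarith

/-- Sketch: `c₀` from `exists_gap`, `c₁ ∈ K₀` minimising `rk c₀`, `B = Ys univ c₀ c₁` of dimension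
`rk c₀ c₁ + 1 ≥ a + 2`; `hB` for `Fss` and `B`; `SCone.join` with `p Y = (Y < B)`; `link_transfer`
with `D = univ`, `𝓔 = ∅`, `Fam_univ`; `CCone.mono`, `CCone.expand`. -/
theorem link_lke {r a : ℕ} (hB : Big F (ZMod 2) N r) (hN : (a + 1) ^ 2 ≤ N) :
    LkE (H P : Finset (Fin N) → _) a (2 ^ N * r) := by
  intro K₀ hne hK₀ ψ hψ hs q₀
  obtain ⟨c₀, hc₀, hgap⟩ := exists_gap hne hK₀ hN
  obtain ⟨c₁, hc₁, hmin⟩ := exists_min_image K₀ (rk c₀) hne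
  have h1 := hB (Fss F univ c₀) (Ys F univ c₀ c₁) a
    (by have := link_card_Fss (F := F) (D := univ) (c₀ := c₀); omega) (link_good_Ys P)
    (by have := link_le_card_rk c₀ c₁; have := hgap c₁ hc₁; rw [finrank_Ys]; omega)
  have h2 : SCone (ZMod 2) (fun σ => Fl (Fss F univ c₀ ∪ ∅) (Ys F univ c₀ c₀) σ ∧
      ∀ c ∈ K₀, ∀ Y ∈ σ, Y < Ys F univ c₀ c ∨ Ys F univ c₀ c < Y) a r := by
    rw [union_empty]
    refine SCone.join (fun Y => Y < Ys F univ c₀ c₁)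
      (fun σ => Fl (Fss F univ c₀) (Ys F univ c₀ c₀) σ ∧
        ∀ c ∈ K₀, ∀ Y ∈ σ, Y < Ys F univ c₀ c ∨ Ys F univ c₀ c < Y)
      (fun σ hσ Y hY => (hσ.2 Y hY).2.1) (fun σ => ⟨?_, ?_⟩) h1
    · rintro ⟨⟨h3, h4⟩, h5⟩
      exact ⟨⟨fun Y hY Z hZ => h3 Y (mem_filter.1 hY).1 Z (mem_filter.1 hZ).1, fun Y hY =>
        ⟨(h4 Y (mem_filter.1 hY).1).1, (mem_filter.1 hY).2, (h4 Y (mem_filter.1 hY).1).2.2⟩⟩,
        ⟨fun Y hY Z hZ => h3 Y (mem_filter.1 hY).1 Z (mem_filter.1 hZ).1,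
          fun Y hY => h4 Y (mem_filter.1 hY).1⟩, fun c hc Y hY => h5 c hc Y (mem_filter.1 hY).1⟩
    · rintro ⟨⟨h3, h4⟩, ⟨h5, h6⟩, h7⟩
      have h8 : ∀ Y ∈ σ, ¬ Y < Ys F univ c₀ c₁ → Ys F univ c₀ c₁ < Y := fun Y hY h =>
        (h7 c₁ hc₁ Y (mem_filter.2 ⟨hY, h⟩)).resolve_left h
      refine ⟨⟨fun Y hY Z hZ => ?_, fun Y hY => ?_⟩, fun c hc Y hY => ?_⟩
      · by_cases hY' : Y < Ys F univ c₀ c₁ <;> by_cases hZ' : Z < Ys F univ c₀ c₁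
        · exact h3 Y (mem_filter.2 ⟨hY, hY'⟩) Z (mem_filter.2 ⟨hZ, hZ'⟩)
        · exact .inl (hY'.trans (h8 Z hZ hZ')).le
        · exact .inr (hZ'.trans (h8 Y hY hY')).le
        · exact h5 Y (mem_filter.2 ⟨hY, hY'⟩) Z (mem_filter.2 ⟨hZ, hZ'⟩)
      · by_cases hY' : Y < Ys F univ c₀ c₁
        · have := h4 Y (mem_filter.2 ⟨hY, hY'⟩)
          exact ⟨this.1, hY'.trans_le (link_Ys_mono (rk_le_self c₀ c₁)), this.2.2⟩
        · exact h6 Y (mem_filter.2 ⟨hY, hY'⟩)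
      · by_cases hY' : Y < Ys F univ c₀ c₁
        · exact .inl (hY'.trans_le (link_Ys_mono (hmin c hc)))
        · exact h7 c hc Y (mem_filter.2 ⟨hY, hY'⟩)
  have h3 := (link_transfer (P := P) hc₀ (subset_univ _) ∅ h2).mono (Nat.le_add_right a _)
  rw [Fam_univ] at h3
  have h4 : (fun K u => K₀ ⊆ K ∧ K ⊆ univ ∧ u ∈ H P K₀ ∧
      ∀ c ∈ K \ K₀, Good ∅ (vt univ c₀ c u)) = Star (H P : Finset (Fin N) → _) K₀ 1 := by
    funext K u
    simp [Star, Good]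
  rw [h4] at h3
  simpa only [Fintype.card_fin] using h3.expand H_anti hψ hs q₀

end

end Crest.Agent.R66
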