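import Crest.Agent.R66.Grp

/-! Row 66: splitting. -/

set_option autoImplicit false
set_option linter.unusedSectionVars false

namespace Crest.Agent.R66

open Finset Matrix
open scoped Classical

noncomputable section

variable {F R : Type} [Field F] [CommRing R] [Algebra F R] [Finite R] {P : Par F R} {N : ℕ}

/-- `GG D S` is normalised by `GG D (D ∪ S)`.  Sketch: `mat e = 1 + u` with `u` supported in
`D × S`; `u * mat g⁻¹ = u` since the rows `S` of `mat g⁻¹` are trivial; so
`mat (g * e * g⁻¹) = 1 + mat g * u`. -/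
theorem mat_conj {D S : Finset (Fin N)} (h : Disjoint D S) {g e : Iw P N} (hg : g ∈ GG P D (D ∪ S))
    (he : e ∈ GG P D S) : mat (g * e * g⁻¹) = 1 + mat g * (mat e - 1) := by
  have h1 : (mat e - 1) * mat g⁻¹ = mat e - 1 := by
    ext i j
    rw [mul_apply, ← Matrix.mul_one (mat e - 1), mul_apply, Matrix.mul_one]
    refine sum_congr rfl fun l _ => ?_
    by_cases hl : l ∈ S
    · rw [mem_GG.1 (inv_mem hg) l j (.inl (disjoint_right.1 h hl))]
    · simp [mem_GG.1 he i l (.inr hl)]
  have h2 : mat g * mat g⁻¹ = 1 := by rw [← mat_mul, mul_inv_cancel, mat_one]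
  rw [mat_mul, mat_mul, ← h1, sub_mul, one_mul, mul_sub, h2, mul_assoc, add_sub_cancel]

theorem conj_mem_GG {D S : Finset (Fin N)} (h : Disjoint D S) {g : Iw P N}
    (hg : g ∈ GG P D (D ∪ S)) (e : Iw P N) : g * e * g⁻¹ ∈ GG P D S ↔ e ∈ GG P D S := by
  suffices ∀ g ∈ GG P D (D ∪ S), ∀ e ∈ GG P D S, g * e * g⁻¹ ∈ GG P D S from
    ⟨fun h => by simpa [mul_assoc] using this _ (inv_mem hg) _ h, this g hg e⟩
  intro g hg e he i j hij
  rw [mat_conj h hg he, Matrix.add_apply, add_eq_left, mul_apply]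
  rcases hij with hi | hj
  · simp [mem_GG.1 hg i _ (.inl hi), one_apply, mem_GG.1 he i j (.inl hi)]
  · simp [mem_GG.1 he _ j (.inr hj)]

/-- Elements of `GG D S` are `1 + u`. -/
theorem exists_mem_GG {D S : Finset (Fin N)} (h : Disjoint D S) (u : Matrix (Fin N) (Fin N) R)
    (hu : ∀ i j, i ∉ D ∨ j ∉ S → u i j = 0) (hu' : ∀ i j, ∃ y, u i j = y * eps P i j) :
    ∃ e ∈ GG P D S, mat e = 1 + u := by
  have hd : ∀ i, u i i = 0 := fun i => hu i i (by
    by_cases hi : i ∈ D
    exacts [.inr (disjoint_left.1 h hi), .inl hi])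
  have hdet : (1 + u).det = 1 := by
    rw [← det_submatrix_equiv_self (Equiv.sumCompl (· ∈ D)), ← fromBlocks_toBlocks (submatrix _ _ _)]
    have h1 : ((1 + u).submatrix (Equiv.sumCompl (· ∈ D)) (Equiv.sumCompl (· ∈ D))).toBlocks₂₁
        = 0 := by
      ext i j
      show (1 : Matrix _ _ R) i.1 j.1 + u i j = 0
      rw [one_apply_ne fun h : i.1 = j.1 => i.2 (h ▸ j.2), hu i j (.inl i.2), add_zero]
    have h2 : ((1 + u).submatrix (Equiv.sumCompl (· ∈ D)) (Equiv.sumCompl (· ∈ D))).toBlocks₁₁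
        = 1 := by
      ext i j
      show (1 : Matrix _ _ R) i.1 j.1 + u i j = _
      rw [hu i j (.inr (disjoint_left.1 h j.2)), add_zero, one_apply, one_apply]
      exact if_congr Subtype.val_inj rfl rfl
    have h3 : ((1 + u).submatrix (Equiv.sumCompl (· ∈ D)) (Equiv.sumCompl (· ∈ D))).toBlocks₂₂
        = 1 := by
      ext i j
      simp [toBlocks₂₂, hu i j (.inl i.2), one_apply, Subtype.ext_iff]
    rw [h1, h2, h3, det_fromBlocks_zero₂₁, det_one, det_one, mul_one]
  refine ⟨mk (1 + u) hdet fun i j hij => ?_, fun i j hij => ?_, rfl⟩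
  · rw [Matrix.add_apply, add_sub_cancel_left]
    rcases hij.eq_or_lt with rfl | hij
    · simp [hd]
    · obtain ⟨y, hy⟩ := hu' i j
      rw [hy, eps, if_pos hij]
      exact dvd_mul_left _ _
  · simp [hu i j hij]

/-- Sketch: `mat e i j = if j ∈ S then mat g i j else 1 i j` (determinant one: `(mat e - 1) ^ 2 = 0`,
or block triangular for `fun i => if i ∈ S then 1 else 0`), `g' = e⁻¹ * g`, i.e.
`mat g' i j = if j ∈ S then 1 i j else mat g i j` (in blocks `(D, S)`: `g = [[x, y], [0, 1]]`,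
`e = [[1, y], [0, 1]]`, `g' = [[x, 0], [0, 1]]`); cf. `exists_mem_GG` (move it up if useful). -/
theorem split {D S K : Finset (Fin N)} (h : Disjoint D S) {g : Iw P N}
    (hg : g ∈ Fam P D (D ∪ S) K) : ∃ e ∈ Fam P D S K, ∃ g' ∈ Fam P D D K, g = e * g' := by
  obtain ⟨e, he, hme⟩ := exists_mem_GG (P := P) h
    (of fun i j => if j ∈ S then (mat g - 1) i j else 0)
    (fun i j hij => by
      rw [of_apply]
      split_ifs with hj
      · rw [Matrix.sub_apply, mem_GG.1 hg.1 i j (.inl (hij.resolve_right (not_not.2 hj))), sub_self]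
      · rfl)
    (fun i j => by
      rw [of_apply]
      split_ifs with hj
      · by_cases hij : i = j
        · subst hij
          exact ⟨0, by rw [Matrix.sub_apply, mem_GG.1 hg.1 i i (.inl (disjoint_right.1 h hj)),
            sub_self, zero_mul]⟩
        · rw [Matrix.sub_apply, one_apply_ne hij, sub_zero]
          exact exists_entry g hij
      · exact ⟨0, by simp⟩)
  have h1 : ∀ i j, mat e i j = if j ∈ S then mat g i j else (1 : Matrix _ _ R) i j := fun i j => by
    rw [hme, Matrix.add_apply, of_apply]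
    split_ifs <;> simp
  have heH : e ∈ H P K := mem_H.2 fun c hc i j => by
    rw [h1]
    split_ifs
    exacts [mem_Hc.1 ((mem_Fam.1 hg).2 c hc) i j, mem_Hc.1 (one_mem (Hc P c)) i j]
  refine ⟨e, ⟨he, heH⟩, e⁻¹ * g, ⟨fun i j hij => ?_, (H P K).mul_mem ((H P K).inv_mem heH) hg.2⟩,
    by simp⟩
  by_cases hj : j ∈ S
  · rw [← mat_one (P := P), ← inv_mul_cancel e, mat_mul, mat_mul, mul_apply, mul_apply]
    simp [h1, hj]
  · exact mem_GG.1 (mul_mem (inv_mem (GG_mono Subset.rfl subset_union_right he)) hg.1) i j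
      (hij.imp id fun h => by simp [h, hj])

/-- Sketch: `mat γ'⁻¹` is the identity matrix with row `m` replaced by row `m` of `mat γ⁻¹` and
the entry `(m', m')` replaced by the inverse of the unit `mat γ⁻¹ m m` (which is `1` if `K ≠ ∅`). -/
theorem hprod {D S₀ K : Finset (Fin N)} (hS : S₀ ⊆ D) {m' : Fin N} (hm' : m' ∈ D) (hm'' : m' ∉ S₀)
    {m : Fin N} (hm : m ∈ S₀) {γ : Iw P N} (hγ : γ ∈ Fam P D D K) :
    ∃ γ' ∈ Fam P (D \ S₀.erase m) D K, γ'⁻¹ * γ ∈ Fam P (D \ {m}) D K := by
  have hmm : m ≠ m' := by rintro rfl; exact hm'' hm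
  obtain ⟨w, hw⟩ := (isUnit_diag γ⁻¹ m).exists_right_inv
  set M : Matrix (Fin N) (Fin N) R :=
    (diagonal (Function.update 1 m' w)).updateRow m (mat γ⁻¹ m) with hM
  have hMm : ∀ j, M m j = mat γ⁻¹ m j := fun j => by simp [hM]
  have hMi : ∀ i j, i ≠ m → (i ≠ m' ∨ j ≠ m') → M i j = (1 : Matrix _ _ R) i j := by
    intro i j h1 h2
    rw [hM, updateRow_ne h1, diagonal_apply, one_apply]
    split_ifs with h
    · subst h
      rw [Function.update_of_ne (by tauto), Pi.one_apply]
    · rfl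
  have hMw : M m' m' = w := by simp [hM, hmm.symm]
  have hdet : M.det = 1 := by
    have : mat γ⁻¹ m = ∑ k, (if k = m' then mat γ⁻¹ m k * mat γ⁻¹ m m else mat γ⁻¹ m k) •
        diagonal (Function.update 1 m' w) k := by
      funext j
      simp only [Finset.sum_apply, Pi.smul_apply, diagonal_apply, smul_eq_mul, mul_ite, mul_zero,
        sum_ite_eq', mem_univ, if_true]
      split_ifs with h
      · subst h
        rw [Function.update_self, mul_assoc, hw, mul_one]
      · simp [h]
    rw [hM, this, det_updateRow_sum, det_diagonal, prod_update_of_mem (mem_univ _), if_neg hmm]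
    simpa using hw
  have hdvd : ∀ i j, i ≤ j → P.t ∣ M i j - (1 : Matrix (Fin N) (Fin N) R) i j := fun i j hij => by
    by_cases h1 : i = m
    · subst h1
      rw [hMm]
      exact mat_dvd _ hij
    by_cases h2 : i ≠ m' ∨ j ≠ m'
    · simp [hMi i j h1 h2]
    · push Not at h2
      rw [h2.1, h2.2, hMw, one_apply_eq]
      have := mat_dvd γ⁻¹ (le_refl m)
      rw [one_apply_eq] at this
      convert (this.mul_left (-w)) using 1
      linear_combination hw
  have hγ' := inv_mem hγ
  have hx : mk M hdet hdvd ∈ Fam P (D \ S₀.erase m) D K := by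
    refine mem_Fam.2 ⟨fun i j hij => ?_, fun c hc i j => ?_⟩
    · rw [mat_mk]
      by_cases h1 : i = m
      · subst h1
        rw [hMm]
        exact mem_GG.1 hγ'.1 i j (.inr (hij.resolve_left (by simp [hS hm])))
      · refine hMi i j h1 (hij.imp ?_ ?_) <;> rintro h rfl
        exacts [h (by simp [hm', hm'']), h hm']
    · have h0 := mem_Hc.1 ((mem_Fam.1 hγ').2 c hc) m
      rw [mat_mk]
      by_cases h1 : i = m
      · subst h1
        rw [hMm]
        exact h0 j
      have : M i j = (1 : Matrix _ _ R) i j := by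
        by_cases h2 : i ≠ m' ∨ j ≠ m'
        · exact hMi i j h1 h2
        · push Not at h2
          rw [(h0 m).2 (lt_irrefl _), one_apply_eq, one_mul] at hw
          rw [h2.1, h2.2, hMw, hw, one_apply_eq]
      rw [this]
      exact mem_Hc.1 (one_mem (Hc P c)) i j
  refine ⟨_, inv_mem hx, ?_⟩
  rw [inv_inv]
  have h3 := mul_mem (inf_le_inf_right _ (GG_mono sdiff_subset Subset.rfl) hx) hγ
  refine ⟨fun i j hij => ?_, h3.2⟩
  by_cases h1 : i = m
  · subst h1
    rw [← mat_one (P := P), ← inv_mul_cancel γ, mat_mul, mat_mul, mul_apply, mul_apply]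
    simp [hMm]
  · exact mem_GG.1 h3.1 i j (hij.imp (fun h => by simpa [h1] using h) id)

theorem GG_inf {A A' B : Finset (Fin N)} : GG P A B ⊓ GG P A' B ≤ GG P (A ∩ A') B := by
  rintro g ⟨h1, h2⟩ i j (h | h)
  · exact (not_and_or.1 (mt mem_inter.2 h)).elim (fun h => h1 i j (.inl h)) fun h => h2 i j (.inl h)
  · exact h1 i j (.inr h)

/-- The cyclic predecessor `c'` of `c` in `D` (the element of `D` maximising `rk c`): the orders
`rk c` and `rk c'` agree on `D`, and the window of `c` is contained in that of `c'`. -/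
theorem exists_pred {D : Finset (Fin N)} (hD : D.Nonempty) (c : Fin N) : ∃ c' ∈ D,
    (∀ i ∈ D, ∀ j ∈ D, rk c j < rk c i ↔ rk c' j < rk c' i) ∧
    (∀ m, ∀ i ∈ D, rk c m < rk c i → rk c' m < rk c' i) ∧
    ∀ g ∈ GG P D D, g ∈ Hc P c → g ∈ Hc P c' := by
  obtain ⟨c', hc', hmax⟩ := D.exists_max_image (rk c) hD
  have h2 : ∀ m, ∀ i ∈ D, rk c m < rk c i → rk c' m < rk c' i := fun m i hi h => by
    have := hmax i hi
    have := c.2; have := c'.2; have := m.2; have := i.2
    simp only [rk] at *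
    split_ifs at * <;> omega
  have h1 : ∀ i ∈ D, ∀ j ∈ D, rk c j < rk c i ↔ rk c' j < rk c' i := fun i hi j hj =>
    ⟨h2 j i hi, fun h => lt_of_le_of_ne (not_lt.1 fun h' => h.not_gt (h2 i j hj h'))
      fun h' => by rw [rk_inj h'] at h; exact lt_irrefl _ h⟩
  refine ⟨c', hc', h1, h2, fun g hg hgc i j => ?_⟩
  by_cases hij : i ∈ D ∧ j ∈ D
  · rw [← h1 i hij.1 j hij.2]
    exact hgc i j
  · rw [mem_GG.1 hg i j (not_and_or.1 hij)]
    exact mem_Hc.1 (one_mem (Hc P c')) i j

end

end Crest.Agent.R66
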