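import Crest.Agent.R66.SeeL
import Crest.Agent.R66.Link
import Crest.Agent.R66.Cone
import Crest.Agent.R66.Split

/-! Row 66: exactness of the twisted complexes. -/

set_option autoImplicit false
set_option linter.unusedSectionVars false

namespace Crest.Agent.R66

open Finset Matrix
open scoped Classical

noncomputable section

variable {F R : Type} [Field F] [CommRing R] [Algebra F R] [Finite R] {P : Par F R} {N : ℕ}
  {A : Type} [AddCommGroup A] [Module (ZMod 2) A] {r a : ℕ} {D : Finset (Fin N)}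
  {θ : Fin N → Module.Dual F (Fin N → R)} {m₀ : Fin N}

lemma morse_le {K : Finset (Fin N)} {c : Fin N} (hc : c ∈ K) : Fam P D D K ≤ Fam P D D {c} :=
  Fam_anti D D (singleton_subset_iff.2 hc)

lemma morse_bad {K : Finset (Fin N)} {γ : Iw P N} (hγ : γ ∈ Fam P D D K) (q : Iw P N) (m : Fin N) :
    (∃ c ∈ K, Bad D (θ m) m c (q * γ)) ↔ ∃ c ∈ K, Bad D (θ m) m c q :=
  exists_congr fun _ => and_congr_right fun hc => bad_inv (morse_le hc hγ)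

lemma morse_good {K : Finset (Fin N)} {γ : Iw P N} (hγ : γ ∈ Fam P D D K) (q : Iw P N) (m : Fin N) :
    (∀ c ∈ K, ¬ Bad D (θ m) m c (q * γ)) ↔ ∀ c ∈ K, ¬ Bad D (θ m) m c q :=
  forall₂_congr fun _ hc => not_congr (bad_inv (morse_le hc hγ))

lemma morse_xl {K : Finset (Fin N)} {γ : Iw P N} (hγ : γ ∈ Fam P D D K) (q : Iw P N) (L : ℕ) :
    (∀ c ∈ K, XL D (θ m₀) m₀ L c (q * γ)) ↔ ∀ c ∈ K, XL D (θ m₀) m₀ L c q :=
  forall₂_congr fun _ hc => xl_inv (morse_le hc hγ) L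

/-- The graded pieces.  Sketch: let `c₀ = L % N`.  A face of the piece contains `c₀`, with
`See L q`, `¬ See (L - N) q`, and its other vertices lie in `XL (L - 1)`.  If `c₀ ∉ D` the piece is
empty.  `Ex.of_cosets (Fam D D {c₀})`; for `q₀` with a face, take `E₀` from `link_see`, `E m` from
`link_bad` for `m ∈ T`, and use `desc_ex` with `𝓔 = insert E₀ (T.image E)` (`Ex.congr`). -/
theorem graded_ex (hB : Big F A N r) (ha : a + 1 ≤ #D) {T : Finset (Fin N)} (hT : Disjoint D T)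
    {L : ℕ} (hL : m₀ + N < L) :
    Ex A (Fam P D D) (fun K q => q ∈ GG P D D ∧ K ⊆ D ∧ (∀ c ∈ K, XL D (θ m₀) m₀ L c q) ∧
      (¬ ∀ c ∈ K, XL D (θ m₀) m₀ (L - 1) c q) ∧ ∀ m ∈ T, ∀ c ∈ K, ¬ Bad D (θ m) m c q) a := by
  have hN := m₀.pos
  obtain ⟨c₀, hc₀⟩ : ∃ c₀ : Fin N, L % N = c₀ := ⟨⟨_, Nat.mod_lt L hN⟩, rfl⟩
  have hx : ∀ c (q : Iw P N), c ≠ c₀ → XL D (θ m₀) m₀ L c q → XL D (θ m₀) m₀ (L - 1) c q := by
    rintro c q hc ⟨ℓ, h1, h2, h3⟩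
    refine ⟨ℓ, Nat.le_sub_one_of_lt (h1.lt_of_ne ?_), h2, h3⟩
    rintro rfl
    exact hc (Fin.ext (h2.symm.trans hc₀))
  have hx' : ∀ q : Iw P N, XL D (θ m₀) m₀ (L - 1) c₀ q ↔ See D (θ m₀) m₀ (L - N) q := fun q => by
    refine ⟨fun ⟨ℓ, h1, h2, h3⟩ => h3.mono ?_, fun h => ⟨L - N, by omega, ?_, h⟩⟩
    · have := Nat.le_of_dvd (by omega) ((Nat.modEq_iff_dvd' (by omega : ℓ ≤ L)).1
        (h2.trans hc₀.symm))
      omega
    · rw [← hc₀, ← Nat.mod_eq_sub_mod (by omega)]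
  have hx'' : ∀ q : Iw P N, XL D (θ m₀) m₀ L c₀ q ↔ See D (θ m₀) m₀ L q := fun q =>
    ⟨fun ⟨ℓ, h1, _, h3⟩ => h3.mono h1, fun h => ⟨L, le_rfl, hc₀, h⟩⟩
  have key : ∀ (K : Finset (Fin N)) (q : Iw P N), ((∀ c ∈ K, XL D (θ m₀) m₀ L c q) ∧
      ¬ ∀ c ∈ K, XL D (θ m₀) m₀ (L - 1) c q) ↔ c₀ ∈ K ∧ See D (θ m₀) m₀ L q ∧
        ¬ See D (θ m₀) m₀ (L - N) q ∧ ∀ c ∈ K, c ≠ c₀ → XL D (θ m₀) m₀ (L - 1) c q := by
    refine fun K q => ⟨fun ⟨h1, h2⟩ => ?_, fun ⟨h1, h2, h3, h4⟩ => ⟨fun c hc => ?_, fun h => ?_⟩⟩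
    · push Not at h2
      obtain ⟨c, hc, h2⟩ := h2
      obtain rfl : c = c₀ := by_contra fun h => h2 (hx c q h (h1 c hc))
      exact ⟨hc, (hx'' q).1 (h1 c hc), mt (hx' q).2 h2, fun c' hc' h => hx c' q h (h1 c' hc')⟩
    · by_cases h : c = c₀
      · exact h ▸ (hx'' q).2 h2
      · exact (h4 c hc h).mono (by omega)
    · exact h3 ((hx' q).1 (h c₀ h1))
  refine Ex.of_cosets (Fam P D D {c₀}) (fun K q γ hγ => ?_)
    (fun K q h => morse_le ((key K q).1 ⟨h.2.2.1, h.2.2.2.1⟩).1) fun q₀ => ?_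
  · simp only [(GG P D D).mul_mem_cancel_right hγ.1, morse_xl hγ, morse_good hγ]
  by_cases hq : c₀ ∈ D ∧ q₀ ∈ GG P D D ∧ See D (θ m₀) m₀ L q₀ ∧ ¬ See D (θ m₀) m₀ (L - N) q₀ ∧
    ∀ m ∈ T, ¬ Bad D (θ m) m c₀ q₀
  swap
  · refine Ex.of_empty fun K x _ ⟨hx, h1, h2, h3, h4, h5⟩ => hq ?_
    obtain ⟨h6, h7, h8, -⟩ := (key K _).1 ⟨h3, h4⟩
    exact ⟨h2 h6, ((GG P D D).mul_mem_cancel_right hx.1).1 h1, (see_inv hx hc₀).1 h7,
      mt (see_inv hx (by rw [← hc₀, ← Nat.mod_eq_sub_mod (by omega)])).2 h8,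
      fun m hm => mt (bad_inv hx).2 (h5 m hm c₀ h6)⟩
  obtain ⟨h1, h2, h3, h4, h5⟩ := hq
  obtain ⟨E₀, hE₀, hE₀'⟩ := link_see hL hc₀ h3 h4
  choose! E hE hE' using fun m (hm : m ∈ T) => link_bad (disjoint_right.1 hT hm) (h5 m hm)
  refine (desc_ex (P := P) hB h1 (insert E₀ (T.image E)) ?_ ?_ ha).congr fun K x => ?_
  · have := card_insert_le E₀ (T.image E)
    have := card_image_le (s := T) (f := E)
    have := card_le_univ T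
    rw [Fintype.card_fin] at this
    omega
  · simp only [mem_insert, mem_image]
    rintro _ (rfl | ⟨m, hm, rfl⟩)
    exacts [hE₀, hE m hm]
  have hg : ∀ Y, Good (insert E₀ (T.image E)) Y ↔ Good {E₀} Y ∧ ∀ m ∈ T, Good {E m} Y := by
    simp [Good]
  simp only [hg]
  constructor
  · rintro ⟨hx, -, h6, h7, h8, h9⟩
    obtain ⟨h10, -, -, h11⟩ := (key K _).1 ⟨h7, h8⟩
    exact ⟨h10, h6, hx, fun c hc h => ⟨(hE₀' x hx c (h6 hc) h).1 (h11 c hc h),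
      fun m hm => (hE' m hm x hx c (h6 hc) h).1 (h9 m hm c hc)⟩⟩
  · rintro ⟨h6, h7, hx, h8⟩
    obtain ⟨h9, h10⟩ := (key K (q₀ * x)).2 ⟨h6, (see_inv hx hc₀).2 h3,
      mt (see_inv hx (by rw [← hc₀, ← Nat.mod_eq_sub_mod (by omega)])).1 h4,
      fun c hc h => (hE₀' x hx c (h7 hc) h).2 (h8 c hc h).1⟩
    refine ⟨hx, mul_mem h2 hx.1, h7, h9, h10, fun m hm c hc => ?_⟩
    by_cases h : c = c₀
    · exact h ▸ mt (bad_inv hx).1 (h5 m hm)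
    · exact (hE' m hm x hx c (h7 hc) h).2 ((h8 c hc h).2 m hm)

/-- Sketch: induction on `L ≥ m₀ + N` with `Ex.ext` for the faces with all vertices in `XL L`
(empty for `L = m₀ + N` by `xl_base`; all faces for large `L` by `hθ` and finiteness). -/
theorem good_ex (hB : Big F A N r) (ha : a + 1 ≤ #D) {T : Finset (Fin N)} (hT : Disjoint D T)
    (hm₀ : m₀ ∉ D) (hθ : ∀ q ∈ GG P D D, ∃ j, (m₀ : ℕ) < j ∧ θ m₀ (mat q *ᵥ bv P D j) ≠ 0) :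
    Ex A (Fam P D D) (fun K q => q ∈ GG P D D ∧ K ⊆ D ∧ (∃ c ∈ K, Bad D (θ m₀) m₀ c q) ∧
      ∀ m ∈ T, ∀ c ∈ K, ¬ Bad D (θ m) m c q) a := by
  have hN := m₀.pos
  have hb : ∀ c ∈ D, ∀ q : Iw P N, XL D (θ m₀) m₀ (m₀ + N) c q ↔ ¬ Bad D (θ m₀) m₀ c q :=
    fun c hc q => xl_base (by rintro rfl; exact hm₀ hc)
  have key : ∀ L, m₀ + N ≤ L → Ex A (Fam P D D) (fun K q => (q ∈ GG P D D ∧ K ⊆ D ∧
      (∃ c ∈ K, Bad D (θ m₀) m₀ c q) ∧ ∀ m ∈ T, ∀ c ∈ K, ¬ Bad D (θ m) m c q) ∧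
        ∀ c ∈ K, XL D (θ m₀) m₀ L c q) a := fun L hL => by
    induction hL with
    | refl => exact Ex.of_empty fun K q _ ⟨⟨_, h1, ⟨c, hc, h2⟩, _⟩, h3⟩ =>
        (hb c (h1 hc) q).1 (h3 c hc) h2
    | @step L hL ih =>
      refine Ex.ext (Fam_anti D D) (fun K q γ hγ => ?_) (fun K q γ hγ => ?_) ?_ ?_ ?_ ?_ ih
        (graded_ex (θ := θ) (L := L + 1) hB ha hT (Nat.lt_succ_of_le hL))
      · simp only [(GG P D D).mul_mem_cancel_right hγ.1, morse_xl hγ, morse_good hγ, morse_bad hγ]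
      · simp only [(GG P D D).mul_mem_cancel_right hγ.1, morse_xl hγ, morse_good hγ]
      · rintro K K' M q h1 h2 ⟨⟨h3, -, ⟨c, hc, h4⟩, -⟩, -⟩ ⟨⟨-, h5, -, h6⟩, h7⟩
        exact ⟨⟨h3, h2.trans h5, ⟨c, h1 hc, h4⟩, fun m hm c hc => h6 m hm c (h2 hc)⟩,
          fun c hc => h7 c (h2 hc)⟩
      · rintro K q ⟨h1, h2, h3, h4, h5⟩
        push Not at h4
        obtain ⟨c, hc, h4⟩ := h4
        exact ⟨⟨h1, h2, ⟨c, hc, by_contra fun h => h4 (((hb c (h2 hc) q).2 h).mono hL)⟩, h5⟩, h3⟩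
      · rintro K K' q h1 ⟨-, -, -, h2, -⟩ ⟨⟨h3, h4, -, h5⟩, h6⟩
        exact ⟨h3, h4, h6, fun h => h2 fun c hc => h c (h1 hc), h5⟩
      · refine fun K q => ⟨fun ⟨h1, h2⟩ => ⟨⟨h1, fun c hc => (h2 c hc).mono L.le_succ⟩,
          fun h => h.2.2.2.1 h2⟩, fun ⟨⟨h1, h2⟩, h3⟩ => ⟨h1, by_contra fun h => ?_⟩⟩
        exact h3 ⟨h1.1, h1.2.1, h2, h, h1.2.2.2⟩
  choose! j hj hj' using hθ
  refine (key (univ.sup j + (m₀ + N)) (by omega)).congr fun K q =>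
    ⟨fun h => ⟨h, fun c _ => ?_⟩, And.left⟩
  have h1 : j q ≤ univ.sup j := le_sup (mem_univ q)
  have h2 := Nat.div_add_mod (j q + N - c - 1) N
  have h3 := Nat.mod_lt (j q + N - c - 1) hN
  have := c.2
  exact ⟨c + N * ((j q + N - c - 1) / N), by omega,
    by rw [Nat.add_mul_mod_self_left, Nat.mod_eq_of_lt c.2], j q, hj q h.1, by omega, hj' q h.1⟩

/-- Sketch: Mayer-Vietoris: add the condition `∀ m ∈ T', ∃ c ∈ K, Bad m c` to `good_ex`, by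
induction on `T'` disjoint from `D` (for all `T` and all `a`) with `Ex.rel`.  Then take `T = ∅`,
`T' = S` and use `Ex.collapse D` with `exists_pred`. -/
theorem morse (hB : Big F A N r) (ha : a + 1 ≤ #D) {S : Finset (Fin N)} (hS : Disjoint D S)
    (hm₀ : m₀ ∈ S) (hθ : ∀ q ∈ GG P D D, ∃ j, (m₀ : ℕ) < j ∧ θ m₀ (mat q *ᵥ bv P D j) ≠ 0) :
    Ex A (Fam P D D) (fun K q => q ∈ GG P D D ∧ ∀ m ∈ S, ∃ c ∈ K, Bad D (θ m) m c q) a := by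
  have key : ∀ T' : Finset (Fin N), Disjoint D T' → ∀ T, Disjoint D T → ∀ a, a + 1 ≤ #D →
      Ex A (Fam P D D) (fun K q => (q ∈ GG P D D ∧ K ⊆ D ∧ (∃ c ∈ K, Bad D (θ m₀) m₀ c q) ∧
        ∀ m ∈ T, ∀ c ∈ K, ¬ Bad D (θ m) m c q) ∧ ∀ m ∈ T', ∃ c ∈ K, Bad D (θ m) m c q) a := by
    intro T' hT'
    induction T' using Finset.induction_on with
    | empty => exact fun T hT a ha =>
        (good_ex hB ha hT (disjoint_right.1 hS hm₀) hθ).congr (by simp)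
    | insert m T' _ ih =>
      rw [disjoint_insert_right] at hT'
      intro T hT a ha
      refine Ex.rel (Fam_anti D D) (fun K q γ hγ => ?_) (fun K q γ hγ => ?_) ?_ ?_ ?_ ?_
        (ih hT'.2 T hT a ha) fun a' ha' =>
          ih hT'.2 (insert m T) (disjoint_insert_right.2 ⟨hT'.1, hT⟩) a' (by omega)
      · simp only [(GG P D D).mul_mem_cancel_right hγ.1, morse_good hγ, morse_bad hγ]
      · simp only [(GG P D D).mul_mem_cancel_right hγ.1, morse_good hγ, morse_bad hγ]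
      · rintro K K' M q h1 h2 ⟨⟨h3, -, ⟨c, hc, h4⟩, -⟩, h7⟩ ⟨⟨-, h5, -, h6⟩, -⟩
        exact ⟨⟨h3, h2.trans h5, ⟨c, h1 hc, h4⟩, fun m hm c hc => h6 m hm c (h2 hc)⟩,
          fun m hm => (h7 m hm).imp fun c hc => ⟨h1 hc.1, hc.2⟩⟩
      · exact fun K q h => ⟨h.1, fun m' hm' => h.2 m' (mem_insert_of_mem hm')⟩
      · exact fun K K' q h1 h2 h3 => ⟨h3.1, fun m hm => (h2.2 m hm).imp fun c hc => ⟨h1 hc.1, hc.2⟩⟩
      · intro K q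
        simp only [forall_mem_insert, not_and]
        refine ⟨fun ⟨⟨h1, h2, h3, h4, h5⟩, h6⟩ => ⟨⟨⟨h1, h2, h3, h5⟩, h6⟩,
          fun _ ⟨c, hc, h⟩ => (h4 c hc h).elim⟩, fun ⟨⟨⟨h1, h2, h3, h5⟩, h6⟩, h7⟩ =>
            ⟨⟨h1, h2, h3, fun c hc h => h7 ⟨h1, h2, h3, h5⟩ ⟨c, hc, h⟩ h6, h5⟩, h6⟩⟩
  refine Ex.collapse D (Fam_anti D D) (fun K q γ hγ => ?_) ?_ (fun c _ => ?_)
    ((key S hS ∅ (by simp) a ha).congr fun K q => ?_)
  · simp only [(GG P D D).mul_mem_cancel_right hγ.1, morse_bad hγ]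
  · exact fun K K' M q h1 _ h2 _ => ⟨h2.1, fun m hm => (h2.2 m hm).imp fun c hc => ⟨h1 hc.1, hc.2⟩⟩
  · obtain ⟨c', hc', -, h1, h2⟩ := exists_pred (P := P) (card_pos.1 (by omega : 0 < #D)) c
    refine ⟨c', hc', fun K hc => ⟨fun g hg => mem_Fam.2 ⟨hg.1, fun x hx => ?_⟩, fun q =>
      and_congr_right fun _ => forall₂_congr fun m _ => ⟨fun ⟨x, hx, h⟩ => ?_, fun ⟨x, hx, h⟩ =>
        ⟨x, mem_insert_of_mem hx, h⟩⟩⟩⟩
    · rcases mem_insert.1 hx with rfl | hx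
      exacts [h2 g hg.1 ((mem_Fam.1 hg).2 c hc), (mem_Fam.1 hg).2 x hx]
    · rcases mem_insert.1 hx with rfl | hx
      exacts [⟨c, hc, fun i hi h' => h i hi (h1 m i hi h')⟩, ⟨x, hx, h⟩]
  · exact ⟨fun ⟨⟨h1, h2⟩, h3⟩ => ⟨⟨h1, h3, h2 m₀ hm₀, by simp⟩, h2⟩, fun h => ⟨⟨h.1.1, h.2⟩, h.1.2.1⟩⟩

end

end Crest.Agent.R66
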