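import Crest.Agent.R66.Simp

/-! Row 66: the prism over flags of small subspaces. -/

set_option autoImplicit false
set_option linter.unusedSectionVars false

namespace Crest.Agent.R66

open Finset Matrix
open scoped Classical

noncomputable section

variable {A F Λ : Type} [AddCommGroup A] [Module (ZMod 2) A] [Field F] [AddCommGroup Λ] [Module F Λ]
  [FiniteDimensional F Λ]

/-- A generic vector.  Sketch: avoid the proper subspaces `(Y ⊔ E).comap B.subtype` of `B` for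
`Y ∈ 𝒴`, `E ∈ insert ⊥ 𝓔`, `¬ B ≤ Y ⊔ E`
(`Submodule.iUnion_ssubset_of_forall_ne_top_of_card_lt`).  If `Y ⊓ E = ⊥` and `Y ⊔ E ≠ ⊤` then
`¬ B ≤ Y ⊔ E` (else `B ⊔ E ≠ ⊤`, `B ⊓ E = ⊥` and `B = Y` by the modular law), so `w ∉ Y ⊔ E` and
`(Y ⊔ span {w}) ⊓ E = ⊥`. -/
theorem exists_generic [Finite F] (𝓔 𝒴 : Finset (Submodule F Λ)) {B : Submodule F Λ}
    (hB : Good 𝓔 B) (h𝒴 : ∀ Y ∈ 𝒴, Y < B ∧ Good 𝓔 Y)
    (hc : #𝒴 * (#𝓔 + 1) < Nat.card F) :
    ∃ w ∈ B, ∀ Y ∈ 𝒴, w ∉ Y ∧ Good 𝓔 (Y ⊔ F ∙ w) := by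
  have h := Submodule.iUnion_ssubset_of_forall_ne_top_of_card_lt
    ((𝒴 ×ˢ insert ⊥ 𝓔).subtype fun i : Submodule F Λ × Submodule F Λ => ¬ B ≤ i.1 ⊔ i.2)
    (fun i => (i.1.1 ⊔ i.1.2).comap B.subtype)
    (fun i hi => i.2 (Submodule.comap_subtype_eq_top.1 hi)) (by
      rw [ENat.card_eq_coe_natCard, Nat.cast_lt, card_subtype]
      refine lt_of_le_of_lt ((card_filter_le _ _).trans ?_) hc
      rw [card_product]
      exact Nat.mul_le_mul_left _ (card_insert_le _ _))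
  obtain ⟨w, -, hw⟩ := Set.exists_of_ssubset h
  have key : ∀ Y ∈ 𝒴, ∀ E ∈ insert ⊥ 𝓔, ¬ B ≤ Y ⊔ E → (w : Λ) ∉ Y ⊔ E := by
    intro Y hY E hE hle hmem
    refine hw (Set.mem_iUnion₂.2 ⟨⟨(Y, E), hle⟩, ?_, hmem⟩)
    simpa using ⟨hY, by simpa using hE⟩
  refine ⟨w, w.2, fun Y hY => ⟨?_, fun E hE => ?_⟩⟩
  · simpa using key Y hY ⊥ (mem_insert_self _ _) (by simpa using (h𝒴 Y hY).1.not_ge)
  · by_cases htop : Y ⊔ E = ⊤
    · right
      rw [eq_top_iff, ← htop]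
      exact sup_le_sup_right le_sup_left _
    have hbot := ((h𝒴 Y hY).2 E hE).resolve_right htop
    have hle : ¬ B ≤ Y ⊔ E := by
      intro hle
      have h1 : B ⊔ E ≠ ⊤ := fun h => htop (by
        rw [eq_top_iff, ← h]; exact sup_le hle le_sup_right)
      have h2 := (hB E hE).resolve_right h1
      have h3 : (Y ⊔ E) ⊓ B = Y ⊔ E ⊓ B := sup_inf_assoc_of_le _ (h𝒴 Y hY).1.le
      rw [inf_eq_right.2 hle, inf_comm, h2, sup_bot_eq] at h3
      exact (h𝒴 Y hY).1.ne' h3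
    have hw' := key Y hY E (mem_insert_of_mem hE) hle
    left
    rw [eq_bot_iff]
    rintro x ⟨hx1, hx2⟩
    obtain ⟨y, hy, x', hx', rfl⟩ := Submodule.mem_sup.1 hx1
    obtain ⟨c, rfl⟩ := Submodule.mem_span_singleton.1 hx'
    rcases eq_or_ne c 0 with rfl | hc0
    · rw [← hbot]
      exact ⟨by simpa using hy, hx2⟩
    · refine (hw' ?_).elim
      have : (w : Λ) = c⁻¹ • ((y + c • (w : Λ)) - y) := by
        rw [add_sub_cancel_left, smul_smul, inv_mul_cancel₀ hc0, one_smul]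
      rw [this]
      exact Submodule.smul_mem _ _ (sub_mem (Submodule.mem_sup_right hx2) (Submodule.mem_sup_left hy))

/-- The prism operator. -/
def prismOp (w : Λ) (σ : Finset (Submodule F Λ)) : Multiset (Finset (Submodule F Λ)) :=
  (insert ⊥ σ).val.map fun X =>
    σ.filter (· ≤ X) ∪ ((insert ⊥ σ).filter (X ≤ ·)).image (· ⊔ F ∙ w)

lemma prism_empty (w : Λ) : prismOp w (∅ : Finset (Submodule F Λ)) = {{⊥ ⊔ F ∙ w}} := by
  simp [prismOp, filter_singleton]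

lemma prism_insert (w : Λ) {σ : Finset (Submodule F Λ)} {Y : Submodule F Λ} (hY : ⊥ < Y)
    (h : ∀ Z ∈ σ, Z < Y) : prismOp w (insert Y σ) =
      insert (Y ⊔ F ∙ w) (insert Y σ) ::ₘ (prismOp w σ).map (insert (Y ⊔ F ∙ w)) := by
  have h' : ∀ Z ∈ insert ⊥ σ, Z < Y := fun Z hZ => by
    rcases mem_insert.1 hZ with rfl | hZ
    · exact hY
    · exact h Z hZ
  have hn : Y ∉ insert ⊥ σ := fun hm => (h' Y hm).false
  rw [prismOp, prismOp, Finset.insert_comm, insert_val_of_notMem hn, Multiset.map_cons,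
    Multiset.map_map]
  congr 1
  · rw [filter_true_of_mem (s := insert Y σ) (fun Z hZ => by
      rcases mem_insert.1 hZ with rfl | hZ
      · exact le_rfl
      · exact (h Z hZ).le), filter_insert, if_pos le_rfl,
      filter_false_of_mem (fun Z hZ => (h' Z hZ).not_ge)]
    ext Z
    simp only [mem_union, mem_insert, mem_image, notMem_empty, or_false, exists_eq_left]
    tauto
  · refine Multiset.map_congr rfl fun X hX => ?_
    have hX' := h' X hX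
    rw [filter_insert, if_neg hX'.not_ge, filter_insert, if_pos hX'.le, image_insert,
      Function.comp_apply, union_insert]

lemma prism_sup_lt {w : Λ} {X Y : Submodule F Λ} (h : X < Y) (hw : w ∉ Y) :
    X ⊔ F ∙ w < Y ⊔ F ∙ w := by
  refine lt_of_le_not_ge (sup_le_sup_right h.le _) fun hle => h.not_ge fun y hy => ?_
  obtain ⟨x, hx, x', hx', rfl⟩ := Submodule.mem_sup.1 (hle (Submodule.mem_sup_left hy))
  obtain ⟨c, rfl⟩ := Submodule.mem_span_singleton.1 hx'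
  rcases eq_or_ne c 0 with rfl | hc0
  · simpa using hx
  · exact (hw ((Y.smul_mem_iff hc0).1 ((Y.add_mem_iff_right (h.le hx)).1 hy))).elim

lemma prism_sd_insert {V : Type} [DecidableEq V] (f : Finset V → A) {v : V} {τ : Finset V}
    (h : v ∉ τ) : sd f (insert v τ) = f τ + sd (fun ρ => f (insert v ρ)) τ := by
  rw [sd, sd, sum_insert h, erase_insert h]
  congr 1
  refine sum_congr rfl fun u hu => ?_
  rw [erase_insert_of_ne (by rintro rfl; exact h hu)]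

lemma prism_main (𝓔 𝒴 : Finset (Submodule F Λ)) {B : Submodule F Λ} {w : Λ} (hw : w ∈ B)
    (h0 : ⊥ ∈ 𝒴)
    (h𝒴 : ∀ Y ∈ 𝒴, Module.finrank F Y + 2 ≤ Module.finrank F B ∧ w ∉ Y ∧ Good 𝓔 (Y ⊔ F ∙ w))
    (σ : Finset (Submodule F Λ)) : Fl 𝓔 B σ → σ ⊆ 𝒴 →
      (∀ τ ∈ prismOp w σ, Fl 𝓔 B τ ∧ #τ = #σ + 1 ∧ ∀ Z ∈ τ, ∃ X ∈ insert ⊥ σ, Z ≤ X ⊔ F ∙ w) ∧
      ∀ f : _ → A, f σ = pr (sd f) (prismOp w σ) + ∑ v ∈ σ, pr f (prismOp w (σ.erase v)) := by
  have hv : ∀ Y ∈ 𝒴, Y ≤ B → ⊥ < Y ⊔ F ∙ w ∧ Y ⊔ F ∙ w < B ∧ Good 𝓔 (Y ⊔ F ∙ w) := by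
    intro Y hY hYB
    obtain ⟨e1, e2, e3⟩ := h𝒴 Y hY
    have hw0 : w ≠ 0 := fun h => e2 (h ▸ Y.zero_mem)
    refine ⟨bot_lt_iff_ne_bot.2 fun h => ?_, ?_, e3⟩
    · have : w ∈ Y ⊔ F ∙ w := Submodule.mem_sup_right (Submodule.mem_span_singleton_self w)
      rw [h] at this
      exact hw0 (by simpa using this)
    · refine lt_of_le_of_ne (sup_le hYB ((Submodule.span_singleton_le_iff_mem _ _).2 hw)) fun h => ?_
      have h1 := Submodule.finrank_add_le_finrank_add_finrank Y (F ∙ w)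
      rw [finrank_span_singleton hw0, h] at h1
      omega
  induction σ using Finset.induction_on_max_value (fun Y : Submodule F Λ => Module.finrank F Y) with
  | empty =>
    intro _ _
    rw [prism_empty]
    refine ⟨fun τ hτ => ?_, fun f => by simp [sd]⟩
    obtain rfl := Multiset.mem_singleton.1 hτ
    refine ⟨⟨by simp, fun Y hY => ?_⟩, by simp, by simp⟩
    rw [mem_singleton.1 hY]
    exact hv ⊥ h0 bot_le
  | insert Y σ hYσ hmax ih =>
    intro hfl hsub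
    have hYm := mem_insert_self Y σ
    have hlt : ∀ Z ∈ σ, Z < Y := fun Z hZ => by
      rcases hfl.1 Z (mem_insert_of_mem hZ) Y hYm with h | h
      · exact lt_of_le_of_ne h (by rintro rfl; exact hYσ hZ)
      · obtain rfl := Submodule.eq_of_le_of_finrank_le h (hmax Z hZ)
        exact (hYσ hZ).elim
    obtain ⟨hY0, hYB, hYG⟩ := hfl.2 Y hYm
    have hlt' : ∀ Z ∈ insert ⊥ σ, Z < Y := fun Z hZ => by
      rcases mem_insert.1 hZ with rfl | hZ
      · exact hY0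
      · exact hlt Z hZ
    have hwY : w ∉ Y := (h𝒴 Y (hsub hYm)).2.1
    obtain ⟨ih1, ih2⟩ := ih
      ⟨fun Z hZ Z' hZ' => hfl.1 Z (mem_insert_of_mem hZ) Z' (mem_insert_of_mem hZ'),
        fun Z hZ => hfl.2 Z (mem_insert_of_mem hZ)⟩ ((subset_insert _ _).trans hsub)
    have hYlt : Y < Y ⊔ F ∙ w := lt_of_le_not_ge le_sup_left fun h =>
      hwY (h (Submodule.mem_sup_right (Submodule.mem_span_singleton_self w)))
    have hA : ∀ Z ∈ insert Y σ, Z < Y ⊔ F ∙ w := fun Z hZ => by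
      rcases mem_insert.1 hZ with rfl | hZ
      · exact hYlt
      · exact (hlt Z hZ).trans hYlt
    have hB : ∀ τ ∈ prismOp w σ, ∀ Z ∈ τ, Z < Y ⊔ F ∙ w := fun τ hτ Z hZ => by
      obtain ⟨X, hX, hZX⟩ := (ih1 τ hτ).2.2 Z hZ
      exact hZX.trans_lt (prism_sup_lt (hlt' X hX) hwY)
    have hins : ∀ τ, Fl 𝓔 B τ → (∀ Z ∈ τ, Z < Y ⊔ F ∙ w) →
        Fl 𝓔 B (insert (Y ⊔ F ∙ w) τ) ∧ #(insert (Y ⊔ F ∙ w) τ) = #τ + 1 ∧
          ∀ Z ∈ insert (Y ⊔ F ∙ w) τ, ∃ X ∈ insert ⊥ (insert Y σ), Z ≤ X ⊔ F ∙ w := by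
      intro τ hτ hl
      have hle : ∀ Z ∈ insert (Y ⊔ F ∙ w) τ, Z ≤ Y ⊔ F ∙ w := fun Z hZ => by
        rcases mem_insert.1 hZ with rfl | hZ
        · exact le_rfl
        · exact (hl Z hZ).le
      refine ⟨⟨fun Z hZ Z' hZ' => ?_, fun Z hZ => ?_⟩,
        card_insert_of_notMem fun h => (hl _ h).false,
        fun Z hZ => ⟨Y, mem_insert_of_mem hYm, hle Z hZ⟩⟩
      · rcases mem_insert.1 hZ with rfl | hZ1
        · exact .inr (hle _ hZ')
        rcases mem_insert.1 hZ' with rfl | hZ2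
        · exact .inl (hle _ hZ)
        exact hτ.1 Z hZ1 Z' hZ2
      · rcases mem_insert.1 hZ with rfl | hZ1
        · exact hv Y (hsub hYm) hYB.le
        · exact hτ.2 Z hZ1
    rw [prism_insert w hY0 hlt]
    refine ⟨fun τ hτ => ?_, fun f => ?_⟩
    · rcases Multiset.mem_cons.1 hτ with rfl | hτ
      · exact hins _ hfl hA
      · obtain ⟨τ', hτ', rfl⟩ := Multiset.mem_map.1 hτ
        have := hins τ' (ih1 τ' hτ').1 (hB τ' hτ')
        rw [card_insert_of_notMem hYσ, ← (ih1 τ' hτ').2.1]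
        exact this
    · set g : Finset (Submodule F Λ) → A := fun ρ => f (insert (Y ⊔ F ∙ w) ρ) with hg
      have a1 : pr (sd f) ((prismOp w σ).map (insert (Y ⊔ F ∙ w))) =
          pr f (prismOp w σ) + pr (sd g) (prismOp w σ) := by
        rw [simp_pr_map, ← simp_pr_fadd]
        exact simp_pr_congr fun τ hτ => prism_sd_insert f fun h => (hB τ hτ _ h).false
      have a2 : sd f (insert (Y ⊔ F ∙ w) (insert Y σ)) =
          f (insert Y σ) + (g σ + ∑ v ∈ σ, g (insert Y (σ.erase v))) := by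
        rw [prism_sd_insert f fun h => (hA _ h).false, prism_sd_insert _ hYσ]
        rfl
      have a3 : ∑ v ∈ σ, pr f (prismOp w ((insert Y σ).erase v)) =
          ∑ v ∈ σ, g (insert Y (σ.erase v)) + ∑ v ∈ σ, pr g (prismOp w (σ.erase v)) := by
        rw [← sum_add_distrib]
        refine sum_congr rfl fun v hv => ?_
        rw [erase_insert_of_ne (by rintro rfl; exact hYσ hv),
          prism_insert w hY0 fun Z hZ => hlt Z (mem_of_mem_erase hZ), simp_pr_cons, simp_pr_map]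
      rw [simp_pr_cons, a1, a2, sum_insert hYσ, erase_insert hYσ, a3, ih2 g]
      generalize pr (sd g) (prismOp w σ) = x1
      generalize ∑ v ∈ σ, pr g (prismOp w (σ.erase v)) = x2
      generalize ∑ v ∈ σ, g (insert Y (σ.erase v)) = x3
      generalize pr f (prismOp w σ) = x4
      calc f (insert Y σ) = f (insert Y σ) + ((x1 + x1) + (x2 + x2) + (x3 + x3) + (x4 + x4)) := by
            simp only [two_self, add_zero]
        _ = _ := by abel

/-- The prism.  Sketch: write `Y' = Y ⊔ F ∙ w`.  For a flag `σ = (Y₁ < … < Yₐ)` with vertices in `𝒴`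
and `Y₀ = ⊥`, `Pr σ = ∑ k, {(Y₁, …, Yₖ, Yₖ', …, Yₐ')}`; recursively, for `Y` the largest element
(`Finset.induction_on_max_value` with `finrank`), `Pr (insert Y σ) = (Pr σ).map (insert Y') +
{insert Y' (insert Y σ)}`.  One may define `Pr σ = (insert ⊥ σ).val.map fun X =>
σ.filter (· ≤ X) ∪ ((insert ⊥ σ).filter (X ≤ ·)).image (· ⊔ F ∙ w)`.  The identity
`f σ = pr (sd f) (Pr σ) + ∑ v ∈ σ, pr f (Pr (σ.erase v))` summed over the cycle `z` gives the claim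
with `w = z.bind Pr` (apply the cycle condition to `g ρ = pr f (Pr ρ)`). -/
theorem fill_small (𝓔 𝒴 : Finset (Submodule F Λ)) {B : Submodule F Λ} {w : Λ} (hw : w ∈ B)
    (h0 : ⊥ ∈ 𝒴)
    (h𝒴 : ∀ Y ∈ 𝒴, Module.finrank F Y + 2 ≤ Module.finrank F B ∧ w ∉ Y ∧ Good 𝓔 (Y ⊔ F ∙ w))
    {a : ℕ} (z : Multiset (Finset (Submodule F Λ)))
    (hz : ∀ σ ∈ z, Fl 𝓔 B σ ∧ #σ = a ∧ σ ⊆ 𝒴) (hc : ∀ f : _ → A, pr (sd f) z = 0) :
    ∃ u : Multiset (Finset (Submodule F Λ)), u.card ≤ (a + 1) * z.card ∧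
      (∀ τ ∈ u, Fl 𝓔 B τ ∧ #τ = a + 1) ∧ ∀ f : _ → A, pr f z = pr (sd f) u := by
  have key := fun σ (hσ : σ ∈ z) =>
    prism_main (A := A) 𝓔 𝒴 hw h0 h𝒴 σ (hz σ hσ).1 (hz σ hσ).2.2
  refine ⟨z.bind (prismOp w), ?_, fun τ hτ => ?_, fun f => ?_⟩
  · rw [Multiset.card_bind, mul_comm, ← smul_eq_mul, ← Multiset.card_map (Multiset.card ∘ prismOp w)]
    refine Multiset.sum_le_card_nsmul _ _ fun n hn => ?_
    obtain ⟨σ, hσ, rfl⟩ := Multiset.mem_map.1 hn
    rw [Function.comp_apply, prismOp, Multiset.card_map, ← (hz σ hσ).2.1]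
    exact card_insert_le _ _
  · obtain ⟨σ, hσ, hτ⟩ := Multiset.mem_bind.1 hτ
    have := (key σ hσ).1 τ hτ
    exact ⟨this.1, by rw [this.2.1, (hz σ hσ).2.1]⟩
  · rw [simp_pr_bind, ← add_zero (pr (fun y => pr (sd f) (prismOp w y)) z),
      ← hc fun ρ => pr f (prismOp w ρ), ← simp_pr_fadd]
    exact simp_pr_congr fun σ hσ => (key σ hσ).2 f

end

end Crest.Agent.R66
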