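import Crest.Agent.R66.Basic
import Crest.Statements.S0088

/-! Row 66: realisation of a coset complex as a simplicial complex on `Fin n`. -/

set_option autoImplicit false
set_option linter.unusedSectionVars false

namespace Crest.Agent.R66

open Finset Matrix Crest.CombinatoricsR.Cochain
open scoped Classical

noncomputable section

namespace Real

variable {I G : Type} [DecidableEq I] [Group G] [Fintype I] [Fintype G]
  {Γ : Finset I → Subgroup G} {n : ℕ}

lemma card_coset (E : Subgroup G) (q : G) : #{q' : G | q⁻¹ * q' ∈ E} = Nat.card E := by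
  rw [Nat.card_eq_fintype_card, Fintype.card_subtype]
  exact card_bijective (q⁻¹ * ·) (Group.mulLeft_bijective _) fun x => by simp

/-- A numbering of the vertices. -/
structure Num (Γ : Finset I → Subgroup G) (vx : I → G → Fin n) : Prop where
  eq_iff : ∀ c c' q q', vx c q = vx c' q' ↔ c = c' ∧ q⁻¹ * q' ∈ Γ {c}
  surj : ∀ v, ∃ c q, v = vx c q
  mem : ∀ K g, g ∈ Γ K ↔ ∀ c ∈ K, g ∈ Γ {c}

lemma exists_num (hΓ : ∀ K g, g ∈ Γ K ↔ ∀ c ∈ K, g ∈ Γ {c}) :
    ∃ (n : ℕ) (vx : I → G → Fin n), Num Γ vx := by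
  let V : Type := Σ c : I, G ⧸ Γ {c}
  let e : V ≃ Fin (Fintype.card V) := Fintype.equivFin V
  refine ⟨_, fun c q => e ⟨c, (q : G ⧸ Γ {c})⟩, fun c c' q q' => ?_, fun v => ?_, hΓ⟩
  · rw [e.apply_eq_iff_eq]
    constructor
    · intro h
      obtain rfl : c = c' := congrArg Sigma.fst h
      exact ⟨rfl, QuotientGroup.eq.1 (eq_of_heq (Sigma.mk.inj_iff.1 h).2)⟩
    · rintro ⟨rfl, h⟩
      rw [QuotientGroup.eq.2 h]
  · obtain ⟨⟨c, x⟩, rfl⟩ := e.surjective v
    obtain ⟨q, rfl⟩ := QuotientGroup.mk_surjective x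
    exact ⟨c, q, rfl⟩

/-- The face of type `K` of the chamber `q`. -/
def face (vx : I → G → Fin n) (K : Finset I) (q : G) : Finset (Fin n) := K.image fun c => vx c q

/-- The top faces. -/
def tops (vx : I → G → Fin n) (d : ℕ) : Finset (Finset (Fin n)) :=
  {σ | ∃ K q, #K = d + 1 ∧ σ = face vx K q}

/-- The number of top faces containing `σ`. -/
def deg (T : Finset (Finset (Fin n))) (σ : Finset (Fin n)) : ℕ := #(T.filter fun τ => σ ⊆ τ)

/-- The unnormalised norm. -/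
def wt (T : Finset (Finset (Fin n))) (i : ℕ) (f : Finset (Fin n) → ZMod 2) : ℕ :=
  ∑ σ ∈ (univ.powersetCard (i + 1)).filter (fun σ => f σ ≠ 0), deg T σ

lemma norm_eq (d : ℕ) (T : Finset (Finset (Fin n))) (i : ℕ) (f : Finset (Fin n) → ZMod 2) :
    cochainNorm d T i f = (wt T i f : ℝ) / ((Nat.choose (d + 1) (i + 1) : ℝ) * (T.card : ℝ)) := by
  rw [cochainNorm, wt, Nat.cast_sum, sum_div]
  rfl

lemma coboundary_eq {i : ℕ} (f : Finset (Fin n) → ZMod 2) {τ : Finset (Fin n)} (h : #τ = i + 2) :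
    coboundary i f τ = ∑ v ∈ τ, f (τ.erase v) := by
  symm
  refine sum_nbij (fun v => τ.erase v) (fun v hv => ?_) (fun v hv w hw hvw => ?_)
    (fun σ hσ => ?_) fun _ _ => rfl
  · rw [mem_powersetCard, card_erase_of_mem hv, h]
    exact ⟨erase_subset _ _, rfl⟩
  · exact (erase_inj τ (mem_coe.1 hv)).1 hvw
  · obtain ⟨h1, h2⟩ := mem_powersetCard.1 (mem_coe.1 hσ)
    obtain ⟨v, hv, hv'⟩ := exists_mem_notMem_of_card_lt_card (s := σ) (t := τ) (by omega)
    refine ⟨v, mem_coe.2 hv, (eq_of_subset_of_card_le (subset_erase.2 ⟨h1, hv'⟩) ?_).symm⟩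
    rw [card_erase_of_mem hv]
    omega

variable {vx : I → G → Fin n}

lemma Num.inj (h : Num Γ vx) (q : G) : Function.Injective fun c => vx c q := fun _ _ e =>
  ((h.eq_iff _ _ _ _).1 e).1

lemma Num.card_face (h : Num Γ vx) (K : Finset I) (q : G) : #(face vx K q) = #K :=
  card_image_of_injective _ (h.inj q)

lemma Num.mem_face (h : Num Γ vx) {K : Finset I} {q q' : G} {c : I} :
    vx c q ∈ face vx K q' ↔ c ∈ K ∧ q⁻¹ * q' ∈ Γ {c} := by
  simp only [face, mem_image]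
  constructor
  · rintro ⟨c', hc', e⟩
    obtain ⟨rfl, h2⟩ := (h.eq_iff _ _ _ _).1 e.symm
    exact ⟨hc', h2⟩
  · rintro ⟨h1, h2⟩
    exact ⟨c, h1, ((h.eq_iff _ _ _ _).2 ⟨rfl, h2⟩).symm⟩

lemma Num.face_eq_iff (h : Num Γ vx) {K K' : Finset I} {q q' : G} :
    face vx K q = face vx K' q' ↔ K = K' ∧ q⁻¹ * q' ∈ Γ K := by
  constructor
  · intro e
    have h1 : ∀ c ∈ K, c ∈ K' ∧ q⁻¹ * q' ∈ Γ {c} := fun c hc =>
      h.mem_face.1 (e ▸ h.mem_face.2 ⟨hc, by simp⟩)
    have h2 : ∀ c ∈ K', c ∈ K := fun c hc =>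
      (h.mem_face.1 (e.symm ▸ h.mem_face.2 ⟨hc, by simp⟩ : vx c q' ∈ face vx K q)).1
    exact ⟨Subset.antisymm (fun c hc => (h1 c hc).1) h2, (h.mem _ _).2 fun c hc => (h1 c hc).2⟩
  · rintro ⟨rfl, e⟩
    exact image_congr fun c hc => (h.eq_iff _ _ _ _).2 ⟨rfl, (h.mem _ _).1 e c hc⟩

lemma Num.coboundary_face (h : Num Γ vx) {i : ℕ} (f : Finset (Fin n) → ZMod 2) {M : Finset I}
    (hM : #M = i + 2) (q : G) :
    coboundary i f (face vx M q) = dl (fun K q => f (face vx K q)) M q := by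
  rw [coboundary_eq f (by rw [h.card_face, hM]), dl, face,
    sum_image fun a _ b _ e => h.inj q e]
  refine sum_congr rfl fun c _ => ?_
  rw [face, image_erase (h.inj q)]

lemma mem_tops {d : ℕ} {τ : Finset (Fin n)} :
    τ ∈ tops vx d ↔ ∃ K q, #K = d + 1 ∧ τ = face vx K q := by
  simp [tops]

lemma exists_top {d : ℕ} (hm : d + 1 ≤ Fintype.card I) {K : Finset I} (hK : #K ≤ d + 1) (q : G) :
    ∃ τ ∈ tops vx d, face vx K q ⊆ τ := by
  obtain ⟨L, h1, -, h2⟩ := exists_subsuperset_card_eq (subset_univ K) hK (by simpa using hm)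
  exact ⟨face vx L q, mem_tops.2 ⟨L, q, h2, rfl⟩, image_subset_image h1⟩

lemma one_le_deg {d : ℕ} (hm : d + 1 ≤ Fintype.card I) {K : Finset I} (hK : #K ≤ d + 1) (q : G) :
    1 ≤ deg (tops vx d) (face vx K q) := by
  obtain ⟨τ, h1, h2⟩ := exists_top (vx := vx) hm hK q
  exact card_pos.2 ⟨τ, mem_filter.2 ⟨h1, h2⟩⟩

lemma Num.vertexDegree_le (h : Num Γ vx) {D : ℕ} (hD : ∀ c, Nat.card (Γ {c}) ≤ D) (d : ℕ)
    (v : Fin n) : vertexDegree (tops vx d) v ≤ 2 ^ Fintype.card I * D := by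
  obtain ⟨c, q, rfl⟩ := h.surj v
  have : (tops vx d).filter (fun τ => vx c q ∈ τ) ⊆
      ((univ : Finset (Finset I)) ×ˢ ({q' : G | q⁻¹ * q' ∈ Γ {c}} : Finset G)).image
        fun x => face vx x.1 x.2 := by
    intro τ hτ
    obtain ⟨h1, h2⟩ := mem_filter.1 hτ
    obtain ⟨K, q', -, rfl⟩ := mem_tops.1 h1
    exact mem_image.2 ⟨(K, q'), by simpa using (h.mem_face.1 h2).2, rfl⟩
  refine (card_le_card this).trans (card_image_le.trans ?_)
  rw [card_product, card_coset, card_univ, Fintype.card_finset]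
  exact Nat.mul_le_mul_left _ (hD c)

lemma Num.deg_le (h : Num Γ vx) {D : ℕ} (hD : ∀ c, Nat.card (Γ {c}) ≤ D) (d : ℕ)
    {σ : Finset (Fin n)} (hσ : σ.Nonempty) : deg (tops vx d) σ ≤ 2 ^ Fintype.card I * D := by
  obtain ⟨v, hv⟩ := hσ
  refine le_trans (card_le_card fun τ hτ => ?_) (h.vertexDegree_le hD d v)
  exact mem_filter.2 ⟨(mem_filter.1 hτ).1, (mem_filter.1 hτ).2 hv⟩

lemma Num.wt_le (h : Num Γ vx) {D : ℕ} (hD : ∀ c, Nat.card (Γ {c}) ≤ D) (d i : ℕ)
    {f : Finset (Fin n) → ZMod 2} {c : Finset I → G → ZMod 2}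
    (hc : ∀ K q, #K = i + 1 → f (face vx K q) = c K q) :
    wt (tops vx d) i f ≤ 2 ^ Fintype.card I * D * nrm (i + 1) c := by
  rw [wt, ← sum_filter_ne_zero]
  refine (sum_le_card_nsmul _ _ (2 ^ Fintype.card I * D) fun σ hσ => ?_).trans ?_
  · have := (mem_powersetCard.1 (mem_filter.1 (mem_filter.1 hσ).1).1).2
    exact h.deg_le hD d (card_pos.1 (by omega))
  · rw [smul_eq_mul, mul_comm]
    refine Nat.mul_le_mul_left _ (le_trans (card_le_card fun σ hσ => ?_)
      (card_image_le (f := fun x : Finset I × G => face vx x.1 x.2)))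
    obtain ⟨h1, h2⟩ := mem_filter.1 hσ
    obtain ⟨h1, h3⟩ := mem_filter.1 h1
    obtain ⟨τ, hτ⟩ := card_pos.1 (Nat.pos_of_ne_zero h2)
    obtain ⟨h4, h5⟩ := mem_filter.1 hτ
    obtain ⟨L, q, -, rfl⟩ := mem_tops.1 h4
    obtain ⟨K, -, rfl⟩ := subset_image_iff.1 h5
    have hK : #K = i + 1 := by
      rw [← h.card_face K q]; exact (mem_powersetCard.1 h1).2
    refine mem_image.2 ⟨(K, q), mem_filter.2 ⟨mem_univ _, hK, ?_⟩, rfl⟩
    rw [← hc K q hK]
    exact h3

lemma Num.le_wt (h : Num Γ vx) {D : ℕ} (hD : ∀ c, Nat.card (Γ {c}) ≤ D) {d i : ℕ}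
    (hm : d + 1 ≤ Fintype.card I) (hi : i ≤ d)
    {f : Finset (Fin n) → ZMod 2} {c : Finset I → G → ZMod 2}
    (hc : ∀ K q, #K = i + 1 → f (face vx K q) = c K q) :
    nrm (i + 1) c ≤ D * wt (tops vx d) i f := by
  refine (card_le_mul_card_image (f := fun x : Finset I × G => face vx x.1 x.2) _ D
    fun σ hσ => ?_).trans (Nat.mul_le_mul_left _ ?_)
  · obtain ⟨⟨K, q⟩, hx, rfl⟩ := mem_image.1 hσ
    have hK : #K = i + 1 := (mem_filter.1 hx).2.1
    obtain ⟨a, ha⟩ : K.Nonempty := card_pos.1 (by omega)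
    refine le_trans ?_ (hD a)
    rw [← card_coset (Γ {a}) q]
    refine card_le_card_of_injOn Prod.snd (fun y hy => ?_) fun y hy z hz e => ?_
    · obtain ⟨-, h2⟩ := h.face_eq_iff.1 (mem_filter.1 (mem_coe.1 hy)).2.symm
      simpa using (h.mem _ _).1 h2 a ha
    · obtain ⟨h1, -⟩ := h.face_eq_iff.1 (mem_filter.1 (mem_coe.1 hy)).2.symm
      obtain ⟨h2, -⟩ := h.face_eq_iff.1 (mem_filter.1 (mem_coe.1 hz)).2.symm
      exact Prod.ext (h1.symm.trans h2) e
  · rw [wt, card_eq_sum_ones]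
    refine le_trans (sum_le_sum fun σ hσ => ?_) (sum_le_sum_of_subset fun σ hσ => ?_)
    · obtain ⟨⟨K, q⟩, hx, rfl⟩ := mem_image.1 hσ
      have : #K = i + 1 := (mem_filter.1 hx).2.1
      exact one_le_deg hm (K := K) (by omega) q
    · obtain ⟨⟨K, q⟩, hx, rfl⟩ := mem_image.1 hσ
      obtain ⟨h1, h2⟩ := (mem_filter.1 hx).2
      refine mem_filter.2 ⟨mem_powersetCard.2 ⟨subset_univ _, ?_⟩, ?_⟩
      · rw [h.card_face]; exact h1
      · rw [hc K q h1]; exact h2

lemma Num.inv_face (h : Num Γ vx) (f : Finset (Fin n) → ZMod 2) :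
    Inv Γ fun K q => f (face vx K q) := fun K q γ hγ => by
  have : face vx K q = face vx K (q * γ) := h.face_eq_iff.2 ⟨rfl, by simpa using hγ⟩
  simp only [this]

lemma Num.dl_singleton (h : Num Γ vx) {b : Finset I → G → ZMod 2} (hb : Inv Γ b) (a : I) (q : G) :
    dl b {a} q = b ∅ 1 := by
  have := hb ∅ 1 q ((h.mem _ _).2 (by simp))
  rw [one_mul] at this
  simp [dl, this]

lemma Num.exists_cob (h : Num Γ vx) {b : Finset I → G → ZMod 2} (hb : Inv Γ b) (i : ℕ) :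
    ∃ b' : Finset (Fin n) → ZMod 2, IsCoboundaryClass i b' ∧
      ∀ K q, #K = i + 1 → b' (face vx K q) = dl b K q := by
  rcases i with _ | i
  · refine ⟨fun _ => b ∅ 1, Or.inl ⟨rfl, _, fun _ => rfl⟩, fun K q hK => ?_⟩
    obtain ⟨a, rfl⟩ := card_eq_one.1 hK
    exact (h.dl_singleton hb a q).symm
  · let g : Finset (Fin n) → ZMod 2 := fun σ =>
      if e : ∃ x : Finset I × G, face vx x.1 x.2 = σ then b e.choose.1 e.choose.2 else 0
    have hg : (fun K q => g (face vx K q)) = b := by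
      funext K q
      have e : ∃ x : Finset I × G, face vx x.1 x.2 = face vx K q := ⟨(K, q), rfl⟩
      simp only [g, dif_pos e]
      obtain ⟨h1, h2⟩ := h.face_eq_iff.1 e.choose_spec
      rw [← hb _ _ _ h2, h1, mul_inv_cancel_left]
    refine ⟨coboundary i g, Or.inr ⟨by omega, g, rfl⟩, fun K q hK => ?_⟩
    rw [h.coboundary_face g hK, hg]

lemma Num.connected (h : Num Γ vx) {d C : ℕ} (hd : 1 ≤ d) (hm : d + 1 ≤ Fintype.card I)
    (hE : Expa Γ 1 C) : (skeleton (tops vx d)).Connected := by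
  obtain ⟨a₀⟩ : Nonempty I := Fintype.card_pos_iff.1 (by omega)
  have : Nonempty (Fin n) := ⟨vx a₀ 1⟩
  refine ⟨fun u v => ?_⟩
  let φ : Fin n → ZMod 2 := fun w => if (skeleton (tops vx d)).Reachable u w then 1 else 0
  let c : Finset I → G → ZMod 2 := fun K q => ∑ w ∈ face vx K q, φ w
  have hc1 : ∀ a q, c {a} q = φ (vx a q) := fun a q => by simp [c, face]
  obtain ⟨b, hb, hb'⟩ := hE c (h.inv_face fun σ => ∑ w ∈ σ, φ w)
  have h0 : nrm (1 + 1) (dl c) = 0 := by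
    rw [nrm, card_eq_zero, filter_eq_empty_iff]
    rintro ⟨M, q⟩ - ⟨h1, h2⟩
    apply h2
    obtain ⟨a, a', haa, rfl⟩ := card_eq_two.1 h1
    obtain ⟨τ, h3, h4⟩ := exists_top (vx := vx) hm (K := {a, a'}) (by simp only at h1; omega) q
    have hadj : (skeleton (tops vx d)).Adj (vx a q) (vx a' q) :=
      ⟨fun e => haa (h.inj q e), τ, h3, h4 (h.mem_face.2 (by simp)), h4 (h.mem_face.2 (by simp))⟩
    have hφ : φ (vx a q) = φ (vx a' q) :=
      if_congr ⟨fun r => r.trans hadj.reachable, fun r => r.trans hadj.symm.reachable⟩ rfl rfl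
    have e1 : ({a, a'} : Finset I).erase a = {a'} := erase_insert (by simpa using haa)
    have e2 : ({a, a'} : Finset I).erase a' = {a} := by
      rw [pair_comm]; exact erase_insert (by simpa using haa.symm)
    simp only [dl]
    rw [sum_pair haa, e1, e2, hc1, hc1, hφ]
    exact two_self _
  rw [h0, mul_zero, Nat.le_zero, nrm, card_eq_zero, filter_eq_empty_iff] at hb'
  have key : ∀ w, φ w = b ∅ 1 := fun w => by
    obtain ⟨a, q, rfl⟩ := h.surj w
    have := @hb' ({a}, q) (mem_univ _)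
    simp only [card_singleton, true_and, ne_eq, not_not, Pi.add_apply] at this
    rw [hc1, h.dl_singleton hb] at this
    exact eq_of_add_eq_zero' this
  have h1 : φ v = 1 := by
    rw [key v, ← key u]
    exact if_pos (SimpleGraph.Reachable.refl u)
  by_contra hr
  rw [show φ v = 0 from if_neg hr] at h1
  exact zero_ne_one h1

lemma Num.card_le (h : Num Γ vx) {D : ℕ} (hD : ∀ c, Nat.card (Γ {c}) ≤ D) (a : I) :
    Fintype.card G ≤ n * D := by
  refine (card_le_mul_card_image (f := vx a) univ D fun v hv => ?_).trans ?_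
  · obtain ⟨q, -, rfl⟩ := mem_image.1 hv
    refine le_trans (card_le_card fun q' hq' => ?_) ((card_coset (Γ {a}) q).le.trans (hD a))
    simpa using ((h.eq_iff _ _ _ _).1 (mem_filter.1 hq').2.symm).2
  · rw [mul_comm]
    exact Nat.mul_le_mul_right _ ((card_le_univ _).trans (Fintype.card_fin n).le)

lemma arith {A x y c₁ c₂ t B : ℝ} (hA : 0 ≤ A) (hy : 0 ≤ y) (hx : x ≤ A * y) (h1 : 1 ≤ c₁)
    (h2 : 0 < c₂) (h3 : c₂ ≤ B) (ht : 0 ≤ t) :
    1 / (A * B + 1) * (x / (c₁ * t)) ≤ y / (c₂ * t) := by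
  rcases ht.eq_or_lt with rfl | ht
  · simp
  have hB : 0 < B := h2.trans_le h3
  have h4 : 0 < A * B + 1 := by positivity
  rw [div_mul_div_comm, one_mul, div_le_div_iff₀ (by positivity) (by positivity)]
  calc x * (c₂ * t) ≤ A * y * (B * t) := by gcongr
    _ = y * (A * B * (1 * t)) := by ring
    _ ≤ y * ((A * B + 1) * (c₁ * t)) := by gcongr; linarith

end Real

/-- Sketch: the vertices are `V = Σ c, G ⧸ Γ {c}`, numbered by `Fin n`; `face K q` is the image of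
`c ↦ ⟨c, q⟩` on `K`; `face K q = face K' q'` iff `K = K'` and `q⁻¹ * q' ∈ Γ K`; `#(face K q) = #K`,
and the subsets of `face K q` are the `face K' q`, `K' ⊆ K`.  `T` is the set of `face K q`,
`#K = d + 1`; a nonempty face lies in at least one and at most `D' = 2 ^ m * D` elements of `T`, and
other sets have weight zero.  For `f` put `c K q = f (face K q)`; `dl c M q = coboundary i f
(face M q)` for `#M = i + 2`.  Take `b'` from `Expa Γ (i + 1) C` and `g σ = b' K q` if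
`σ = face K q` (else `0`), `b = coboundary (i - 1) g` (for `i = 0` the constant `b' ∅ 1`;
`Γ ∅ = ⊤`).  Then `‖f - b‖ ≤ D' * nrm (c + dl b') / (choose (d+1) (i+1) * #T)` and
`nrm (dl c) ≤ D * #{faces with δ f ≠ 0} ≤ D * choose (d+1) (i+2) * #T * ‖δ f‖`; so
`ε = 1 / (D' * C * D * 2 ^ (d + 1) + 1)` works.  Connectivity: apply `Expa Γ 1 C` to the indicator
function of a component. -/
theorem realise (m d D C : ℕ) (hd : 1 ≤ d) (hm : d + 1 ≤ m) : ∃ D' : ℕ, ∃ ε : ℝ, 0 < ε ∧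
    ∀ (I G : Type) [DecidableEq I] [Group G] [Fintype I] [Fintype G] (Γ : Finset I → Subgroup G),
      Fintype.card I = m → (∀ K g, g ∈ Γ K ↔ ∀ c ∈ K, g ∈ Γ {c}) → (∀ c, Nat.card (Γ {c}) ≤ D) →
      (∀ a, 1 ≤ a → a ≤ d → Expa Γ a C) →
      ∃ n : ℕ, ∃ T : Finset (Finset (Fin n)), Fintype.card G ≤ n * D ∧
        (∀ τ ∈ T, τ.card = d + 1) ∧
        (∀ v : Fin n, 1 ≤ vertexDegree T v ∧ vertexDegree T v ≤ D') ∧ (skeleton T).Connected ∧
        ∀ i : ℕ, i < d → ∀ f : Finset (Fin n) → ZMod 2, ∃ b : Finset (Fin n) → ZMod 2,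
          IsCoboundaryClass i b ∧
            ε * cochainNorm d T i (f - b) ≤ cochainNorm d T (i + 1) (coboundary i f) := by
  refine ⟨2 ^ m * D, 1 / ((2 ^ m * D * C * D : ℕ) * (2 ^ (d + 1) : ℕ) + 1), by positivity, ?_⟩
  intro I G _ _ _ _ Γ hI hΓ hD hE
  subst hI
  obtain ⟨n, vx, h⟩ := Real.exists_num hΓ
  obtain ⟨a₀⟩ : Nonempty I := Fintype.card_pos_iff.1 (by omega)
  refine ⟨n, Real.tops vx d, h.card_le hD a₀, fun τ hτ => ?_, fun v => ⟨?_, h.vertexDegree_le hD d v⟩,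
    h.connected hd hm (hE 1 le_rfl hd), fun i hi f => ?_⟩
  · obtain ⟨K, q, hK, rfl⟩ := Real.mem_tops.1 hτ
    rw [h.card_face, hK]
  · obtain ⟨c, q, rfl⟩ := h.surj v
    obtain ⟨τ, h1, h2⟩ := Real.exists_top (vx := vx) hm (K := {c}) (by simp) q
    exact card_pos.2 ⟨τ, mem_filter.2 ⟨h1, h2 (h.mem_face.2 (by simp))⟩⟩
  · obtain ⟨b, hb, hb'⟩ := hE (i + 1) (by omega) hi _ (h.inv_face f)
    obtain ⟨b', h1, h2⟩ := h.exists_cob hb i
    refine ⟨b', h1, ?_⟩
    have h3 := h.wt_le hD d i (f := f - b')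
      (c := (fun K q => f (Real.face vx K q)) + dl b) fun K q hK => by
        rw [Pi.sub_apply, h2 K q hK, CharTwo.sub_eq_add]; rfl
    have h4 := h.le_wt hD hm hi (f := coboundary i f)
      (c := dl fun K q => f (Real.face vx K q)) fun K q hK => h.coboundary_face f hK q
    have h5 : Real.wt (Real.tops vx d) i (f - b') ≤ 2 ^ Fintype.card I * D * C * D *
        Real.wt (Real.tops vx d) (i + 1) (coboundary i f) := by
      refine h3.trans ((Nat.mul_le_mul_left _ (hb'.trans (Nat.mul_le_mul_left _ h4))).trans ?_)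
      exact le_of_eq (by rw [Nat.succ_eq_add_one]; ring)
    rw [Real.norm_eq, Real.norm_eq]
    refine Real.arith (Nat.cast_nonneg _) (Nat.cast_nonneg _) (by exact_mod_cast h5) ?_ ?_ ?_
      (Nat.cast_nonneg _)
    · exact_mod_cast Nat.choose_pos (by omega)
    · exact_mod_cast Nat.choose_pos (by omega)
    · exact_mod_cast Nat.choose_le_two_pow _ _

end

end Crest.Agent.R66
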