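import Crest.Agent.R66.Und

/-! Row 66: heights and bad vertices. -/

set_option autoImplicit false
set_option linter.unusedSectionVars false

namespace Crest.Agent.R66

open Finset Matrix
open scoped Classical

noncomputable section

variable {F R : Type} [Field F] [CommRing R] [Algebra F R] [Finite R] {P : Par F R} {N : ℕ}
  {D : Finset (Fin N)} {θ : Module.Dual F (Fin N → R)} {m c c₀ : Fin N} {q q₀ u : Iw P N}

lemma See.mono {ℓ ℓ' : ℕ} (h : See D θ m ℓ q) (hl : ℓ ≤ ℓ') : See D θ m ℓ' q := by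
  obtain ⟨j, h1, h2, h3⟩ := h
  exact ⟨j, h1, h2.trans hl, h3⟩

lemma XL.mono {L L' : ℕ} (h : XL D θ m L c q) (hl : L ≤ L') : XL D θ m L' c q := by
  obtain ⟨ℓ, h1, h2⟩ := h
  exact ⟨ℓ, h1.trans hl, h2⟩

lemma see_Hc (hu : u ∈ Fam P D D {c}) : u ∈ Hc P c := (mem_Fam.1 hu).2 c (mem_singleton_self c)

lemma bv_eq {j : ℕ} {i : Fin N} (hi : j % N = i) :
    bv P D j = if i ∈ D then Pi.single i (P.t ^ (j / N)) else 0 := by
  funext l
  by_cases hl : l = i
  · subst hl
    by_cases h : l ∈ D <;> simp [bv, h, hi]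
  · rw [bv, if_neg fun h => hl (Fin.ext (h.2.symm.trans hi))]
    split_ifs <;> simp [hl]

lemma see_shift {i k : Fin N} (h : rk c i ≤ rk c k) {j : ℕ} (hi : j % N = i) :
    (j + (rk c k - rk c i)) % N = k ∧
      (j + (rk c k - rk c i)) / N = j / N + if k < i then 1 else 0 := by
  have hN := i.pos
  have h1 := Nat.div_add_mod j N
  rw [hi] at h1
  have : j + (rk c k - rk c i) = k + N * (j / N + if k < i then 1 else 0) := by
    have := i.2; have := k.2; have := c.2
    rw [mul_add]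
    simp only [rk, Fin.lt_def] at *
    split_ifs at * <;> omega
  rw [this, Nat.add_mul_mod_self_left, Nat.mod_eq_of_lt k.2, Nat.add_mul_div_left _ _ hN,
    Nat.div_eq_of_lt k.2, zero_add]
  exact ⟨rfl, rfl⟩

/-- `u` acts on each block `(ℓ - N, ℓ]`, `ℓ ≡ c`, of the family `bv` by `und u`.  Sketch: let
`i = j % N`.  If `i ∉ D` then `bv D j = 0`.  Otherwise `bv D j = t ^ (j / N) e i` and
`mat u *ᵥ bv D j = ∑ k, und u k i • eps k i * t ^ (j / N) e k`; only `k ∈ D` with
`rk c i ≤ rk c k` contribute, and `j' = j + (rk c k - rk c i)` has `j' % N = k`,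
`j' / N = j / N + (if k < i then 1 else 0)`. -/
theorem mulVec_bv (hu : u ∈ Fam P D D {c}) (j : ℕ) (i : Fin N) (hi : j % N = i) :
    mat u *ᵥ bv P D j = ∑ k, und u k i • bv P D (j + (rk c k - rk c i)) := by
  have hc := see_Hc hu
  by_cases hD : i ∈ D
  swap
  · simp [und_of_GG hc hu.1 (.inr hD), one_apply, bv_eq hi, hD]
  rw [bv_eq hi, if_pos hD, mulVec_single]
  funext l
  rw [Finset.sum_apply, sum_eq_single l (fun k _ hk => ?_) (by simp)]
  · simp only [MulOpposite.smul_eq_mul_unop, Pi.smul_apply, col_apply, MulOpposite.unop_op]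
    rw [mat_eq_und hc]
    rcases lt_or_ge (rk c l) (rk c i) with h | h
    · simp [und_eq_zero hc h]
    by_cases hl : l ∈ D
    · rw [bv_eq (see_shift h hi).1, if_pos hl, (see_shift h hi).2, Pi.single_eq_same, eps,
        smul_mul_assoc]
      split_ifs <;> simp [pow_succ']
    · rw [und_of_GG hc hu.1 (.inl hl), one_apply_ne (by rintro rfl; exact hl hD), zero_smul,
        zero_smul, zero_mul]
  · rcases lt_or_ge (rk c k) (rk c i) with h | h
    · simp [und_eq_zero hc h]
    rw [Pi.smul_apply, bv_eq (see_shift h hi).1]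
    split_ifs <;> simp [hk.symm]

/-- Sketch: `mulVec_bv`; `j ≤ ℓ` and `ℓ % N = c` give `j + (rk c k - rk c i) ≤ ℓ`; use `u⁻¹` for
the converse. -/
theorem see_inv (hu : u ∈ Fam P D D {c}) {ℓ : ℕ} (hl : ℓ % N = c) :
    See D θ m ℓ (q * u) ↔ See D θ m ℓ q := by
  suffices ∀ q u : Iw P N, u ∈ Fam P D D {c} → See D θ m ℓ (q * u) → See D θ m ℓ q from
    ⟨this q u hu, fun h => this _ _ (inv_mem hu) (by rwa [mul_inv_cancel_right])⟩
  rintro q u hu ⟨j, h1, h2, h3⟩
  have hN := m.pos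
  obtain ⟨i, hi⟩ : ∃ i : Fin N, j % N = i := ⟨⟨_, Nat.mod_lt j hN⟩, rfl⟩
  rw [mat_mul, ← mulVec_mulVec, mulVec_bv hu j i hi, mulVec_sum, map_sum] at h3
  obtain ⟨k, -, hk⟩ := exists_ne_zero_of_sum_ne_zero h3
  rw [mulVec_smul, map_smul] at hk
  refine ⟨_, by omega, ?_, right_ne_zero_of_smul hk⟩
  have h4 := see_shift (rk_le_self c i) hi
  have h5 := rk_le_self c k
  have h6 := rk_lt c c
  refine le_trans (by omega : _ ≤ j + (rk c c - rk c i)) (not_lt.1 fun h => ?_)
  have := Nat.le_of_dvd (by omega) ((Nat.modEq_iff_dvd' h.le).1 (hl.trans h4.1.symm))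
  omega

theorem xl_inv (hu : u ∈ Fam P D D {c}) (L : ℕ) : XL D θ m L c (q * u) ↔ XL D θ m L c q := by
  exact exists_congr fun _ => and_congr_right fun _ => and_congr_right fun h => see_inv hu h

lemma mulVec_window (hu : u ∈ Hc P c) {i : Fin N} (h : rk c m ≤ rk c i) :
    mat u *ᵥ Pi.single i (eps P i m) = ∑ k, und u k i • Pi.single k (eps P k m) := by
  rw [mulVec_single]
  funext l
  rw [Finset.sum_apply, sum_eq_single l (fun k _ hk => by simp [hk.symm]) (by simp)]
  simp only [MulOpposite.smul_eq_mul_unop, Pi.smul_apply, col_apply, MulOpposite.unop_op,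
    Pi.single_eq_same]
  rw [mat_eq_und hu]
  rcases lt_or_ge (rk c l) (rk c i) with h' | h'
  · simp [und_eq_zero hu h']
  · rw [smul_mul_assoc, eps_mul P h' h]

/-- Sketch: `mat u *ᵥ Pi.single i (eps i m) = ∑ k, und u k i • Pi.single k (eps k m)` for
`rk c m < rk c i` (`eps_mul`). -/
theorem bad_inv (hu : u ∈ Fam P D D {c}) : Bad D θ m c (q * u) ↔ Bad D θ m c q := by
  suffices ∀ q u : Iw P N, u ∈ Fam P D D {c} → Bad D θ m c q → Bad D θ m c (q * u) from
    ⟨fun h => by simpa using this _ _ (inv_mem hu) h, this q u hu⟩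
  intro q u hu h i hi hr
  have hc := see_Hc hu
  rw [mat_mul, ← mulVec_mulVec, mulVec_window hc hr.le, mulVec_sum, map_sum]
  refine sum_eq_zero fun k _ => ?_
  rw [mulVec_smul, map_smul]
  rcases lt_or_ge (rk c k) (rk c i) with h' | h'
  · rw [und_eq_zero hc h', zero_smul]
  by_cases hk : k ∈ D
  · rw [h k hk (hr.trans_le h'), smul_zero]
  · rw [und_of_GG hc hu.1 (.inl hk), one_apply_ne (by rintro rfl; exact hk hi), zero_smul]

/-- Sketch: for `m < j < m + N`, `i = j % N ∈ D` we have `bv D j = Pi.single i (eps i m)`; the only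
relevant `ℓ` is `m + 1 + rk m c`, and `j ≤ ℓ` iff `rk c m < rk c i`. -/
theorem xl_base (hc : c ≠ m) : XL D θ m (m + N) c q ↔ ¬ Bad D θ m c q := by
  have hN := m.pos
  have hm := m.2
  have hc2 := c.2
  have key : ∀ i : Fin N, i ≠ m → (m + 1 + rk m i) % N = i ∧
      P.t ^ ((m + 1 + rk m i) / N) = eps P i m := fun i hi => by
    have hi2 := i.2
    have : m + 1 + rk m i = i + N * if i < m then 1 else 0 := by
      simp only [rk, Fin.lt_def, ne_eq, Fin.ext_iff] at *
      split_ifs <;> omega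
    rw [this, Nat.add_mul_mod_self_left, Nat.mod_eq_of_lt i.2, Nat.add_mul_div_left _ _ hN,
      Nat.div_eq_of_lt i.2, zero_add, eps]
    split_ifs <;> simp
  have key' : ∀ (j : ℕ) (i : Fin N), m < j → j ≤ m + N → j % N = i → j = m + 1 + rk m i := by
    intro j i h1 h2 h3
    have hi2 := i.2
    rcases lt_or_ge j N with h | h
    · rw [Nat.mod_eq_of_lt h] at h3
      simp only [rk]
      split_ifs <;> omega
    · rw [Nat.mod_eq_sub_mod h, Nat.mod_eq_of_lt (by omega)] at h3
      simp only [rk]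
      split_ifs <;> omega
  have hr : ∀ i : Fin N, rk c m < rk c i ↔ rk m i ≤ rk m c := fun i => by
    have hi2 := i.2
    simp only [rk, ne_eq, Fin.ext_iff] at *
    split_ifs <;> omega
  have hr' : ∀ i : Fin N, rk m i ≤ rk m c → i ≠ m := fun i h => by
    rintro rfl
    exact hc (rk_inj (le_antisymm (rk_le_self _ _) h))
  simp only [Bad, not_forall]
  constructor
  · rintro ⟨ℓ, h1, h2, j, h3, h4, h5⟩
    obtain ⟨i, hi⟩ : ∃ i : Fin N, j % N = i := ⟨⟨_, Nat.mod_lt j hN⟩, rfl⟩
    have h6 := key' ℓ c (by omega) h1 h2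
    have h7 := key' j i h3 (by omega) hi
    have h8 : rk m i ≤ rk m c := by omega
    rw [bv_eq hi] at h5
    by_cases hD : i ∈ D
    · rw [if_pos hD, h7, (key i (hr' i h8)).2] at h5
      exact ⟨i, hD, (hr i).2 h8, h5⟩
    · simp [hD] at h5
  · rintro ⟨i, hD, h1, h2⟩
    have h3 := (hr i).1 h1
    have h4 := rk_lt m c
    refine ⟨_, by omega, (key c hc).1, m + 1 + rk m i, by omega, by omega, ?_⟩
    rwa [bv_eq (key i (hr' i h3)).1, if_pos hD, (key i (hr' i h3)).2]

end

end Crest.Agent.R66
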