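import Crest.Agent.R66.Und

/-! Row 66: the vertices of links. -/

set_option autoImplicit false
set_option linter.unusedSectionVars false

namespace Crest.Agent.R66

open Finset Matrix
open scoped Classical

noncomputable section

variable {F R : Type} [Field F] [CommRing R] [Algebra F R] [Finite R] {P : Par F R} {N : ℕ}
  {D : Finset (Fin N)} {c₀ c c' : Fin N} {u u' : Iw P N}

theorem mem_Ys {y : Fin N → F} :
    y ∈ Ys F D c₀ c ↔ ∀ i, ¬ (i ∈ D ∧ rk c₀ i ≤ rk c₀ c) → y i = 0 := Iff.rfl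

theorem mem_Fs {k : ℕ} {y : Fin N → F} : y ∈ Fs F D c₀ k ↔ ∀ i ∈ D, rk c₀ i < k → y i = 0 :=
  Iff.rfl

lemma vt_und_mul_inv (hu : u ∈ Hc P c₀) : und u * und u⁻¹ = 1 := by
  rw [← und_mul hu (inv_mem hu), mul_inv_cancel, und_one]

lemma vt_und_inv_mul (hu : u ∈ Hc P c₀) : und u⁻¹ * und u = 1 := by
  rw [← und_mul (inv_mem hu) hu, inv_mul_cancel, und_one]

lemma vt_inj (hu : u ∈ Hc P c₀) : Function.Injective (toLin' (und u)) := by
  refine Function.LeftInverse.injective (g := toLin' (und u⁻¹)) fun y => ?_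
  rw [← LinearMap.comp_apply, ← toLin'_mul, vt_und_inv_mul hu, toLin'_one, LinearMap.id_apply]

lemma vt_surj (hu : u ∈ Hc P c₀) : Function.Surjective (toLin' (und u)) := by
  refine Function.RightInverse.surjective (g := toLin' (und u⁻¹)) fun y => ?_
  rw [← LinearMap.comp_apply, ← toLin'_mul, vt_und_mul_inv hu, toLin'_one, LinearMap.id_apply]

lemma vt_finrank_map (hu : u ∈ Hc P c₀) (S : Submodule F (Fin N → F)) :
    Module.finrank F (S.map (toLin' (und u))) = Module.finrank F S :=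
  (Submodule.equivMapOfInjective _ (vt_inj hu) S).finrank_eq.symm

lemma vt_map_eq (hu : u ∈ Hc P c₀) {S : Submodule F (Fin N → F)}
    (h : ∀ y ∈ S, und u *ᵥ y ∈ S) : S.map (toLin' (und u)) = S := by
  refine Submodule.eq_of_le_of_finrank_eq ?_ (vt_finrank_map hu S)
  rintro _ ⟨y, hy, rfl⟩
  rw [toLin'_apply]
  exact h y hy

lemma vt_apply_of_notMem (hu : u ∈ Hc P c₀) (hu' : u ∈ GG P D D) {i : Fin N} (hi : i ∉ D)
    (y : Fin N → F) : (und u *ᵥ y) i = y i := by
  have : (und u *ᵥ y) i = ((1 : Matrix (Fin N) (Fin N) F) *ᵥ y) i := by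
    simp only [mulVec, dotProduct]
    exact sum_congr rfl fun j _ => by rw [und_of_GG hu hu' (.inl hi)]
  rw [this, one_mulVec]

lemma vt_rk_iff {i j : Fin N} (h : rk c₀ j < rk c₀ i) :
    rk c j < rk c i ↔ ¬ (rk c₀ j ≤ rk c₀ c ∧ rk c₀ c < rk c₀ i) := by
  have := i.2; have := j.2; have := c.2; have := c₀.2
  simp only [rk] at *
  split_ifs at * <;> omega

theorem finrank_Ys : Module.finrank F (Ys F D c₀ c) = #{i ∈ D | rk c₀ i ≤ rk c₀ c} := by
  set S : Finset (Fin N) := {i ∈ D | rk c₀ i ≤ rk c₀ c} with hS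
  let e : Ys F D c₀ c ≃ₗ[F] (S → F) :=
    { toFun := fun y i => y.1 i
      map_add' := fun _ _ => rfl
      map_smul' := fun _ _ => rfl
      invFun := fun z => ⟨fun i => if h : i ∈ S then z ⟨i, h⟩ else 0, fun i hi =>
        dif_neg (by simpa [hS] using hi)⟩
      left_inv := fun y => by
        ext i
        by_cases h : i ∈ S
        · simp [h]
        · simp only [h, dif_neg, not_false_eq_true]
          exact (y.2 i (by simpa [hS] using h)).symm
      right_inv := fun z => by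
        ext i
        simp [i.2] }
  rw [e.finrank_eq, Module.finrank_fintype_fun_eq_card, Fintype.card_coe]

theorem vt_one : vt D c₀ c (1 : Iw P N) = Ys F D c₀ c := by
  rw [vt, und_one, toLin'_one, Submodule.map_id]

theorem vt_mul (hu : u ∈ Hc P c₀) (hu' : u' ∈ Hc P c₀) :
    vt D c₀ c (u * u') = (vt D c₀ c u').map (toLin' (und u)) := by
  rw [vt, vt, und_mul hu hu', toLin'_mul, Submodule.map_comp]

theorem finrank_vt (hu : u ∈ Hc P c₀) :
    Module.finrank F (vt D c₀ c u) = #{i ∈ D | rk c₀ i ≤ rk c₀ c} := by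
  rw [vt, vt_finrank_map hu, finrank_Ys]

theorem vt_mono (h : rk c₀ c ≤ rk c₀ c') : vt D c₀ c u ≤ vt D c₀ c' u := by
  refine Submodule.map_mono fun y hy => mem_Ys.2 fun i hi => mem_Ys.1 hy i fun hi' => hi ?_
  exact ⟨hi'.1, hi'.2.trans h⟩

theorem vt_top (hu : u ∈ Fam P D D {c₀}) : vt D c₀ c₀ u = Ys F D c₀ c₀ := by
  obtain ⟨hg, hc⟩ := mem_Fam.1 hu
  have hc := hc c₀ (mem_singleton_self _)
  refine vt_map_eq hc fun y hy => mem_Ys.2 fun i hi => ?_
  have hi' : i ∉ D := fun h => hi ⟨h, rk_le_self _ _⟩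
  rw [vt_apply_of_notMem hc hg hi', mem_Ys.1 hy i hi]

/-- The opposite flag is invariant. -/
theorem map_Fs (hu : u ∈ Fam P D D {c₀}) (k : ℕ) :
    (Fs F D c₀ k).map (toLin' (und u)) = Fs F D c₀ k := by
  obtain ⟨hg, hc⟩ := mem_Fam.1 hu
  have hc := hc c₀ (mem_singleton_self _)
  refine vt_map_eq hc fun y hy => mem_Fs.2 fun i hi hk => ?_
  simp only [mulVec, dotProduct]
  refine sum_eq_zero fun j _ => ?_
  by_cases hj : j ∈ D
  · rcases lt_or_ge (rk c₀ i) (rk c₀ j) with h | h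
    · rw [und_eq_zero hc h, zero_mul]
    · rw [mem_Fs.1 hy j hj (h.trans_lt hk), mul_zero]
  · rw [und_of_GG hc hg (.inr hj), one_apply_ne (by rintro rfl; exact hj hi), zero_mul]

/-- Sketch: true for `u = 1` (compare `k` with `rk c₀ c + 1`); transport by `map_Fs`. -/
theorem vt_good (hu : u ∈ Fam P D D {c₀}) : Good (Fss F D c₀) (vt D c₀ c u) := by
  have hc := (mem_Fam.1 hu).2 c₀ (mem_singleton_self _)
  intro E hE
  obtain ⟨k, -, rfl⟩ := mem_image.1 hE
  rw [← map_Fs hu k, vt, ← Submodule.map_inf _ (vt_inj hc), ← Submodule.map_sup]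
  rcases lt_or_ge (rk c₀ c) k with h | h
  · left
    have : Ys F D c₀ c ⊓ Fs F D c₀ k = ⊥ := by
      refine eq_bot_iff.2 fun y hy => ?_
      rw [Submodule.mem_bot]
      funext i
      by_cases hi : i ∈ D ∧ rk c₀ i ≤ rk c₀ c
      · exact mem_Fs.1 hy.2 i hi.1 (hi.2.trans_lt h)
      · exact mem_Ys.1 hy.1 i hi
    rw [this, Submodule.map_bot]
  · right
    have : Ys F D c₀ c ⊔ Fs F D c₀ k = ⊤ := by
      refine eq_top_iff.2 fun y _ => Submodule.mem_sup.2
        ⟨fun i => if i ∈ D ∧ rk c₀ i ≤ rk c₀ c then y i else 0, mem_Ys.2 fun i hi => if_neg hi,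
          fun i => if i ∈ D ∧ rk c₀ i ≤ rk c₀ c then 0 else y i,
          mem_Fs.2 fun i hi hk => if_pos ⟨hi, hk.le.trans h⟩, ?_⟩
      funext i
      simp only [Pi.add_apply]
      split_ifs <;> simp
    rw [this, Submodule.map_top, LinearMap.range_eq_top.2 (vt_surj hc)]

lemma vt_eq_Ys_iff (hu : u ∈ Fam P D D {c₀}) : vt D c₀ c u = Ys F D c₀ c ↔ u ∈ Hc P c := by
  obtain ⟨hg, hc⟩ := mem_Fam.1 hu
  have hc := hc c₀ (mem_singleton_self _)
  constructor
  · intro h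
    refine mem_Hc.2 fun i j => ⟨fun _ => ⟨_, mat_eq_und hc i j⟩, fun hij => ?_⟩
    by_cases hD : i ∉ D ∨ j ∉ D
    · exact mem_GG.1 hg i j hD
    by_cases h0 : rk c₀ j < rk c₀ i
    swap
    · exact (mem_Hc.1 hc i j).2 h0
    rw [vt_rk_iff h0, not_not] at hij
    push Not at hD
    have hy : Pi.single j (1 : F) ∈ Ys F D c₀ c := mem_Ys.2 fun l hl =>
      Pi.single_eq_of_ne (by rintro rfl; exact hl ⟨hD.2, hij.1⟩) _
    have hy' : toLin' (und u) (Pi.single j 1) ∈ Ys F D c₀ c := by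
      rw [← h]
      exact Submodule.mem_map_of_mem hy
    have := mem_Ys.1 hy' i fun hi => absurd hi.2 (not_le.2 hij.2)
    rw [toLin'_apply, mulVec_single_one] at this
    have h1 : und u i j = 0 := this
    rw [mat_eq_und hc, h1, zero_smul, one_apply_ne (by rintro rfl; exact lt_irrefl _ h0)]
  · intro h
    refine vt_map_eq hc fun y hy => mem_Ys.2 fun i hi => ?_
    by_cases hiD : i ∈ D
    swap
    · rw [vt_apply_of_notMem hc hg hiD, mem_Ys.1 hy i hi]
    have hi' : rk c₀ c < rk c₀ i := not_le.1 fun h => hi ⟨hiD, h⟩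
    simp only [mulVec, dotProduct]
    refine sum_eq_zero fun j _ => ?_
    by_cases hj : j ∈ D ∧ rk c₀ j ≤ rk c₀ c
    · have h0 : rk c₀ j < rk c₀ i := hj.2.trans_lt hi'
      have h1 : ¬ rk c j < rk c i := fun h1 => (vt_rk_iff h0).1 h1 ⟨hj.2, hi'⟩
      have h2 : rk c i ≠ rk c j := fun h2 => by
        obtain rfl := rk_inj h2
        exact lt_irrefl _ h0
      rw [und_eq_zero h (lt_of_le_of_ne (not_lt.1 h1) h2), zero_mul]
    · rw [mem_Ys.1 hy j hj, mul_zero]

/-- Sketch: reduce to `u = 1`; `w ∈ Hc c₀` lies in `Hc c` iff the entries `(i, j)` with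
`rk c₀ j ≤ rk c₀ c < rk c₀ i` vanish (for `rk c₀ j < rk c₀ i` one has
`rk c j < rk c i ↔ ¬ (rk c₀ j ≤ rk c₀ c ∧ rk c₀ c < rk c₀ i)`), iff `und w` maps `Ys` into itself. -/
theorem vt_eq_iff (hu : u ∈ Fam P D D {c₀}) (hu' : u' ∈ Fam P D D {c₀}) :
    vt D c₀ c u = vt D c₀ c u' ↔ u⁻¹ * u' ∈ Hc P c := by
  have hc := (mem_Fam.1 hu).2 c₀ (mem_singleton_self _)
  have hw : u⁻¹ * u' ∈ Fam P D D {c₀} := mul_mem (inv_mem hu) hu'
  have hw' := (mem_Fam.1 hw).2 c₀ (mem_singleton_self _)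
  have h1 : vt D c₀ c u' = (vt D c₀ c (u⁻¹ * u')).map (toLin' (und u)) := by
    rw [← vt_mul hc hw', mul_inv_cancel_left]
  rw [← vt_eq_Ys_iff hw, h1, vt]
  exact ⟨fun h => (Submodule.map_injective_of_injective (vt_inj hc) h).symm, fun h => by rw [h]⟩

end

end Crest.Agent.R66
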