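import Crest.Agent.R66.See
import Crest.Agent.R66.Vt

/-! Row 66: heights and bad vertices seen from a link. -/

set_option autoImplicit false
set_option linter.unusedSectionVars false

namespace Crest.Agent.R66

open Finset Matrix
open scoped Classical

noncomputable section

variable {F R : Type} [Field F] [CommRing R] [Algebra F R] [Finite R] {P : Par F R} {N : ℕ}
  {D : Finset (Fin N)} {θ : Module.Dual F (Fin N → R)} {m c c₀ : Fin N} {q q₀ u : Iw P N}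

section aux
variable {Λ : Type} [AddCommGroup Λ] [Module F Λ] {Y Fm : Submodule F Λ} {ϑ : Module.Dual F Λ}

lemma seel_sup (h : Y ⊔ Fm = ⊤) (h' : ¬ Y ⊓ Fm ≤ LinearMap.ker ϑ) :
    Y ⊔ Fm ⊓ LinearMap.ker ϑ = ⊤ := by
  obtain ⟨y, hy, hy'⟩ := SetLike.not_le_iff_exists.1 h'
  rw [eq_top_iff, ← h]
  refine sup_le le_sup_left fun f hf => Submodule.mem_sup.2
    ⟨(ϑ f / ϑ y) • y, Y.smul_mem _ hy.1, f - (ϑ f / ϑ y) • y,
      ⟨Fm.sub_mem hf (Fm.smul_mem _ hy.2), ?_⟩, by simp⟩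
  simp [div_mul_cancel₀ _ (show ϑ y ≠ 0 from hy')]

lemma seel_good (h0 : ¬ Fm ≤ LinearMap.ker ϑ) (h : Y ⊔ Fm = ⊤) (h1 : Y ⊓ Fm ≠ ⊥) :
    Good {Fm ⊓ LinearMap.ker ϑ} Y ↔ ¬ Y ⊓ Fm ≤ LinearMap.ker ϑ := by
  simp only [Good, mem_singleton, forall_eq]
  refine ⟨?_, fun h' => .inr (seel_sup h h')⟩
  rintro (h2 | h2) h3
  · exact h1 (eq_bot_iff.2 (h2 ▸ le_inf inf_le_left (le_inf inf_le_right h3)))
  · refine h0 fun f hf => ?_
    obtain ⟨y, hy, e, he, rfl⟩ := Submodule.mem_sup.1 (h2 ▸ Submodule.mem_top (x := f))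
    exact add_mem (h3 ⟨hy, by simpa using Fm.sub_mem hf he.1⟩) he.2

end aux

lemma seel_le_ker (M : Matrix (Fin N) (Fin N) F) (ϑ : Module.Dual F (Fin N → F)) (k : ℕ) :
    (Ys F D c₀ c ⊓ Fs F D c₀ k).map (toLin' M) ≤ LinearMap.ker ϑ ↔
      ∀ i ∈ D, k ≤ rk c₀ i → rk c₀ i ≤ rk c₀ c → ϑ (M *ᵥ Pi.single i 1) = 0 := by
  refine ⟨fun h i hi h1 h2 => h ⟨Pi.single i 1, ⟨fun j hj => ?_, fun j _ hj => ?_⟩, rfl⟩, ?_⟩
  · exact Pi.single_eq_of_ne (by rintro rfl; exact hj ⟨hi, h2⟩) _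
  · exact Pi.single_eq_of_ne (by rintro rfl; omega) _
  rintro h _ ⟨y, ⟨h1, h2⟩, rfl⟩
  rw [LinearMap.mem_ker, toLin'_apply, pi_eq_sum_univ' y, mulVec_sum, map_sum]
  refine sum_eq_zero fun i _ => ?_
  rw [mulVec_smul, map_smul]
  by_cases hi : i ∈ D ∧ rk c₀ i ≤ rk c₀ c
  · rcases lt_or_ge (rk c₀ i) k with h' | h'
    · rw [h2 i hi.1 h', zero_smul]
    · convert smul_zero (y i)
      exact h i hi.1 h' hi.2
  · rw [h1 i hi, zero_smul]

lemma seel_bij (hu : u ∈ Hc P c₀) : Function.Bijective (toLin' (und u)) := by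
  have h1 := und_mul (inv_mem hu) hu
  have h2 := und_mul hu (inv_mem hu)
  rw [inv_mul_cancel, und_one] at h1
  rw [mul_inv_cancel, und_one] at h2
  exact Function.bijective_iff_has_inverse.2 ⟨toLin' (und u⁻¹),
    fun y => by simp [← h1], fun y => by simp [← h2]⟩

lemma seel_inf (hu : u ∈ Fam P D D {c₀}) (k : ℕ) : vt D c₀ c u ⊓ Fs F D c₀ k =
    (Ys F D c₀ c ⊓ Fs F D c₀ k).map (toLin' (und u)) := by
  rw [Submodule.map_inf _ (seel_bij (see_Hc hu)).1, map_Fs hu, vt]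

lemma seel_Ys_sup {k : ℕ} (h : k ≤ rk c₀ c + 1) : Ys F D c₀ c ⊔ Fs F D c₀ k = ⊤ := by
  refine eq_top_iff.2 fun y _ => Submodule.mem_sup.2
    ⟨fun i => if i ∈ D ∧ rk c₀ i ≤ rk c₀ c then y i else 0, fun i hi => if_neg hi,
      fun i => if i ∈ D ∧ rk c₀ i ≤ rk c₀ c then 0 else y i, fun i hi h' => if_pos ⟨hi, by omega⟩, ?_⟩
  funext i
  simp only [Pi.add_apply]
  split_ifs <;> simp

lemma seel_vt_sup (hu : u ∈ Fam P D D {c₀}) {k : ℕ} (h : k ≤ rk c₀ c + 1) :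
    vt D c₀ c u ⊔ Fs F D c₀ k = ⊤ := by
  rw [← map_Fs hu, vt, ← Submodule.map_sup, seel_Ys_sup h, Submodule.map_top,
    LinearMap.range_eq_top.2 (seel_bij (see_Hc hu)).2]

lemma seel_ne_bot (hu : u ∈ Fam P D D {c₀}) (hc : c ∈ D) {k : ℕ} (h : k ≤ rk c₀ c) :
    vt D c₀ c u ⊓ Fs F D c₀ k ≠ ⊥ := by
  rw [seel_inf hu, ne_eq, ← LinearMap.le_ker_iff_map,
    LinearMap.ker_eq_bot.2 (seel_bij (see_Hc hu)).1, le_bot_iff]
  intro h'
  have : (Pi.single c 1 : Fin N → F) ∈ Ys F D c₀ c ⊓ Fs F D c₀ k :=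
    ⟨fun j hj => Pi.single_eq_of_ne (by rintro rfl; exact hj ⟨hc, le_rfl⟩) _,
      fun j _ hj => Pi.single_eq_of_ne (by rintro rfl; omega) _⟩
  rw [h', Submodule.mem_bot] at this
  simpa using congrFun this c

lemma seel_one (hu : (1 : Iw P N) ∈ Fam P D D {c₀}) {ϑ : Module.Dual F (Fin N → F)} {k : ℕ}
    {i : Fin N} (hi : i ∈ D) (hk : k ≤ rk c₀ i) (h : ϑ (Pi.single i 1) ≠ 0) :
    ¬ Ys F D c₀ c₀ ⊓ Fs F D c₀ k ≤ LinearMap.ker ϑ := by
  rw [← vt_one (P := P), seel_inf hu, seel_le_ker]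
  exact fun h' => h (by simpa only [und_one, one_mulVec] using h' i hi hk (rk_le_self _ _))

/-- Sketch: `E = ker ϑ` with `ϑ y = θ (mat q₀ *ᵥ ∑ i, y i • bv D (L - N + 1 + rk c₀ i))`, a
functional that kills the coordinates outside `D` and does not vanish on `Ys c₀` (`h1`, `h2`).
`XL (L - 1) c (q₀ * u)` iff `See (L - N + 1 + rk c₀ c) (q₀ * u)` (`See.mono`) iff `ϑ` does not vanish
on `vt c u` (`see_inv` at `L - N`, `mulVec_bv`).  For a nonzero `Y` and a hyperplane `E`,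
`Y ⊓ E = ⊥ ∨ Y ⊔ E = ⊤` iff `¬ Y ≤ E`. -/
theorem link_see {L : ℕ} (hL : m + N < L) (hc₀ : L % N = c₀) (h1 : See D θ m L q₀)
    (h2 : ¬ See D θ m (L - N) q₀) : ∃ E : Submodule F (Fin N → F), Ys F D c₀ c₀ ⊔ E = ⊤ ∧
      ∀ u ∈ Fam P D D {c₀}, ∀ c ∈ D, c ≠ c₀ →
        (XL D θ m (L - 1) c (q₀ * u) ↔ Good {E} (vt D c₀ c u)) := by
  have hN := m.pos
  have hc₀' : (L - N) % N = c₀ := by rw [← hc₀, ← Nat.mod_eq_sub_mod (by omega)]
  have hmod : ∀ i : Fin N, (L - N + 1 + rk c₀ i) % N = i := fun i => by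
    have h3 := Nat.div_add_mod (L - N) N
    have : L - N + 1 + rk c₀ i = i + N * ((L - N) / N + if c₀ < i then 0 else 1) := by
      have := i.2; have := c₀.2
      rw [mul_add]
      simp only [rk, Fin.lt_def]
      split_ifs <;> omega
    rw [this, Nat.add_mul_mod_self_left, Nat.mod_eq_of_lt i.2]
  have hj : ∀ (j : ℕ) (i : Fin N), L - N < j → j ≤ L → j % N = i → j = L - N + 1 + rk c₀ i := by
    intro j i h3 h4 h5
    have := rk_lt c₀ i
    exact Nat.ModEq.eq_of_abs_lt (h5.trans (hmod i).symm) (abs_lt.2 ⟨by omega, by omega⟩)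
  set ϑ : Module.Dual F (Fin N → F) :=
    Fintype.linearCombination F fun i => θ (mat q₀ *ᵥ bv P D (L - N + 1 + rk c₀ i)) with hϑ
  have hϑ' : ∀ u ∈ Fam P D D {c₀}, ∀ i, ϑ (und u *ᵥ Pi.single i 1) =
      θ (mat (q₀ * u) *ᵥ bv P D (L - N + 1 + rk c₀ i)) := fun u hu i => by
    rw [mat_mul, ← mulVec_mulVec, mulVec_bv hu _ i (hmod i), mulVec_sum, map_sum, hϑ,
      Fintype.linearCombination_apply]
    refine sum_congr rfl fun k _ => ?_
    rw [mulVec_smul, map_smul, mulVec_single_one, col_apply]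
    rcases lt_or_ge (rk c₀ k) (rk c₀ i) with h | h
    · simp [und_eq_zero (see_Hc hu) h]
    · rw [add_assoc _ (rk c₀ i), Nat.add_sub_cancel' h]
  have key : ∀ u ∈ Fam P D D {c₀}, ∀ c, See D θ m (L - N + 1 + rk c₀ c) (q₀ * u) ↔
      ¬ vt D c₀ c u ⊓ Fs F D c₀ 0 ≤ LinearMap.ker ϑ := fun u hu c => by
    rw [seel_inf hu, seel_le_ker]
    simp only [hϑ' u hu, not_forall]
    constructor
    · rintro ⟨j, h3, h4, h5⟩
      have h6 : L - N < j := not_le.1 fun h => h2 ((see_inv hu hc₀').1 ⟨j, h3, h, h5⟩)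
      obtain ⟨i, hi⟩ : ∃ i : Fin N, j % N = i := ⟨⟨_, Nat.mod_lt j hN⟩, rfl⟩
      have := rk_lt c₀ c
      have h7 := hj j i h6 (by omega) hi
      refine ⟨i, by_contra fun hD => ?_, Nat.zero_le _, by omega, h7 ▸ h5⟩
      simp [bv_eq hi, hD] at h5
    · rintro ⟨i, -, -, h3, h4⟩
      exact ⟨_, by omega, by omega, h4⟩
  have h3 : ¬ Ys F D c₀ c₀ ⊓ Fs F D c₀ 0 ≤ LinearMap.ker ϑ := by
    rw [← vt_one (P := P), ← key 1 (one_mem _), mul_one]
    refine h1.mono ?_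
    have := c₀.2
    simp only [rk, lt_irrefl, if_false]
    omega
  refine ⟨Fs F D c₀ 0 ⊓ LinearMap.ker ϑ, seel_sup (seel_Ys_sup (Nat.zero_le _)) h3,
    fun u hu c hc hcc => ?_⟩
  rw [seel_good (fun h => h3 (inf_le_right.trans h)) (seel_vt_sup hu (Nat.zero_le _))
    (seel_ne_bot hu hc (Nat.zero_le _)), ← key u hu]
  have h4 : rk c₀ c < rk c₀ c₀ := (rk_le_self _ _).lt_of_ne fun h => hcc (rk_inj h)
  have h5 := rk_lt c₀ c₀
  refine ⟨fun ⟨ℓ, h6, h7, h8⟩ => h8.mono ?_, fun h => ⟨_, by omega, hmod c, h⟩⟩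
  rcases lt_or_ge (L - N) ℓ with h | h
  · exact (hj ℓ c h (by omega) h7).le
  · omega

/-- Sketch: `E = Fm ⊓ ker ϑ` with `Fm = Fs D c₀ (rk c₀ m)` and
`ϑ y = θ (mat q₀ *ᵥ fun i => if i ∈ D then y i • eps i m else 0)`, which does not vanish on `Fm`.
If `rk c₀ c < rk c₀ m`, the window of `c` contains that of `c₀`, so `(c, q₀ * u)` is not bad
(`bad_inv`), and `vt c u ⊓ Fm = ⊥` (`map_Fs`).  If `rk c₀ m < rk c₀ c`, the window of `c` spans
`Ys c ⊓ Fm ∋ e c`, so bad means that `ϑ` vanishes on `Y ⊓ Fm ≠ ⊥`, `Y = vt c u`, and `Y ⊔ Fm = ⊤`;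
use the modular law. -/
theorem link_bad (hm : m ∉ D) (h : ¬ Bad D θ m c₀ q₀) :
    ∃ E : Submodule F (Fin N → F), Ys F D c₀ c₀ ⊔ E = ⊤ ∧
      ∀ u ∈ Fam P D D {c₀}, ∀ c ∈ D, c ≠ c₀ →
        (¬ Bad D θ m c (q₀ * u) ↔ Good {E} (vt D c₀ c u)) := by
  set ϑ : Module.Dual F (Fin N → F) := Fintype.linearCombination F
    fun i => if i ∈ D then θ (mat q₀ *ᵥ Pi.single i (eps P i m)) else 0 with hϑ
  have hϑ' : ∀ u ∈ Fam P D D {c₀}, ∀ i ∈ D, rk c₀ m ≤ rk c₀ i → ϑ (und u *ᵥ Pi.single i 1) =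
      θ (mat (q₀ * u) *ᵥ Pi.single i (eps P i m)) := fun u hu i hi h => by
    rw [mat_mul, ← mulVec_mulVec, mulVec_window (see_Hc hu) h, mulVec_sum, map_sum, hϑ,
      Fintype.linearCombination_apply]
    refine sum_congr rfl fun k _ => ?_
    rw [mulVec_smul, map_smul, mulVec_single_one, col_apply]
    split_ifs with hk
    · rfl
    · rw [und_of_GG (see_Hc hu) hu.1 (.inl hk), one_apply_ne (by rintro rfl; exact hk hi),
        zero_smul, zero_smul]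
  have h3 : ¬ Ys F D c₀ c₀ ⊓ Fs F D c₀ (rk c₀ m) ≤ LinearMap.ker ϑ := by
    simp only [Bad, not_forall] at h
    obtain ⟨i, hi, h1, h2⟩ := h
    refine seel_one (P := P) (one_mem _) hi h1.le ?_
    have := hϑ' 1 (one_mem _) i hi h1.le
    rw [und_one, one_mulVec, mul_one] at this
    exact this ▸ h2
  refine ⟨Fs F D c₀ (rk c₀ m) ⊓ LinearMap.ker ϑ,
    seel_sup (seel_Ys_sup ((rk_le_self _ _).trans (Nat.le_succ _))) h3, fun u hu c hc hcc => ?_⟩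
  have hc2 := c.2; have hc3 := c₀.2; have hm2 := m.2
  rcases lt_trichotomy (rk c₀ c) (rk c₀ m) with h1 | h1 | h1
  · refine iff_of_true (fun h' => h ((bad_inv hu).1 fun i hi h2 => h' i hi ?_)) ?_
    · have := i.2
      simp only [rk, ne_eq, Fin.ext_iff] at h1 h2 hcc ⊢
      split_ifs at * <;> omega
    · simp only [Good, mem_singleton, forall_eq]
      refine .inl ?_
      rw [← inf_assoc, seel_inf hu, show Ys F D c₀ c ⊓ Fs F D c₀ (rk c₀ m) = ⊥ from ?_,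
        Submodule.map_bot, bot_inf_eq]
      refine eq_bot_iff.2 fun y ⟨h2, h4⟩ => funext fun i => ?_
      by_cases hi : i ∈ D ∧ rk c₀ i ≤ rk c₀ c
      exacts [h4 i hi.1 (by omega), h2 i hi]
  · exact (hm (rk_inj h1 ▸ hc)).elim
  rw [seel_good (fun h => h3 (inf_le_right.trans h)) (seel_vt_sup hu (by omega))
    (seel_ne_bot hu hc h1.le), seel_inf hu, seel_le_ker]
  refine not_congr (forall₂_congr fun i hi => ?_)
  have him : i ≠ m := by rintro rfl; exact hm hi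
  have h4 : rk c m < rk c i ↔ rk c₀ m ≤ rk c₀ i ∧ rk c₀ i ≤ rk c₀ c := by
    have := i.2
    simp only [rk, ne_eq, Fin.ext_iff] at h1 him hcc ⊢
    split_ifs at * <;> omega
  rw [h4, and_imp]
  exact forall_congr' fun h5 => by rw [hϑ' u hu i hi h5]

end

end Crest.Agent.R66
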