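import Crest.Agent.R66.Basic

/-! Row 66: contractions of sets of faces of coset complexes. -/

set_option autoImplicit false
set_option linter.unusedSectionVars false

namespace Crest.Agent.R66

open Finset Matrix
open scoped Classical

noncomputable section

variable {I G A V : Type} [DecidableEq I] [Group G] [AddCommGroup A] [Module (ZMod 2) A]
  [DecidableEq V] {Γ : Finset I → Subgroup G} {U : Finset I → G → Prop} {a r : ℕ}

/-- Transfer along an isomorphism `(K, q) ↦ face K q = (K \ K₀).image (v · q)` onto `𝒦`.  Sketch: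
choose a section `s σ` of `face` on `𝒦` (`t4`); `κ K q = (κ' (face K q)).map s`; for `c` put
`f σ = c (s σ).1 (s σ).2`; then `f (face K q) = c K q` (`t5`), `face (K.erase i) q =
(face K q).erase (v i q)` (`t2`) and `sd f (face K q) = dl c K q` (`t6`, `Supp`). -/
theorem SCone.transfer {𝒦 : Finset V → Prop} (K₀ : Finset I) (v : I → G → V)
    (t0 : ∀ K q, U K q → K₀ ⊆ K)
    (t1 : ∀ K q, U K q → 𝒦 ((K \ K₀).image (v · q)))
    (t2 : ∀ K q, U K q → Set.InjOn (v · q) (K \ K₀ : Finset I))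
    (t3 : ∀ K q, U K q → ∀ γ ∈ Γ K, ∀ i ∈ K \ K₀, v i (q * γ) = v i q)
    (t4 : ∀ σ, 𝒦 σ → ∃ K q, U K q ∧ (K \ K₀).image (v · q) = σ)
    (t5 : ∀ K q K' q', U K q → U K' q' → (K \ K₀).image (v · q) = (K' \ K₀).image (v · q') →
      K = K' ∧ q⁻¹ * q' ∈ Γ K)
    (t6 : ∀ K q, U K q → ∀ i ∈ K \ K₀, U (K.erase i) q)
    (h : SCone A 𝒦 a r) : CCone A Γ U (a + #K₀) r := by
  obtain ⟨κ, hκ⟩ := h
  have : Nonempty (Finset I × G) := ⟨∅, 1⟩
  have t4' : ∀ σ, 𝒦 σ → ∃ x : Finset I × G, U x.1 x.2 ∧ (x.1 \ K₀).image (v · x.2) = σ :=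
    fun σ hσ => let ⟨K, q, h⟩ := t4 σ hσ; ⟨(K, q), h⟩
  choose! s hs hs' using t4'
  have hcard : ∀ K q, U K q → #((K \ K₀).image (v · q)) + #K₀ = #K := fun K q hU => by
    rw [card_image_of_injOn (t2 K q hU), card_sdiff_add_card_eq_card (t0 K q hU)]
  have hsum : ∀ K q, U K q → ∀ g : Finset V → A,
      ∑ x ∈ (K \ K₀).image (v · q), g (((K \ K₀).image (v · q)).erase x) =
        ∑ i ∈ K with U (K.erase i) q, g ((K.erase i \ K₀).image (v · q)) := fun K q hU g => by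
    have h1 : {i ∈ K | U (K.erase i) q} = K \ K₀ := by
      ext i
      rw [mem_filter]
      exact ⟨fun h => mem_sdiff.2 ⟨h.1, fun hi => notMem_erase i K (t0 _ _ h.2 hi)⟩,
        fun h => ⟨(mem_sdiff.1 h).1, t6 K q hU i h⟩⟩
    rw [h1, sum_image (t2 K q hU)]
    refine sum_congr rfl fun i hi => congrArg g ?_
    ext x
    simp only [erase_sdiff_comm, mem_erase, mem_image]
    constructor
    · rintro ⟨h2, j, hj, rfl⟩
      exact ⟨j, ⟨by rintro rfl; exact h2 rfl, hj⟩, rfl⟩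
    · rintro ⟨j, ⟨h2, hj⟩, rfl⟩
      exact ⟨fun h => h2 (t2 K q hU hj hi h), j, hj, rfl⟩
  refine ⟨fun K q => (κ ((K \ K₀).image (v · q))).map s, fun K q hU γ hγ => ?_,
    fun K q hU hK => ?_⟩
  · beta_reduce
    rw [image_congr fun i hi => t3 K q hU γ hγ i hi]
  have h0 := hcard K q hU
  obtain ⟨h1, h2, h3⟩ := hκ _ (t1 K q hU) (by omega)
  refine ⟨by simpa using h1, fun x hx => ?_, fun c hc hsc => ?_⟩
  · obtain ⟨τ, hτ, rfl⟩ := Multiset.mem_map.1 hx
    have h4 := hcard _ _ (hs τ (h2 τ hτ).1)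
    rw [hs' τ (h2 τ hτ).1, (h2 τ hτ).2] at h4
    exact ⟨hs τ (h2 τ hτ).1, by omega⟩
  have hf : ∀ K q, U K q → c (s ((K \ K₀).image (v · q))).1 (s ((K \ K₀).image (v · q))).2 =
      c K q := fun K q hU => by
    obtain ⟨h4, h5⟩ := t5 K q _ _ hU (hs _ (t1 K q hU)) (hs' _ (t1 K q hU)).symm
    rw [← h4, ← hc K q _ h5, mul_inv_cancel_left]
  rw [← hf K q hU, h3 fun σ => c (s σ).1 (s σ).2, hsum K q hU fun σ => pr _ (κ σ)]
  simp only [pr, Multiset.map_map, Function.comp_def]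
  congr 2
  refine Multiset.map_congr rfl fun τ hτ => ?_
  have h4 := hs τ (h2 τ hτ).1
  conv_lhs => rw [← hs' τ (h2 τ hτ).1, sd, hsum _ _ h4 fun σ => c (s σ).1 (s σ).2]
  rw [dl, sum_filter]
  refine sum_congr rfl fun i _ => ?_
  split_ifs with h5
  exacts [hf _ _ h5, (hsc _ _ h5).symm]

lemma CCone.mono {a' : ℕ} (h : CCone A Γ U a r) (ha : a' ≤ a) : CCone A Γ U a' r := by
  obtain ⟨κ, h1, h2⟩ := h
  exact ⟨κ, h1, fun K q hU hK => h2 K q hU (hK.trans ha)⟩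

/-- Sketch: `b K q = if U K q then pr (fun x => c x.1 x.2) (κ K q) else 0`. -/
theorem CCone.ex (hU : UInv Γ U) (h : CCone A Γ U a r) : Ex A Γ U a := by
  obtain ⟨κ, h1, h2⟩ := h
  refine fun c hc hs hco => ⟨res U fun K q => pr (fun x => c x.1 x.2) (κ K q),
    fun K q γ hγ => ?_, supp_res, fun K q hK hq => ?_⟩
  · by_cases h : U K q
    · rw [res_of h, res_of ((hU K q γ hγ).2 h), h1 K q h γ hγ]
    · rw [res_of_not h, res_of_not (mt (hU K q γ hγ).1 h)]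
  obtain ⟨-, h3, h4⟩ := h2 K q hq hK.le
  rw [h4 c hc hs, pr, Multiset.sum_eq_zero, zero_add, sum_filter]
  · rfl
  · intro y hy
    obtain ⟨x, hx, rfl⟩ := Multiset.mem_map.1 hy
    exact hco _ _ (hK ▸ (h3 x hx).2) (h3 x hx).1

end

end Crest.Agent.R66
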