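import Crest.Agent.R66.Angle

/-! Row 66: trickling down. -/

set_option autoImplicit false
set_option linter.unusedSectionVars false

namespace Crest.Agent.R66

open Finset Matrix
open scoped Classical

noncomputable section

variable {I G : Type} [DecidableEq I] [Group G] [Fintype I] [Fintype G] {Γ A A' B B₁ B₂ : Subgroup G}
  {l : ℝ}

/-- Generation gives an angle less than one.  Sketch: on the finite dimensional space `W` of
`B₁`-invariant `f : G → ℝ` with `av Γ f = 0` everywhere, `f ↦ f - av B₂ f` is injective (a function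
invariant under `B₁` and `B₂` is invariant under `Γ`), so `δ * ∑ q, f q ^ 2 ≤ ∑ q, (f - av B₂ f) q ^ 2`
with `0 < δ ≤ 1` (`LinearMap.exists_antilipschitzWith`, `EuclideanSpace ℝ G`), that is
`∑ (av B₂ f) ^ 2 ≤ (1 - δ) * ∑ f ^ 2`.  Apply this to `f` cut off outside the coset `q Γ`. -/
theorem exists_ang_lt_one (h₁ : B₁ ≤ Γ) (h₂ : B₂ ≤ Γ) (h : Γ ≤ B₁ ⊔ B₂) :
    ∃ γ : ℝ, 0 ≤ γ ∧ γ < 1 ∧ Ang Γ B₁ B₂ γ := by
  let S : Subgroup G := mkSub {γ | γ ∈ Γ ∧ ∃ C : ℝ, 0 ≤ C ∧ ∀ f : G → ℝ,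
      (∀ q, ∀ x ∈ B₁, f (q * x) = f q) → ∀ q, av Γ (fun x => (f (x * γ) - f x) ^ 2) q ≤
        C * av Γ ((f - av B₂ f) ^ 2) q}
    ⟨Γ.one_mem, 0, le_rfl, fun f _ q => by simp [ang_const]⟩ (by
      rintro a ⟨ha, C, hC, ha'⟩ b ⟨hb, C', hC', hb'⟩
      refine ⟨Γ.mul_mem ha hb, 2 * C + 2 * C', by positivity, fun f hf q => ?_⟩
      have h1 := ang_lin (Γ := Γ) 2 2 0 (fun x => (f (x * a) - f x) ^ 2)
        (fun x => (f (x * a * b) - f (x * a)) ^ 2) f q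
      rw [ang_shift (fun x => (f (x * b) - f x) ^ 2) q ha] at h1
      refine (ang_mono (fun x => ?_) q).trans (h1.le.trans ?_)
      · rw [← mul_assoc]; nlinarith [sq_nonneg (f (x * a * b) - 2 * f (x * a) + f x)]
      · linarith [ha' f hf q, hb' f hf q])
  have hS : Γ ≤ S := h.trans (sup_le (fun x hx => ⟨h₁ hx, 0, le_rfl, fun f hf q => by
    simp [hf _ x hx, ang_const]⟩) fun y hy => ⟨h₂ hy, 4, by norm_num, fun f hf q => by
      have h1 := ang_lin (Γ := Γ) 2 2 0 ((f - av B₂ f) ^ 2) (fun x => ((f - av B₂ f) ^ 2) (x * y)) f q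
      rw [ang_shift ((f - av B₂ f) ^ 2) q (h₂ hy)] at h1
      refine (ang_mono (fun x => ?_) q).trans (h1.le.trans (le_of_eq (by ring)))
      simp only [Pi.pow_apply, Pi.sub_apply, ang_mul_mem f x hy]
      nlinarith [sq_nonneg (f (x * y) + f x - 2 * av B₂ f x)]⟩)
  choose! C hC hC' using fun γ (hγ : γ ∈ Γ) => (hS hγ).2
  obtain ⟨E, hE⟩ : ∃ E, E = (∑ γ with γ ∈ Γ, C γ) / Nat.card Γ := ⟨_, rfl⟩
  have hE0 : 0 ≤ E := by
    rw [hE]
    exact div_nonneg (sum_nonneg fun γ hγ => hC γ (mem_filter.1 hγ).2) (ang_card_pos Γ).le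
  have hδ : 0 < 1 / (E + 1) := by positivity
  have hδ' : 1 / (E + 1) ≤ 1 := (div_le_one (by positivity)).2 (by linarith)
  refine ⟨√(1 - 1 / (E + 1)), Real.sqrt_nonneg _, (Real.sqrt_lt' one_pos).2 (by linarith), ?_⟩
  intro f g hf hg q h0
  have h1 : av Γ (f * av Γ f) q = 0 := by
    rw [ang_congr (g := fun _ => 0) fun e he => by
      rw [Pi.mul_apply, ang_mul_mem f q he, h0, mul_zero], ang_const]
  rw [ang_mul_av, div_eq_zero_iff, or_iff_left (ang_card_pos Γ).ne'] at h1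
  have h2 : ∀ γ ∈ Γ, av Γ (fun x => (f (x * γ) - f x) ^ 2) q =
      2 * av Γ (f ^ 2) q - 2 * av Γ (fun x => f x * f (x * γ)) q := fun γ hγ => by
    have := ang_lin (Γ := Γ) 1 1 (-2) (f ^ 2) (fun x => (f ^ 2) (x * γ)) (fun x => f x * f (x * γ)) q
    rw [ang_shift (f ^ 2) q hγ] at this
    refine Eq.trans (congrArg (fun φ => av Γ φ q) (funext fun x => ?_)) (this.trans (by ring))
    simp only [Pi.pow_apply]; ring
  have h3 := sum_le_sum fun γ (hγ : γ ∈ univ.filter (· ∈ Γ)) => hC' γ (mem_filter.1 hγ).2 f hf q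
  rw [sum_congr rfl fun γ hγ => h2 γ (mem_filter.1 hγ).2, sum_sub_distrib, ← mul_sum, ← mul_sum,
    h1, ← sum_mul, ang_pyth h₂] at h3
  have h4 : (∑ γ with γ ∈ Γ, av Γ (f ^ 2) q) / Nat.card Γ = av Γ (f ^ 2) q := ang_const (Γ := Γ) _ 1
  have h5 := ang_card_pos Γ
  rw [div_eq_iff h5.ne'] at h4
  rw [eq_div_iff h5.ne'] at hE
  rw [h4, ← hE] at h3
  have h6 := ang_sq_nonneg (Γ := Γ) f q
  have h7 : 2 * av Γ (f ^ 2) q ≤ E * (av Γ (f ^ 2) q - av Γ (av B₂ f ^ 2) q) :=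
    le_of_mul_le_mul_right (by linarith) h5
  have h8 : av Γ (av B₂ f ^ 2) q ≤ av Γ (f ^ 2) q := by
    linarith [ang_pyth h₂ f q, ang_sq_nonneg (Γ := Γ) (f - av B₂ f) q]
  have h9 : av Γ (av B₂ f ^ 2) q ≤ (1 - 1 / (E + 1)) * av Γ (f ^ 2) q := by
    rw [sub_mul, one_mul, one_div_mul_eq_div, le_sub_comm, div_le_iff₀ (by positivity)]
    nlinarith
  rw [ang_av_mul h₂ f hg, ← Real.sqrt_mul (by linarith)]
  exact (ang_cs _ _ _).trans (by gcongr)

/-- One step.  Sketch: we may assume `av Γ g q = 0` as well.  With `x² = av Γ ((av B f) ^ 2)`,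
`y² = av Γ ((av B g) ^ 2)`: `x ≤ γ ‖f‖` (from `h₁` with `g = av B f`), `y ≤ γ ‖g‖`, and
`|av Γ (f * g)| ≤ l * √(‖f‖² - x²) * √(‖g‖² - y²) + x * y` (on each coset of `B` apply `h` to
`f - av B f` and `g - av B g`, then Cauchy-Schwarz).  For `‖f‖ = ‖g‖ = 1` the right side is at most
`l + (1 - l) * (x² + y²) / 2` by AM-GM. -/
theorem Ang.step {γ : ℝ} (hB : B ≤ Γ) (hl : 0 ≤ l) (hl' : l ≤ 1) (hγ : 0 ≤ γ)
    (h : Ang B (B ⊓ B₁) (B ⊓ B₂) l) (h₁ : Ang Γ B₁ B γ) (h₂ : Ang Γ B₂ B γ) :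
    Ang Γ B₁ B₂ (l + (1 - l) * γ ^ 2) := by
  have key : ∀ {B' : Subgroup G}, Ang Γ B' B γ → ∀ f : G → ℝ, (∀ q, ∀ x ∈ B', f (q * x) = f q) →
      ∀ q, av Γ f q = 0 → √(av Γ (av B f ^ 2) q) ≤ γ * √(av Γ (f ^ 2) q) := by
    intro B' h f hf q h0
    have h1 := h f (av B f) hf (fun q x hx => ang_mul_mem f q hx) q h0
    rw [ang_av_mul hB f fun q x hx => ang_mul_mem f q hx, ← sq,
      abs_of_nonneg (ang_sq_nonneg _ _)] at h1
    rcases (Real.sqrt_nonneg (av Γ (av B f ^ 2) q)).eq_or_lt with h2 | h2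
    · rw [← h2]; positivity
    · exact le_of_mul_le_mul_right (by rwa [Real.mul_self_sqrt (ang_sq_nonneg _ _)]) h2
  have main : ∀ f g : G → ℝ, (∀ q, ∀ x ∈ B₁, f (q * x) = f q) → (∀ q, ∀ x ∈ B₂, g (q * x) = g q) →
      ∀ q, av Γ f q = 0 → av Γ g q = 0 →
      |av Γ (f * g) q| ≤ (l + (1 - l) * γ ^ 2) * √(av Γ (f ^ 2) q) * √(av Γ (g ^ 2) q) := by
    intro f g hf hg q hf0 hg0
    have hx := key h₁ f hf q hf0
    have hy := key h₂ g hg q hg0
    have h1 : ∀ x, |av B ((f - av B f) * (g - av B g)) x| ≤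
        l * (√(av B ((f - av B f) ^ 2) x) * √(av B ((g - av B g) ^ 2) x)) := fun x => by
      rw [← mul_assoc]
      exact h _ _ (fun q y hy => by simp only [Pi.sub_apply, hf q y hy.2, ang_mul_mem f q hy.1])
        (fun q y hy => by simp only [Pi.sub_apply, hg q y hy.2, ang_mul_mem g q hy.1]) x
        (ang_av_sub f x)
    have h2 := ang_cs (Γ := Γ) (fun x => √(av B ((f - av B f) ^ 2) x))
      (fun x => √(av B ((g - av B g) ^ 2) x)) q
    have h3 : ∀ f : G → ℝ, (fun x => √(av B (f ^ 2) x)) ^ 2 = av B (f ^ 2) := fun f =>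
      funext fun x => Real.sq_sqrt (ang_sq_nonneg f x)
    rw [h3, h3, av_av hB, av_av hB, ang_pyth hB, ang_pyth hB] at h2
    have h4 := ang_lin (Γ := Γ) l 0 0 ((fun x => √(av B ((f - av B f) ^ 2) x)) *
      (fun x => √(av B ((g - av B g) ^ 2) x))) f f q
    simp only [zero_mul, add_zero, Pi.mul_apply] at h4
    have h5 := (ang_abs _ q).trans ((ang_mono (Γ := Γ) h1 q).trans (h4.le.trans
      (mul_le_mul_of_nonneg_left ((le_abs_self _).trans h2) hl)))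
    rw [av_av hB, ang_split hB] at h5
    have h6 := ang_cs (Γ := Γ) (av B f) (av B g) q
    have ef := ang_pyth hB f q
    have eg := ang_pyth hB g q
    have pf := ang_sq_nonneg (Γ := Γ) (f - av B f) q
    have pg := ang_sq_nonneg (Γ := Γ) (g - av B g) q
    have qf := Real.sq_sqrt (ang_sq_nonneg (Γ := Γ) f q)
    have qg := Real.sq_sqrt (ang_sq_nonneg (Γ := Γ) g q)
    have rf := Real.sq_sqrt (ang_sq_nonneg (Γ := Γ) (av B f) q)
    have rg := Real.sq_sqrt (ang_sq_nonneg (Γ := Γ) (av B g) q)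
    have a0 := Real.sqrt_nonneg (av Γ (f ^ 2) q)
    have b0 := Real.sqrt_nonneg (av Γ (g ^ 2) q)
    have x0 := Real.sqrt_nonneg (av Γ (av B f ^ 2) q)
    have y0 := Real.sqrt_nonneg (av Γ (av B g ^ 2) q)
    set a := √(av Γ (f ^ 2) q)
    set b := √(av Γ (g ^ 2) q)
    set x := √(av Γ (av B f ^ 2) q)
    set y := √(av Γ (av B g ^ 2) q)
    have hxa : x ≤ a := abs_le_of_sq_le_sq' (by linarith) a0 |>.2
    have hyb : y ≤ b := abs_le_of_sq_le_sq' (by linarith) b0 |>.2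
    have h7 : √(av Γ (f ^ 2) q - av Γ (av B f ^ 2) q) * √(av Γ (g ^ 2) q - av Γ (av B g ^ 2) q) ≤
        a * b - x * y := by
      rw [← Real.sqrt_mul (by linarith), ← qf, ← qg, ← rf, ← rg]
      exact Real.sqrt_le_iff.2 ⟨sub_nonneg.2 (mul_le_mul hxa hyb y0 a0),
        by nlinarith [sq_nonneg (a * y - b * x)]⟩
    have h8 : x * y ≤ γ ^ 2 * (a * b) := (mul_le_mul hx hy y0 (by positivity)).trans_eq (by ring)
    have h9 := abs_add_le (av Γ (f * g) q - av Γ (av B f * av B g) q) (av Γ (av B f * av B g) q)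
    rw [sub_add_cancel] at h9
    nlinarith [mul_le_mul_of_nonneg_left h7 hl, mul_le_mul_of_nonneg_left h8 (sub_nonneg.2 hl')]
  intro f g hf hg q h0
  have h1 := main f (fun x => g x - av Γ g q) hf (fun q x hx => by simp only [hg q x hx]) q h0
    (by rw [ang_sub_const, sub_self])
  obtain ⟨h2, h3⟩ := ang_center f g h0
  rw [h2] at h1
  have : 0 ≤ l + (1 - l) * γ ^ 2 := add_nonneg hl (mul_nonneg (sub_nonneg.2 hl') (sq_nonneg _))
  exact h1.trans (by gcongr)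

/-- Smaller groups have more invariant functions. -/
lemma Ang.anti {B₁' B₂' : Subgroup G} (h : Ang Γ B₁ B₂ l) (h₁ : B₁ ≤ B₁') (h₂ : B₂ ≤ B₂') :
    Ang Γ B₁' B₂' l :=
  fun f g hf hg => h f g (fun q x hx => hf q x (h₁ hx)) fun q x hx => hg q x (h₂ hx)

/-- Trickling down.  Sketch: let `S` be the set of `γ ≥ 0` with `Ang (Γ K) (Γ (insert i K))
(Γ (insert j K)) γ` for all `i ≠ j` outside `K`; it contains some `γ₀ < 1` (maximum over the pairs,
`exists_ang_lt_one`), contains its infimum `γ` and is stable under `γ ↦ l + (1 - l) * γ ^ 2`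
(`Ang.step` with `B = Γ (insert k K)`, `Ang.anti`).  So `γ ≤ l + (1 - l) * γ ^ 2` and `γ < 1`, i.e.
`(1 - γ) * ((1 - l) * γ - l) ≤ 0`. -/
theorem trickle {Γ : Finset I → Subgroup G} (hΓ : Antitone Γ) {K : Finset I}
    (hK : #K + 3 ≤ Fintype.card I) (hl : 0 ≤ l) (hl' : l < 1)
    (hg : ∀ i j, i ≠ j → Γ K ≤ Γ (insert i K) ⊔ Γ (insert j K))
    (h : ∀ k ∉ K, ∀ i j, i ≠ j → i ∉ insert k K → j ∉ insert k K →
      Ang (Γ (insert k K)) (Γ (insert i (insert k K))) (Γ (insert j (insert k K))) l)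
    {i j : I} (hij : i ≠ j) (hi : i ∉ K) (hj : j ∉ K) :
    Ang (Γ K) (Γ (insert i K)) (Γ (insert j K)) (l / (1 - l)) := by
  set S : Set ℝ := {γ | 0 ≤ γ ∧ ∀ i j, i ≠ j → i ∉ K → j ∉ K →
    Ang (Γ K) (Γ (insert i K)) (Γ (insert j K)) γ} with hS
  obtain ⟨γ₀, h0, h1⟩ : ∃ γ₀ ∈ S, γ₀ < 1 := by
    have : ∀ x : I × I, ∃ γ : ℝ, 0 ≤ γ ∧ γ < 1 ∧
        (x.1 ≠ x.2 → Ang (Γ K) (Γ (insert x.1 K)) (Γ (insert x.2 K)) γ) := fun x => by
      by_cases hx : x.1 = x.2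
      · exact ⟨0, le_rfl, one_pos, fun h => absurd hx h⟩
      · obtain ⟨γ, h1, h2, h3⟩ := exists_ang_lt_one (hΓ (subset_insert x.1 K))
          (hΓ (subset_insert x.2 K)) (hg _ _ hx)
        exact ⟨γ, h1, h2, fun _ => h3⟩
    choose γ h1 h2 h3 using this
    obtain ⟨x, -, hx⟩ := exists_max_image univ γ ⟨(i, j), mem_univ _⟩
    exact ⟨γ x, ⟨h1 x, fun i j hij _ _ => (h3 (i, j) hij).mono (hx _ (mem_univ _))⟩, h2 x⟩
  have hb : BddBelow S := ⟨0, fun γ hγ => hγ.1⟩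
  have h2 : sInf S ∈ S := by
    refine ⟨le_csInf ⟨_, h0⟩ fun γ hγ => hγ.1, fun i j hij hi hj f g hf hg q hq => ?_⟩
    have h3 := fun γ (hγ : γ ∈ S) => hγ.2 i j hij hi hj f g hf hg q hq
    simp only [mul_assoc] at h3 ⊢
    rcases (mul_nonneg (Real.sqrt_nonneg (av (Γ K) (f ^ 2) q))
      (Real.sqrt_nonneg (av (Γ K) (g ^ 2) q))).eq_or_lt with h4 | h4
    · simpa only [← h4, mul_zero] using h3 _ h0
    · exact (div_le_iff₀ h4).1 (le_csInf ⟨_, h0⟩ fun γ hγ => (div_le_iff₀ h4).2 (h3 γ hγ))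
  have h3 : l + (1 - l) * sInf S ^ 2 ∈ S := by
    refine ⟨add_nonneg hl (mul_nonneg (sub_nonneg.2 hl'.le) (sq_nonneg _)), fun i j hij hi hj => ?_⟩
    obtain ⟨k, -, hk⟩ := exists_mem_notMem_of_card_lt_card (s := insert i (insert j K)) (t := univ)
      (by have := card_insert_le i (insert j K); have := card_insert_le j K; rw [card_univ]; omega)
    simp only [mem_insert, not_or] at hk
    refine Ang.step (hΓ (subset_insert k K)) hl hl'.le h2.1 ((h k hk.2.2 i j hij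
      (by simp [hi, Ne.symm hk.1]) (by simp [hj, Ne.symm hk.2.1])).anti ?_ ?_)
      (h2.2 i k (Ne.symm hk.1) hi hk.2.2) (h2.2 j k (Ne.symm hk.2.1) hj hk.2.2)
    · exact le_inf (hΓ (subset_insert _ _)) (hΓ (insert_subset_insert _ (subset_insert _ _)))
    · exact le_inf (hΓ (subset_insert _ _)) (hΓ (insert_subset_insert _ (subset_insert _ _)))
  have h4 := csInf_le hb h3
  have h5 := (csInf_le hb h0).trans_lt h1
  refine (h2.2 i j hij hi hj).mono ((le_div_iff₀ (sub_pos.2 hl')).2 ?_)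
  nlinarith

end

end Crest.Agent.R66
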