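import Crest.Agent.R66.Grp

/-! Row 66: the unitriangular group over the field. -/

set_option autoImplicit false
set_option linter.unusedSectionVars false

namespace Crest.Agent.R66

open Finset Matrix
open scoped Classical

noncomputable section

variable {F R : Type} [Field F] [CommRing R] [Algebra F R] [Finite R] {P : Par F R} {N : ℕ}
  {D : Finset (Fin N)} {c₀ c c' : Fin N} {u u' : Iw P N}

lemma und_eps_self (i : Fin N) : eps P i i = 1 := by simp [eps]

lemma und_exists (hu : u ∈ Hc P c₀) (i j : Fin N) : ∃ x : F, mat u i j = x • eps P i j := by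
  by_cases h : rk c₀ j < rk c₀ i
  · exact ((mem_Hc.1 hu) i j).1 h
  · rw [((mem_Hc.1 hu) i j).2 h]
    by_cases hij : i = j
    · subst hij
      exact ⟨1, by simp [und_eps_self]⟩
    · exact ⟨0, by simp [one_apply_ne hij]⟩

lemma und_one_eq (i j : Fin N) :
    (1 : Matrix (Fin N) (Fin N) R) i j = (1 : Matrix (Fin N) (Fin N) F) i j • eps P i j := by
  by_cases hij : i = j
  · subst hij
    simp [und_eps_self]
  · simp [one_apply_ne hij]

theorem mat_eq_und (hu : u ∈ Hc P c₀) (i j : Fin N) : mat u i j = und u i j • eps P i j := by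
  have h := und_exists hu i j
  simp only [und, of_apply, dif_pos h]
  exact h.choose_spec

lemma und_of_eq (hu : u ∈ Hc P c₀) {i j : Fin N}
    (h : mat u i j = (1 : Matrix (Fin N) (Fin N) R) i j) :
    und u i j = (1 : Matrix (Fin N) (Fin N) F) i j :=
  smul_eps_inj (P := P) (i := i) (j := j) (by rw [← mat_eq_und hu, h, und_one_eq (P := P)])

theorem und_diag (hu : u ∈ Hc P c₀) (i : Fin N) : und u i i = 1 := by
  rw [und_of_eq hu (((mem_Hc.1 hu) i i).2 (lt_irrefl _)), one_apply_eq]

theorem und_eq_zero (hu : u ∈ Hc P c₀) {i j : Fin N} (h : rk c₀ i < rk c₀ j) : und u i j = 0 := by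
  rw [und_of_eq hu (((mem_Hc.1 hu) i j).2 h.not_gt), one_apply_ne]
  rintro rfl
  exact lt_irrefl _ h

theorem und_of_GG (hu : u ∈ Hc P c₀) (hu' : u ∈ GG P D D) {i j : Fin N} (h : i ∉ D ∨ j ∉ D) :
    und u i j = (1 : Matrix (Fin N) (Fin N) F) i j := by
  exact und_of_eq hu (mem_GG.1 hu' i j h)

theorem und_one : und (1 : Iw P N) = 1 := by
  ext i j
  exact und_of_eq (c₀ := i) (Subgroup.one_mem _) rfl

/-- Sketch: `eps_mul` and `smul_eps_inj`. -/
theorem und_mul (hu : u ∈ Hc P c₀) (hu' : u' ∈ Hc P c₀) : und (u * u') = und u * und u' := by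
  ext i j
  refine smul_eps_inj (P := P) (i := i) (j := j) ?_
  rw [← mat_eq_und (Subgroup.mul_mem _ hu hu'), mat_mul, mul_apply, mul_apply, sum_smul]
  refine sum_congr rfl fun l _ => ?_
  rw [mat_eq_und hu, mat_eq_und hu']
  rcases lt_or_ge (rk c₀ i) (rk c₀ l) with h | h
  · rw [und_eq_zero hu h]; simp
  rcases lt_or_ge (rk c₀ l) (rk c₀ j) with h' | h'
  · rw [und_eq_zero hu' h']; simp
  rw [smul_mul_smul_comm, eps_mul P h h']

/-- Sketch: the determinant of `M i j • eps i j` is `1`: it is triangular after reordering the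
indices by `rk c₀` (`Matrix.BlockTriangular.det` or `Matrix.det_submatrix_equiv_self`). -/
theorem exists_und (M : Matrix (Fin N) (Fin N) F) (h1 : ∀ i, M i i = 1)
    (h2 : ∀ i j, rk c₀ i < rk c₀ j → M i j = 0) (h3 : ∀ i j, i ≠ j → i ∉ D ∨ j ∉ D → M i j = 0) :
    ∃ u ∈ Fam P D D {c₀}, und u = M := by
  let A : Matrix (Fin N) (Fin N) R := of fun i j => M i j • eps P i j
  have hA : ∀ i j, A i j = M i j • eps P i j := fun _ _ => rfl
  have hdiag : ∀ i, A i i = 1 := fun i => by rw [hA, h1, und_eps_self, one_smul]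
  have hinj : Function.Injective (rk c₀) := fun _ _ h => rk_inj h
  have hdet : A.det = 1 := by
    let _ : LinearOrder (Fin N) := LinearOrder.lift' (rk c₀) hinj
    have := det_of_isLowerTriangular (m := Fin N) A (fun i j hij => by
      have hij' : rk c₀ i < rk c₀ j := hij
      rw [hA, h2 i j hij', zero_smul])
    refine Eq.trans ?_ (this.trans (by simp [hdiag]))
    congr
  have hdvd : ∀ i j, i ≤ j → P.t ∣ A i j - (1 : Matrix (Fin N) (Fin N) R) i j := by
    intro i j hij
    rcases hij.eq_or_lt with rfl | h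
    · simp [hdiag]
    · rw [one_apply_ne h.ne, sub_zero, hA, eps, if_pos h, Algebra.smul_def]
      exact dvd_mul_left _ _
  have hH : mk A hdet hdvd ∈ Hc P c₀ := by
    refine mem_Hc.2 fun i j => ⟨fun _ => ⟨M i j, rfl⟩, fun h => ?_⟩
    rw [mat_mk]
    by_cases hij : i = j
    · subst hij
      rw [hdiag, one_apply_eq]
    · have : rk c₀ i < rk c₀ j := lt_of_le_of_ne (not_lt.1 h) fun h' => hij (rk_inj h')
      rw [hA, h2 i j this, zero_smul, one_apply_ne hij]
  refine ⟨mk A hdet hdvd, mem_Fam.2 ⟨mem_GG.2 fun i j h => ?_, fun c hc => ?_⟩, ?_⟩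
  · rw [mat_mk]
    by_cases hij : i = j
    · subst hij
      rw [hdiag, one_apply_eq]
    · rw [hA, h3 i j hij h, zero_smul, one_apply_ne hij]
  · rw [mem_singleton.1 hc]; exact hH
  · ext i j
    refine smul_eps_inj (P := P) (i := i) (j := j) ?_
    rw [← mat_eq_und hH, mat_mk, hA]

end

end Crest.Agent.R66
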